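import Crest.Agent.R165.D1.Base
import Crest.Agent.R165.D.Defs2
import Crest.Agent.R165.A.Main

/-! # R165/D4 (owner helper23): basic algebra (coercions, `gmap`, `deg2`, `ev2`) -/

set_option autoImplicit false
noncomputable section
open Classical

namespace Crest.Agent.R165.D4

theorem geoZ_d : geoZ.d = supd := exists_geoZ.choose_spec.1
theorem geoZ_ball : geoZ.ball = box := exists_geoZ.choose_spec.2

/-- bridge between the classical `DecidableEq` (used in `St.Rel`, `grp_rel`, `next_rel`) and the structural one -/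
theorem image_cl {α β : Type} [DecidableEq β] (φ : α → β) (Z : Finset α) :
    @Finset.image α β (fun a b => Classical.propDecidable (a = b)) φ Z = Z.image φ := by
  convert rfl

theorem box_image {φ : Site → Site} (hb : Function.Bijective φ) (hd : ∀ x y, supd (φ x) (φ y) = supd x y)
    (x : Site) (r : ℕ) : box (φ x) r = (box x r).image φ := by
  ext y
  obtain ⟨z, rfl⟩ := hb.2 y
  rw [hb.1.mem_finset_image, mem_box, mem_box, hd]

section general
variable {I J : Type}

theorem nilE (F : Ev I) (h : augE F = 0) : IsNilpotent F := BA.matb_nil F h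
theorem coe_gmapE (T : GV I →ₗ[ℝ] GV J) (a : Ev I) : (gmapE T a : Gr J) = gmap T (a : Gr I) := rfl
theorem coe_muE (g : I → I → ℝ) (a : Ev I) : (muE g a : Gr I) = mu g (a : Gr I) := rfl
theorem coe_th2 (i j : I) : (th2 i j : Gr I) = th i * th j := rfl
theorem coe_revE (a : Ev I) : (revE a : Gr I) = CliffordAlgebra.reverse (a : Gr I) := exists_revE.choose_spec a
theorem augE_apply (a : Ev I) : augE a = aug (a : Gr I) := rfl

theorem vmap_single (T : I → GV J) (i : I) : vmap T (Finsupp.single i 1) = T i := by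
  simp [vmap]

theorem gmap_th (T : GV I →ₗ[ℝ] GV J) (i : I) : gmap T (th i) = ExteriorAlgebra.ι ℝ (T (Finsupp.single i 1)) :=
  gmap_iota T _

theorem pr_single (i : I) (f : I → ℝ) : pr (Finsupp.single i 1) f = f i := by
  simp [pr]

theorem augE_gmapE (T : GV I →ₗ[ℝ] GV J) (a : Ev I) : augE (gmapE T a) = augE a := BA.aug_gmap T _

theorem coe_evP (x : Gr I) : (evP x : Gr I) = (1 / 2 : ℝ) • (x + CliffordAlgebra.involute x) := rfl

theorem coe_toEv' (T : Gr I →ₗ[ℝ] Gr J) (F : Ev I) :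
    (toEv T F : Gr J) = (1 / 2 : ℝ) • (T F + CliffordAlgebra.involute (T F)) := rfl

theorem coe_toEv {T : Gr I →ₗ[ℝ] Gr J} {F : Ev I} (h : T F ∈ CliffordAlgebra.even (0 : QuadraticForm ℝ (GV J))) :
    (toEv T F : Gr J) = T F := by
  rw [coe_toEv', CliffordAlgebra.involute_eq_of_mem_even h]
  module

theorem toEv_of_eq {T : Gr I →ₗ[ℝ] Gr J} {F : Ev I} {G : Ev J} (h : T (F : Gr I) = (G : Gr J)) : toEv T F = G :=
  Subtype.ext (by rw [coe_toEv (h ▸ G.2), h])

theorem gmap_involute (T : GV I →ₗ[ℝ] GV J) (x : Gr I) :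
    gmap T (CliffordAlgebra.involute x) = CliffordAlgebra.involute (gmap T x) := by
  induction x using CliffordAlgebra.left_induction with
  | algebraMap r => simp only [AlgHom.commutes]
  | add _ _ hx hy => simp only [map_add, hx, hy]
  | ι_mul x m hx => simp only [map_mul, CliffordAlgebra.involute_ι, map_neg, gmap_iota, hx]

/-- an intertwining relation on `Gr` passes to the even algebra -/
theorem toEv_comm {T : Gr I →ₗ[ℝ] Gr I} {T' : Gr J →ₗ[ℝ] Gr J} (U : GV I →ₗ[ℝ] GV J) {F : Ev I}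
    (h : T' (gmap U (F : Gr I)) = gmap U (T F)) : toEv T' (gmapE U F) = gmapE U (toEv T F) :=
  Subtype.ext (by rw [coe_toEv', coe_gmapE, coe_gmapE, coe_toEv', h, map_smul, map_add, gmap_involute])

theorem gmap_congr {T T' : GV I →ₗ[ℝ] GV J} {S : Set I}
    (h : ∀ i ∈ S, T (Finsupp.single i 1) = T' (Finsupp.single i 1)) {x : Gr I} (hx : x ∈ supA S) :
    gmap T x = gmap T' x := by
  refine supA_induction ?_ (fun x y hx hy => ?_) (fun c x hx => ?_) (fun i hi x _ hx => ?_) hx
  · rw [map_one, map_one]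
  · rw [map_add, map_add, hx, hy]
  · rw [map_smul, map_smul, hx]
  · rw [map_mul, map_mul, hx, gmap_th, gmap_th, h i hi]

theorem gmap_mem {T : GV I →ₗ[ℝ] GV J} {S : Set I} {S' : Set J}
    (h : ∀ i ∈ S, ↑(T (Finsupp.single i 1)).support ⊆ S') {x : Gr I} (hx : x ∈ supA S) : gmap T x ∈ supA S' := by
  refine supA_induction ?_ (fun x y hx hy => ?_) (fun c x hx => ?_) (fun i hi x _ hx => ?_) hx
  · rw [map_one]; exact Subalgebra.one_mem _
  · rw [map_add]; exact Subalgebra.add_mem _ hx hy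
  · rw [map_smul]; exact Subalgebra.smul_mem _ hx c
  · rw [map_mul, gmap_th]; exact Subalgebra.mul_mem _ (iota_mem_supA (h i hi)) hx

/-! ### leaf `Alg`: degree two -/

/-- `gmap T` preserves `⋀[ℝ]^i` (`Submodule.pow_induction_on_left`), then `DirectSum.Decomposition.inductionOn`,
`GradedAlgebra.proj_apply`, `DirectSum.decompose_of_mem_same`, `decompose_of_mem_ne` -/
theorem deg2_gmap (T : GV I →ₗ[ℝ] GV J) (x : Gr I) : deg2 (gmap T x) = gmap T (deg2 x) := by
  exact D1.deg2_gmap T x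

/-- `deg2 x ∈ ⋀[ℝ]^2` (`(decompose _ x 2).2`); every element of `⋀[ℝ]^2 = range ι ^ 2` is a sum of `ι u * ι v`
(`pow_two`, `Submodule.mul_induction_on`) -/
theorem deg2_induction {P : Gr I → Prop} (h0 : ∀ u v, P (ExteriorAlgebra.ι ℝ u * ExteriorAlgebra.ι ℝ v))
    (hadd : ∀ x y, P x → P y → P (x + y)) (x : Gr I) : P (deg2 x) := by
  have h := D1.deg2_mem x
  rw [ExteriorAlgebra.exteriorPower, pow_two] at h
  refine Submodule.mul_induction_on h ?_ hadd
  rintro _ ⟨u, rfl⟩ _ ⟨v, rfl⟩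
  exact h0 u v

theorem deg2_iota (u v : GV I) :
    deg2 (ExteriorAlgebra.ι ℝ u * ExteriorAlgebra.ι ℝ v) = ExteriorAlgebra.ι ℝ u * ExteriorAlgebra.ι ℝ v := by
  exact D1.deg2_iota_iota u v

theorem deg2_deg2 (x : Gr I) : deg2 (deg2 x) = deg2 x := by
  exact D1.deg2_deg2 x

theorem deg2_even (x : Gr I) : deg2 x ∈ CliffordAlgebra.even (0 : QuadraticForm ℝ (GV I)) := by
  exact D1.deg2_even x

theorem aug_deg2 (x : Gr I) : aug (deg2 x) = 0 := by
  refine deg2_induction (P := fun y => aug y = 0) (fun u v => ?_) (fun x y hx hy => ?_) x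
  · simp [aug, ExteriorAlgebra.algebraMapInv]
  · rw [map_add, hx, hy, add_zero]

/-- `deg2_gmap`, `deg2_induction` -/
theorem deg2_gmap_smul {s : ℝ} (hs : s * s = 1) (T : GV I →ₗ[ℝ] GV J) (x : Gr I) :
    deg2 (gmap (s • T) x) = deg2 (gmap T x) := by
  rw [deg2_gmap, deg2_gmap]
  refine deg2_induction (P := fun y => gmap (s • T) y = gmap T y) (fun u v => ?_) (fun x y hx hy => ?_) x
  · simp only [map_mul, gmap_iota, LinearMap.smul_apply, map_smul, smul_mul_smul_comm, hs, one_smul]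
  · rw [map_add, map_add, hx, hy]

/-- with the projection `vmap fun i => if i ∈ S then single i 1 else 0`: `gmap_congr`, `gmap_id`, `deg2_gmap`, `gmap_mem` -/
theorem deg2_mem_supA {S : Set I} {x : Gr I} (hx : x ∈ supA S) : deg2 x ∈ supA S := by
  have hid : ∀ y : Gr I, gmap (LinearMap.id : GV I →ₗ[ℝ] GV I) y = y := fun y => by
    simp [gmap, ExteriorAlgebra.map_id]
  have h1 : gmap (vmap fun i => if i ∈ S then Finsupp.single i (1 : ℝ) else 0) x = x := by
    rw [gmap_congr (T' := LinearMap.id) (fun i hi => by rw [vmap_single, if_pos hi]; rfl) hx, hid]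
  rw [← h1, deg2_gmap]
  refine gmap_mem (S := Set.univ) (fun i _ => ?_) (mem_supA_univ _)
  rw [vmap_single]
  split_ifs with hi
  · exact (Finset.coe_subset.2 Finsupp.support_single_subset).trans (by simpa using hi)
  · simp

/-- `deg2_iota`, `gauss_iota_mul`, `ctr_iota_mul`; `bil k u v = pr u f * pr v f' - pr u f' * pr v f` (`bil_ext`) -/
theorem ev2_iota (f f' : I → ℝ) (u v : GV I) :
    ev2 f f' (ExteriorAlgebra.ι ℝ u * ExteriorAlgebra.ι ℝ v) = pr u f * pr v f' - pr u f' * pr v f := by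
  exact D1.ev2_iota_iota f f' u v

theorem ev2_deg2 (f f' : I → ℝ) (x : Gr I) : ev2 f f' (deg2 x) = ev2 f f' x := by
  exact D1.ev2_deg2 f f' x

/-- `ev2_deg2`, `deg2_gmap`, `deg2_induction`, `ev2_iota`; `pr (T u) f = pr u fun i => pr (T (single i 1)) f` -/
theorem ev2_gmap (T : GV I →ₗ[ℝ] GV J) (f f' : J → ℝ) (x : Gr I) :
    ev2 f f' (gmap T x) = ev2 (fun i => pr (T (Finsupp.single i 1)) f) (fun i => pr (T (Finsupp.single i 1)) f') x := by
  exact D1.ev2_gmap T f f' x

/-- `mu_congr`, `deg2_mem_supA` -/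
theorem ev2_congr {f f' g g' : I → ℝ} {S : Set I}
    (h : ∀ i ∈ S, ∀ j ∈ S, f i * f' j - f' i * f j = g i * g' j - g' i * g j) {x : Gr I} (hx : x ∈ supA S) :
    ev2 f f' x = ev2 g g' x := by
  simp only [ev2, gauss, LinearMap.comp_apply]
  rw [mu_congr h (deg2_mem_supA hx)]

end general

end Crest.Agent.R165.D4
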