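import Crest.Agent.R165.D4.Bd1

/-! # R165/D4 (owner helper23): size of the perturbation and of the local potential at scale 0 -/

set_option autoImplicit false
noncomputable section
open Classical

namespace Crest.Agent.R165.D4

/-! ### leaf `Bd3-a` -/

/-- translate a point of `B` to `0`: `B.image (· + -x) ⊆ box 0 R`, finitely many values (`Finset.sup'` or a sum of `|V|`) -/
theorem V_bdd {R : ℕ} {V : Finset Site → ℝ} (hV : PotOK R V) : ∃ M : ℝ, 0 ≤ M ∧ ∀ B, |V B| ≤ M := by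
  refine ⟨∑ A ∈ (box 0 R).powerset, |V A|, Finset.sum_nonneg fun _ _ => abs_nonneg _, fun B => ?_⟩
  by_cases h0 : V B = 0
  · rw [h0, abs_zero]
    exact Finset.sum_nonneg fun _ _ => abs_nonneg _
  have key : ∃ A ∈ (box 0 R).powerset, V A = V B := by
    rcases B.eq_empty_or_nonempty with rfl | ⟨x, hx⟩
    · exact ⟨∅, Finset.empty_mem_powerset _, rfl⟩
    · refine ⟨_, Finset.mem_powerset.2 fun z hz => ?_, hV.trans B (-x)⟩
      obtain ⟨y, hy, rfl⟩ := Finset.mem_image.1 hz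
      have := hV.range B h0 y hy x hx
      simp only [abs_le] at this
      rw [mem_box']
      simp only [Prod.fst_zero, Prod.snd_zero, Prod.fst_add, Prod.snd_add, Prod.fst_neg, Prod.snd_neg]
      omega
  obtain ⟨A, hA, e⟩ := key
  rw [← e]
  exact Finset.single_le_sum (f := fun A => |V A|) (fun _ _ => abs_nonneg _) hA

theorem abs_sB_le (B : Finset Site) (n : Cfg) : |sB B n| ≤ 1 := by
  unfold sB
  split_ifs with h
  · rw [Finset.abs_prod]
    refine Finset.prod_le_one (fun _ _ => abs_nonneg _) fun z _ => ?_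
    unfold Crest.ProbabilityR.IsingModel.spinSign
    split_ifs <;> simp
  · simp

/-- `pertF = exp (Σ …)`, at most `2 ^ |Y|` shapes, `|exp t - 1| ≤ 2 |t|` (`Real.abs_exp_sub_one_le`), `tiny_bSites`, `Tiny.card` -/
theorem actV_size {R : ℕ} {V : Finset Site → ℝ} (hV : PotOK R V) : ∃ C ε : ℝ, 0 ≤ C ∧ 0 < ε ∧ ∀ (𝔤 : Geom) (μ : ℝ),
    (∀ B ∈ 𝔤.shp, IsShape R B) → |μ| ≤ ε → ∀ Y n, ∃ t : ℝ, 𝔤.actV μ V Y n = t • (1 : Al) ∧
      |t| ≤ if Tiny R Y then C * |μ| else 0 := by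
  obtain ⟨M, hM, hB⟩ := V_bdd hV
  set N : ℝ := 2 ^ ((2 * R + 3) ^ 2) * M with hN
  have hN0 : 0 ≤ N := by positivity
  refine ⟨2 * N, 1 / (N + 1), by positivity, by positivity, fun 𝔤 μ hs hμ Y n =>
    ⟨pertF (Y.powerset.filter fun B => B ∈ 𝔤.shp ∧ bSites B = Y) μ V n - 1, Algebra.algebraMap_eq_smul_one _, ?_⟩⟩
  split_ifs with hT
  · rw [pertF, ← Real.exp_sum]
    have h1 : |∑ B ∈ Y.powerset.filter (fun B => B ∈ 𝔤.shp ∧ bSites B = Y), μ * V B * sB B n| ≤ N * |μ| := by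
      refine (Finset.abs_sum_le_sum_abs _ _).trans ((Finset.sum_le_card_nsmul _ _ (M * |μ|) fun B _ => ?_).trans ?_)
      · rw [abs_mul, abs_mul, mul_comm M]
        exact (mul_le_of_le_one_right (by positivity) (abs_sB_le B n)).trans
          (mul_le_mul_of_nonneg_left (hB B) (abs_nonneg _))
      · rw [nsmul_eq_mul, hN, mul_assoc]
        refine mul_le_mul_of_nonneg_right ?_ (by positivity)
        have : (Y.powerset.filter fun B => B ∈ 𝔤.shp ∧ bSites B = Y).card ≤ 2 ^ ((2 * R + 3) ^ 2) :=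
          (Finset.card_filter_le _ _).trans (by
            rw [Finset.card_powerset]
            exact Nat.pow_le_pow_right (by norm_num) hT.card.1)
        exact_mod_cast this
    have h2 : N * |μ| ≤ 1 := by
      refine (mul_le_mul_of_nonneg_left hμ hN0).trans ?_
      rw [mul_one_div, div_le_one (by positivity)]
      linarith
    refine (Real.abs_exp_sub_one_le (h1.trans h2)).trans ?_
    linarith
  · have : (Y.powerset.filter fun B => B ∈ 𝔤.shp ∧ bSites B = Y) = ∅ :=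
      Finset.filter_eq_empty_iff.2 fun B _ hB => hT (hB.2 ▸ tiny_bSites (hs B hB.1))
    rw [this, pertF, Finset.prod_empty, sub_self, abs_zero]

/-- the tiny sets near `y` are subsets of `box y (l + R + 1)`; `Tiny.card` -/
theorem tiny_sum (R l : ℕ) {κ : ℝ} (hκ : 0 ≤ κ) : ∃ N : ℝ, 0 ≤ N ∧ ∀ (t : ℝ) (y : Site) (𝒮 : Finset (Finset Site)), 0 ≤ t →
    (∀ Z ∈ 𝒮, ∃ z ∈ Z, supd y z ≤ l) → ∑ Z ∈ 𝒮, fE κ Z * (if Tiny R Z then t else 0) ≤ N * t := by
  refine ⟨2 ^ ((2 * (l + R + 1) + 1) ^ 2) * (1 + 2 * κ) ^ (2 * (2 * R + 3) ^ 2), by positivity,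
    fun t y 𝒮 ht h => ?_⟩
  simp only [mul_ite, mul_zero]
  rw [← Finset.sum_filter]
  refine (Finset.sum_le_card_nsmul _ _ ((1 + 2 * κ) ^ (2 * (2 * R + 3) ^ 2) * t) fun Z hZ => ?_).trans ?_
  · exact mul_le_mul_of_nonneg_right
      (pow_le_pow_right₀ (by linarith) (Finset.mem_filter.1 hZ).2.card.2) ht
  · rw [nsmul_eq_mul, mul_assoc]
    refine mul_le_mul_of_nonneg_right ?_ (by positivity)
    have : (𝒮.filter fun Z => Tiny R Z).card ≤ 2 ^ ((2 * (l + R + 1) + 1) ^ 2) := by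
      rw [← card_box y, ← Finset.card_powerset]
      refine Finset.card_le_card fun Z hZ => Finset.mem_powerset.2 fun x hx => ?_
      obtain ⟨hZ, hT⟩ := Finset.mem_filter.1 hZ
      obtain ⟨z, hz, hyz⟩ := h Z hZ
      have h1 := hT.2 x hx z hz
      have h2 := supd_triangle x z y
      rw [supd_comm] at hyz
      rw [mem_box_supd]
      omega
    exact_mod_cast this

/-! ### leaf `Bd3-b` -/

private theorem bd3b_crit {c : ℝ × ℝ} (h2 : |c.2| ≤ 1 / 10) {w : ℝ} (hw : |w| = tc) :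
    |(1 + c.2) * (tOf c / tc * w) - w| ≤ |c.1| + |c.2| := by
  have h0 := tc_pos
  have h3 : 1 + c.2 ≠ 0 := by have := (abs_le.1 h2).1; linarith
  have h4 : (1 + c.2) * (tOf c / tc * w) - w = (c.1 + c.2 * tc) * (w / tc) := by
    have := h0.1.ne'
    unfold tOf
    field_simp
    ring
  rw [h4, abs_mul, abs_div, hw, abs_of_pos h0.1, div_self h0.1.ne', mul_one]
  refine (abs_add_le _ _).trans (add_le_add le_rfl ?_)
  rw [abs_mul, abs_of_pos h0.1]
  exact mul_le_of_le_one_right (abs_nonneg _) h0.2.le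

private theorem bd3b_sqrt {t : ℝ} (h2 : |t| ≤ 1 / 10) : |Real.sqrt (1 + t) - 1| ≤ |t| := by
  have h3 : 0 ≤ 1 + t := by have := (abs_le.1 h2).1; linarith
  have h4 := Real.mul_self_sqrt h3
  have h5 := Real.sqrt_nonneg (1 + t)
  have h6 : t = (Real.sqrt (1 + t) - 1) * (Real.sqrt (1 + t) + 1) := by linarith
  conv_rhs => rw [h6, abs_mul]
  exact le_mul_of_one_le_right (abs_nonneg _) ((le_abs_self _).trans' (by linarith))

private theorem bd3b_rho {t : ℝ} (h2 : |t| ≤ 1 / 10) (P Q : Prop) :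
    |(if P then Real.sqrt (1 + t) else 1) * (if Q then Real.sqrt (1 + t) else 1) - 1| ≤ |t| := by
  have h3 : 0 ≤ 1 + t := by have := (abs_le.1 h2).1; linarith
  have h4 := bd3b_sqrt h2
  split_ifs
  · rw [Real.mul_self_sqrt h3, add_sub_cancel_left]
  · rwa [mul_one]
  · rwa [one_mul]
  · simp

/-- `bd0_eM` at `x = e.1`; `|(1 + c.2) * wT e| ≤ 2` (`(1 + c.2) * tOf c = (1 + c.2) * tc + c.1`, `0 < tc < 1 / 2`) -/
theorem bd_xE {p : Par} {R : ℕ} {c : ℝ × ℝ} {𝔤 : Geom} (h : InitOK p R c 𝔤) (hΓ : 0 < 𝔤.Gam 0) (h1 : |c.1| ≤ 1 / 10)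
    (h2 : |c.2| ≤ 1 / 10) (Z : Finset Site) {e : Edge} (he : e ∈ edgesIn Z) :
    𝔤.Bd p 0 Z (𝔤.xE c e) (2 * 𝔤.Gam 0 ^ 2) := by
  have hB := bdAx_BdU (𝔤.U p 0)
  refine hB.mono (hB.smul _ (bd0_eM p 𝔤 hΓ e e.1 ((supd_self _).trans_le (Nat.zero_le _))).1)
    (Finset.singleton_subset_iff.2 (mem_edgesIn.1 he).1) (mul_le_mul_of_nonneg_right ?_ (sq_nonneg _))
  have h3 := h.wle e
  unfold Geom.wT
  split_ifs with hw
  · have h4 := bd3b_crit h2 hw
    have h5 := abs_add_le ((1 + c.2) * (tOf c / tc * 𝔤.w e) - 𝔤.w e) (𝔤.w e)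
    rw [sub_add_cancel] at h5
    linarith
  · rw [abs_mul]
    have h5 := abs_add_le 1 c.2
    rw [abs_one] at h5
    nlinarith [abs_nonneg (𝔤.w e), abs_nonneg (1 + c.2)]

/-- `bd0_eM`; `|ρ x ^ 2 - 1| ≤ |c.2|`; the edge coefficient: if `|w e| = tc` both ends are in `Λ` (`InitOK.crit`,
`BA.rho_edgeOf`) and it is `(c.2 + c.1 / tc) w e`; otherwise `(ρ ρ' - 1) w e` with `|√(1 + c.2) - 1| ≤ |c.2|` -/
theorem bd_q {p : Par} {R : ℕ} {c : ℝ × ℝ} {𝔤 : Geom} (h : InitOK p R c 𝔤) (hΓ : 0 < 𝔤.Gam 0) (h1 : |c.1| ≤ 1 / 10)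
    (h2 : |c.2| ≤ 1 / 10) (μ : ℝ) (V : Finset Site → ℝ) (x : Site) :
    𝔤.Bd p 0 {x} ((𝔤.s0 p c μ V).q x) (8 * 𝔤.Gam 0 ^ 2 * (|c.1| + |c.2|)) := by
  have hB := bdAx_BdU (𝔤.U p 0)
  have he : ∀ α, supd x (edgeOf x α).1 ≤ 2 := fun α => by
    rw [supd_comm]; exact (B3.supd_edgeOf x α).1.trans one_le_two
  have hc : ∀ α, |(if x ∈ 𝔤.Λ then Real.sqrt (1 + c.2) else 1) * (if x + dv α ∈ 𝔤.Λ then Real.sqrt (1 + c.2) else 1) *
      𝔤.wT (tOf c) (edgeOf x α) - 𝔤.w (edgeOf x α)| ≤ |c.1| + |c.2| := fun α => by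
    unfold Geom.wT
    by_cases hw : |𝔤.w (edgeOf x α)| = tc
    · have h3 := BA.rho_edgeOf (fun y => if y ∈ 𝔤.Λ then Real.sqrt (1 + c.2) else 1) x α
      rw [if_pos hw, h3, if_pos (h.crit _ hw).1, if_pos (h.crit _ hw).2,
        Real.mul_self_sqrt (by have := (abs_le.1 h2).1; linarith)]
      exact bd3b_crit h2 hw
    · rw [if_neg hw, ← sub_one_mul, abs_mul]
      exact (mul_le_of_le_one_right (abs_nonneg _) (h.wle _)).trans
        ((bd3b_rho h2 _ _).trans (le_add_of_nonneg_left (abs_nonneg _)))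
  refine hB.mono (hB.add (hB.smul _ (bd0_eM p 𝔤 hΓ _ x (he 0)).2)
    (hB.sum (c := fun _ => 1 / 2 * (|c.1| + |c.2|) * 𝔤.Gam 0 ^ 2) Finset.univ fun α _ =>
      hB.mono (hB.smul _ (bd0_eM p 𝔤 hΓ _ x (he α)).1) subset_rfl (mul_le_mul_of_nonneg_right ?_ (sq_nonneg _))))
    subset_rfl ?_
  · rw [abs_mul, abs_of_pos (by norm_num : (0 : ℝ) < 1 / 2)]
    exact mul_le_mul_of_nonneg_left (hc α) (by norm_num)
  · have h3 := mul_le_mul_of_nonneg_right (bd3b_rho h2 (x ∈ 𝔤.Λ) (x ∈ 𝔤.Λ)) (sq_nonneg (𝔤.Gam 0))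
    rw [← pow_two] at h3
    have h4 := mul_nonneg (abs_nonneg c.1) (sq_nonneg (𝔤.Gam 0))
    rw [Finset.sum_const, Finset.card_univ, Fintype.card_fin, nsmul_eq_mul]
    push_cast
    nlinarith

end Crest.Agent.R165.D4
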