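import Crest.Agent.R165.D4.Bd2
import Crest.Agent.R165.D4.Bd3

/-! # R165/D4 (owner helper23): size of the initial state -/

set_option autoImplicit false
noncomputable section
open Classical

namespace Crest.Agent.R165.D4

theorem s0_bound' {R : ℕ} {k : Cons} (hk : ConsOK R k) {V : Finset Site → ℝ} (hV : PotOK R V) :
    ∃ C₀ ε₀ : ℝ, 1 ≤ C₀ ∧ 0 < ε₀ ∧ ∀ (𝔤 : Geom) (c : ℝ × ℝ) (μ ε₁ : ℝ), InitOK k.p R c 𝔤 → 𝔤.Gam 0 = k.Γ₀ →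
      |c.1| ≤ ε₀ → |c.2| ≤ ε₀ → |μ| ≤ ε₀ → 0 ≤ ε₁ → ε₁ ≤ ε₀ → (𝔤.m = 0 ∨ 0 < 𝔤.h 0) →
      (𝔤.m = 0 ∨ (𝔤.jN = 0 ∧ Src0 k 𝔤 ε₁) ∨ (0 < 𝔤.jN ∧ 𝔤.h 0 * k.Γ₀ ^ 2 ≤ ε₁ ∧
        ∀ i < 𝔤.m, ∀ i' < 𝔤.m, i ≠ i' → 4 * k.p.l0 ≤ supd (𝔤.y i).1 (𝔤.y i').1)) →
      geoZ.PN (𝔤.Bd k.p 0) k.p.l0 k.a (𝔤.s0 k.p c μ V).K (C₀ * |μ|) ∧
      geoZ.PN (𝔤.Bd k.p 0) k.p.l0 k.a (𝔤.s0 k.p c μ V).M (C₀ * ε₁) ∧
      geoZ.SN (𝔤.Bd k.p 0) k.p.l0 (𝔤.s0 k.p c μ V).q (C₀ * (|c.1| + |c.2|)) := by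
  obtain ⟨C₂, hC₂, hsrc⟩ := src_sum hk
  obtain ⟨CV, εV, hCV, hεV, hact⟩ := actV_size hV
  have hκ : (0 : ℝ) ≤ 2 * k.Γ₀ ^ 2 := by positivity
  obtain ⟨N, hN, htiny⟩ := tiny_sum R k.p.l0 hκ
  have ha : 1 ≤ k.a := by linarith [hk.one.2.1, hk.one.2.2.1]
  obtain ⟨Cg, εg, hCg, hεg, hgrp⟩ := grp_bound k.a ha
  have hl0 : 1 ≤ k.p.l0 := hk.pok.2.2.1
  have hΓ : 0 < k.Γ₀ := by
    have h1 : 0 < k.p.l 1 := Nat.mul_pos hl0 (Nat.pow_pos (by have := hk.pok.1; omega))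
    have h2 : (0 : ℝ) < k.p.l 1 := by exact_mod_cast h1
    have h3 := hk.one.1
    have h4 := hk.gam.1
    rw [hk.gam.2]
    have : 0 < k.Γ₁ := by linarith
    positivity
  have hNC : 0 ≤ N * CV := mul_nonneg hN hCV
  have hD : (0 : ℝ) ≤ ((2 * k.p.l0 + 1 : ℕ) : ℝ) ^ 2 * (8 * k.Γ₀ ^ 2) := by positivity
  have hE : 0 ≤ Cg * (N * CV) := mul_nonneg hCg.le hNC
  refine ⟨1 + Cg * (N * CV) + 4 * C₂ + ((2 * k.p.l0 + 1 : ℕ) : ℝ) ^ 2 * (8 * k.Γ₀ ^ 2),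
    min (min (1 / 10) εV) (min (min (εg / (2 * C₂)) (1 / (98 * C₂))) (εg / (N * CV + 1))), by linarith, by positivity,
    fun 𝔤 c μ ε₁ h hG h1 h2 hμ h0 hε hh hs => ?_⟩
  simp only [le_min_iff] at h1 h2 hμ hε
  have hB : BdAx (𝔤.Bd k.p 0) augE := bdAx_BdU _
  obtain ⟨b, hb, hsum⟩ := hsrc 𝔤 c ε₁ h h1.1.1 h2.1.1 h0 hh hs
  have e1 : 2 * (C₂ * ε₁) ≤ εg := by
    have := (le_div_iff₀ (by positivity)).1 hε.2.1.1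
    linarith
  have e2 : 2 * (C₂ * ε₁) ≤ 1 / 49 := by
    have := (le_div_iff₀ (by positivity)).1 hε.2.1.2
    linarith
  have e3 : N * (CV * |μ|) ≤ εg := by
    have := (le_div_iff₀ (by positivity)).1 hμ.2.2
    nlinarith [abs_nonneg μ]
  have hb0 : ∀ i < 𝔤.m, 0 ≤ 𝔤.h 0 * b i := fun i hi =>
    mul_nonneg (hh.resolve_left (by omega)).le ((abs_nonneg _).trans (hb i hi fun _ => false))
  have nb := nb_pi0 𝔤 k.p.l0 (a := 3 * k.a) (by linarith) hκ (by linarith) hb0 hsum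
  have b₀ := bd_actO h hh hb
  have b₁ : ∀ Y n, 𝔤.Bd k.p 0 Y (𝔤.actV μ V Y n) (if Tiny R Y then CV * |μ| else 0) := fun Y n => by
    obtain ⟨t, ht, ht'⟩ := hact 𝔤 μ (fun B hB => (h.shape B hB).1) hμ.1.2 Y n
    rw [ht]
    exact hB.mono (hB.smul t (hB.one Y)) subset_rfl (by rwa [mul_one])
  have hx : ∀ Z, ∀ e ∈ edgesIn Z, 𝔤.Bd k.p 0 Z (𝔤.xE c e) (2 * k.Γ₀ ^ 2) := fun Z e he =>
    hG ▸ bd_xE h (hG ▸ hΓ) h1.1.1 h2.1.1 Z he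
  have key := bd_hat_grp hB k.p.l0 hκ hx (actO_dependsOn h) (actV_dependsOn 𝔤 μ V) b₀ b₁
  have hf : ∀ Y, 0 ≤ fE (2 * k.Γ₀ ^ 2) Y := fun Y => by rw [fE]; positivity
  have hp₀ : ∀ Y, 0 ≤ fE (2 * k.Γ₀ ^ 2) Y * pi0 𝔤 b Y := fun Y => mul_nonneg (hf Y) (hB.nonneg (b₀ Y fun _ => false))
  have hz : ∀ Y, ¬ geoZ.Conn k.p.l0 Y → fE (2 * k.Γ₀ ^ 2) Y * pi0 𝔤 b Y = 0 := fun Y hY => by
    rw [pi0_eq_zero 𝔤 b (Y := Y) fun i hi e => hY (e ▸ (h.obs i hi).1), mul_zero]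
  refine ⟨⟨_, fun Z => ⟨hB.nonneg (key Z).2, (key Z).2⟩, fun y 𝒮 h𝒮 => ?_⟩,
    ⟨_, fun Z => ⟨hB.nonneg (key Z).1, (key Z).1⟩, fun y 𝒮 h𝒮 => ?_⟩,
    ⟨fun _ => 8 * k.Γ₀ ^ 2 * (|c.1| + |c.2|), fun x => ⟨by positivity, hG ▸ bd_q h (hG ▸ hΓ) h1.1.1 h2.1.1 μ V x⟩,
      fun y => ?_⟩⟩
  · refine (hgrp Site geoZ k.p.l0 _ (fun Y => fE (2 * k.Γ₀ ^ 2) Y * if Tiny R Y then CV * |μ| else 0) εg
      (N * (CV * |μ|)) hl0 (fun Y => ⟨hp₀ Y, mul_nonneg (hf Y) (hB.nonneg (b₁ Y fun _ => false))⟩) (fun Y hY => ?_) hz e3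
      le_rfl (fun y 𝒮 h𝒮 => ⟨(nb y 𝒮 h𝒮).trans e1, htiny _ y 𝒮 (by positivity) (by rwa [geoZ_d] at h𝒮)⟩) y 𝒮 h𝒮).trans ?_
    · rw [if_neg fun ht => hY (ht.conn (by have := hk.l0.2; omega)), mul_zero]
    · nlinarith [abs_nonneg μ]
  · refine (Geo.NB.grp k.p.l0 hl0 ha (k := fun _ => 0) (δ := 2 * (C₂ * ε₁)) hp₀ (fun _ => le_rfl)
      (hz ∅ fun hc => Finset.not_nonempty_empty hc.1) ?_ e2 y 𝒮 h𝒮).trans (by nlinarith)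
    simpa only [add_zero, mul_comm k.a 3] using nb
  · rw [geoZ_ball, Finset.sum_const, card_box, nsmul_eq_mul, Nat.cast_pow]
    nlinarith [abs_nonneg c.1, abs_nonneg c.2]

end Crest.Agent.R165.D4
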