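import Crest.Agent.R165.D4.Hat

/-! # R165/D4 (owner helper23): gauge bounds for `hat` of a Mayer expansion -/

set_option autoImplicit false
noncomputable section
open Classical

namespace Crest.Agent.R165.D4

variable {A : Type} [CommRing A] [Algebra ℝ A] [Algebra ℚ A] {Bd : Finset Site → A → ℝ → Prop} {e : A →ₐ[ℝ] ℝ}

/-- induction on `E` (generalizing `F`) with `BA.hat_insert`, `BA.hat_empty`; `BdAx.add/mul/neg/mono` -/
theorem bd_hat (hB : BdAx Bd e) {Z : Finset Site} {x : Edge → A} {κ : ℝ} (hκ : 0 ≤ κ) (E : Finset Edge)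
    (hx : ∀ e ∈ E, Bd Z (x e) κ) {F : Cfg → A} {c : ℝ} (hF : ∀ n, Bd Z (F n) c) :
    Bd Z (hat x E F) ((1 + 2 * κ) ^ E.card * c) := by
  induction E using Finset.induction_on generalizing F with
  | empty => simpa [BA.hat_empty] using hF _
  | insert i E hi ih =>
    have h1 := fun j hj => hx j (Finset.mem_insert_of_mem hj)
    rw [BA.hat_insert x hi, Finset.card_insert_of_notMem hi, sub_eq_add_neg]
    convert hB.add (ih h1 hF) (hB.mul (hx i (Finset.mem_insert_self _ _))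
      (hB.add (ih h1 (F := fun n => F (Function.update n i true)) fun n => hF _) (hB.neg (ih h1 hF)))) using 1
    ring

/-- the weight of the edges of a polymer -/
def fE (κ : ℝ) (Y : Finset Site) : ℝ := (1 + 2 * κ) ^ (edgesIn Y).card

/-- a function of the edges of the members of `𝒮`: `hat_congr` to `𝒮.biUnion edgesIn`, `bd_hat`, `Finset.card_biUnion_le`,
`Finset.prod_pow_eq_pow_sum` -/
theorem bd_hat_fam (hB : BdAx Bd e) {Z : Finset Site} {x : Edge → A} {κ : ℝ} (hκ : 0 ≤ κ)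
    (hx : ∀ e ∈ edgesIn Z, Bd Z (x e) κ) {𝒮 : Finset (Finset Site)} (h𝒮 : ∀ Y ∈ 𝒮, Y ⊆ Z) {F : Cfg → A}
    (hd : DependsOn F ↑(𝒮.biUnion edgesIn)) {c : ℝ} (hF : ∀ n, Bd Z (F n) c) :
    Bd Z (hat x (edgesIn Z) F) ((∏ Y ∈ 𝒮, fE κ Y) * c) := by
  have hE : 𝒮.biUnion edgesIn ⊆ edgesIn Z := Finset.biUnion_subset.2 fun Y hY => edgesIn_mono (h𝒮 Y hY)
  rw [hat_congr x hE hd]
  refine hB.mono (bd_hat hB hκ _ (fun i hi => hx i (hE hi)) hF) subset_rfl ?_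
  refine mul_le_mul_of_nonneg_right ?_ (hB.nonneg (hF fun _ => false))
  simp only [fE]
  rw [Finset.prod_pow_eq_pow_sum]
  exact pow_le_pow_right₀ (by linarith) Finset.card_biUnion_le

/-- `grp_soft` on both sides, `hat_sum`, `hat_sub`, `bd_hat_fam` with `BdAx.prod`, `BdAx.prod_sub`
(`P₀ + (P + P₀ P)`); finally `(∏ f)(∏ (π₀ + r) - ∏ π₀) = ∏ (f π₀ + f r) - ∏ f π₀` and `f r ≤ f π + f π₀ f π` since `1 ≤ f` -/
theorem bd_hat_grp (hB : BdAx Bd e) (l : ℕ) {x : Edge → A} {κ : ℝ} (hκ : 0 ≤ κ)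
    (hx : ∀ Z, ∀ e ∈ edgesIn Z, Bd Z (x e) κ) {P₀ P : Finset Site → Cfg → A}
    (h₀ : ∀ Y, DependsOn (P₀ Y) ↑(edgesIn Y)) (h₁ : ∀ Y, DependsOn (P Y) ↑(edgesIn Y)) {π₀ π : Finset Site → ℝ}
    (b₀ : ∀ Y n, Bd Y (P₀ Y n) (π₀ Y)) (b₁ : ∀ Y n, Bd Y (P Y n) (π Y)) (Z : Finset Site) :
    Bd Z (hat x (edgesIn Z) (geoZ.grp l l P₀ (fun _ => 0) Z)) (geoZ.grp l l (fun Y => fE κ Y * π₀ Y) (fun _ => 0) Z) ∧
    Bd Z (hat x (edgesIn Z) (geoZ.grp l l (fun Y => P₀ Y + P Y + P₀ Y * P Y) (fun _ => 0) Z) -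
        hat x (edgesIn Z) (geoZ.grp l l P₀ (fun _ => 0) Z))
      (geoZ.grp l l (fun Y => fE κ Y * π₀ Y + fE κ Y * π Y + fE κ Y * π₀ Y * (fE κ Y * π Y)) (fun _ => 0) Z -
        geoZ.grp l l (fun Y => fE κ Y * π₀ Y) (fun _ => 0) Z) := by
  simp only [grp_soft]
  split_ifs
  swap
  · simp only [hat_zero, sub_self, and_self]
    exact hB.zero Z
  have c₀ : ∀ Y, 0 ≤ π₀ Y := fun Y => hB.nonneg (b₀ Y fun _ => false)
  have c₁ : ∀ Y, 0 ≤ π Y := fun Y => hB.nonneg (b₁ Y fun _ => false)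
  have hw : ∀ Y, 1 ≤ fE κ Y := fun Y => one_le_pow₀ (by linarith)
  have hsub : ∀ 𝒮 ∈ Z.powerset.powerset, ∀ Y ∈ 𝒮, Y ⊆ Z := fun 𝒮 h𝒮 Y hY =>
    Finset.mem_powerset.1 (Finset.mem_powerset.1 h𝒮 hY)
  rw [hat_sum, hat_sum, ← Finset.sum_sub_distrib, ← Finset.sum_sub_distrib]
  refine ⟨hB.sum _ fun 𝒮 h𝒮 => ?_, hB.sum _ fun 𝒮 h𝒮 => ?_⟩
  · rw [Finset.prod_mul_distrib]
    refine bd_hat_fam hB hκ (hx Z) (hsub 𝒮 ((@Finset.mem_filter _ _ (_) _ _).1 h𝒮).1) (fun n n' h => ?_) fun n => ?_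
    · simp only [Finset.prod_apply]
      exact Finset.prod_congr rfl fun Y hY => h₀ Y fun i hi => h i (Finset.subset_biUnion_of_mem edgesIn hY hi)
    · rw [Finset.prod_apply]
      exact hB.prod 𝒮 fun Y hY => hB.mono (b₀ Y n) (hsub 𝒮 ((@Finset.mem_filter _ _ (_) _ _).1 h𝒮).1 Y hY) le_rfl
  · have hdep : DependsOn (∏ Y ∈ 𝒮, (P₀ Y + P Y + P₀ Y * P Y) - ∏ Y ∈ 𝒮, P₀ Y) ↑(𝒮.biUnion edgesIn) := by
      intro n n' h
      have e₀ : ∀ Y ∈ 𝒮, P₀ Y n = P₀ Y n' := fun Y hY =>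
        h₀ Y fun i hi => h i (Finset.subset_biUnion_of_mem edgesIn hY hi)
      have e₁ : ∀ Y ∈ 𝒮, P Y n = P Y n' := fun Y hY =>
        h₁ Y fun i hi => h i (Finset.subset_biUnion_of_mem edgesIn hY hi)
      simp only [Pi.sub_apply, Finset.prod_apply, Pi.add_apply, Pi.mul_apply]
      rw [Finset.prod_congr rfl e₀, Finset.prod_congr rfl fun Y hY => by rw [e₀ Y hY, e₁ Y hY]]
    have h1 : ∀ n, Bd Z ((∏ Y ∈ 𝒮, (P₀ Y + P Y + P₀ Y * P Y) - ∏ Y ∈ 𝒮, P₀ Y) n)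
        (∏ Y ∈ 𝒮, (π₀ Y + (π Y + π₀ Y * π Y)) - ∏ Y ∈ 𝒮, π₀ Y) := fun n => by
      simp only [Pi.sub_apply, Finset.prod_apply, Pi.add_apply, Pi.mul_apply, add_assoc]
      exact hB.prod_sub 𝒮 (fun Y hY => hB.mono (b₀ Y n) (hsub 𝒮 ((@Finset.mem_filter _ _ (_) _ _).1 h𝒮).1 Y hY) le_rfl) fun Y hY =>
        hB.mono (hB.add (b₁ Y n) (hB.mul (b₀ Y n) (b₁ Y n))) (hsub 𝒮 ((@Finset.mem_filter _ _ (_) _ _).1 h𝒮).1 Y hY) le_rfl
    rw [← hat_sub]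
    refine hB.mono (bd_hat_fam hB hκ (hx Z) (hsub 𝒮 ((@Finset.mem_filter _ _ (_) _ _).1 h𝒮).1) hdep h1) subset_rfl ?_
    rw [mul_sub, ← Finset.prod_mul_distrib, ← Finset.prod_mul_distrib]
    refine sub_le_sub_right (Finset.prod_le_prod (fun Y _ => ?_) fun Y _ => ?_) _
    · have := c₀ Y
      have := c₁ Y
      have := zero_le_one.trans (hw Y)
      positivity
    · have := mul_le_mul_of_nonneg_right (hw Y) (mul_nonneg (zero_le_one.trans (hw Y)) (mul_nonneg (c₀ Y) (c₁ Y)))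
      nlinarith

end Crest.Agent.R165.D4
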