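import Crest.Agent.R165.D4.Bd1

/-! # R165/D4 (owner helper23): majorant of the sources at scale 0 -/

set_option autoImplicit false
noncomputable section
open Classical

namespace Crest.Agent.R165.D4

/-- majorant of `actO` -/
def pi0 (𝔤 : Geom) (b : ℕ → ℝ) (Y : Finset Site) : ℝ :=
  (∏ k ∈ (Finset.range 𝔤.m).filter fun k => 𝔤.oS k = Y, (1 + 𝔤.h 0 * b k)) - 1

/-- `bd_tau`, `BdAx.smul`, `BdAx.mono`, `BdAx.prod_sub` (with `F = 1`); `bdAx_BdU` -/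
theorem bd_actO {p : Par} {R : ℕ} {c : ℝ × ℝ} {𝔤 : Geom} (h : InitOK p R c 𝔤) (hh : 𝔤.m = 0 ∨ 0 < 𝔤.h 0) {b : ℕ → ℝ}
    (hb : ∀ i < 𝔤.m, ∀ n, |𝔤.O i n| ≤ b i) (Y : Finset Site) (n : Cfg) : 𝔤.Bd p 0 Y (𝔤.actO Y n) (pi0 𝔤 b Y) := by
  have hB := bdAx_BdU (𝔤.U p 0)
  have key := hB.prod_sub (Z := Y) ((Finset.range 𝔤.m).filter fun k => 𝔤.oS k = Y) (F := fun _ => 1)
    (F' := fun k => 𝔤.O k n • tau k) (c := fun _ => 1) (c' := fun k => 𝔤.h 0 * b k) (fun _ _ => hB.one Y) fun k hk => by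
      obtain ⟨hk', rfl⟩ := Finset.mem_filter.1 hk
      replace hk := Finset.mem_range.1 hk'
      have h0 : 0 < 𝔤.h 0 := hh.resolve_left (by omega)
      refine hB.mono (hB.smul _ (bd_tau p 𝔤 0 k hk h0)) (Finset.singleton_subset_iff.2 (h.obs k hk).2.1) ?_
      rw [mul_comm]
      exact mul_le_mul_of_nonneg_left (hb k hk n) h0.le
  simp only [Finset.prod_const_one] at key
  exact key

theorem pi0_eq_zero (𝔤 : Geom) (b : ℕ → ℝ) {Y : Finset Site} (h : ∀ k < 𝔤.m, 𝔤.oS k ≠ Y) : pi0 𝔤 b Y = 0 := by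
  rw [pi0, Finset.filter_false_of_mem fun k hk => h k (Finset.mem_range.1 hk), Finset.prod_empty, sub_self]

theorem bd2_prod {ι : Type} (s : Finset ι) (t : ι → ℝ) (ht : ∀ i ∈ s, 0 ≤ t i) (h : ∑ i ∈ s, t i ≤ 1) :
    ∏ i ∈ s, (1 + t i) - 1 ≤ 2 * ∑ i ∈ s, t i := by
  have h0 : 0 ≤ ∑ i ∈ s, t i := Finset.sum_nonneg ht
  have h1 : ∏ i ∈ s, (1 + t i) ≤ Real.exp (∑ i ∈ s, t i) := by
    rw [Real.exp_sum]
    exact Finset.prod_le_prod (fun i hi => by linarith [ht i hi]) fun i _ => by linarith [Real.add_one_le_exp (t i)]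
  have h2 := Real.abs_exp_sub_one_le (x := ∑ i ∈ s, t i) (by rwa [abs_of_nonneg h0])
  rw [abs_of_nonneg h0] at h2
  linarith [le_abs_self (Real.exp (∑ i ∈ s, t i) - 1)]

theorem bd2_fE {κ : ℝ} (hκ : 0 ≤ κ) (Y : Finset Site) : 1 ≤ fE κ Y := one_le_pow₀ (by linarith)

/-- `∏ (1 + t) - 1 ≤ exp (Σ t) - 1 ≤ 2 Σ t` if `Σ t ≤ 1`; `cov l Y ≤ |Y|` (`Geo.cov_le` with `C = Y`);
`Finset.sum_fiberwise_of_maps_to` / `sum_biUnion` over the fibres of `k ↦ oS k` -/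
theorem nb_pi0 (𝔤 : Geom) (l : ℕ) {a κ ε : ℝ} (ha : 1 ≤ a) (hκ : 0 ≤ κ) (hε : ε ≤ 1) {b : ℕ → ℝ}
    (hb : ∀ i < 𝔤.m, 0 ≤ 𝔤.h 0 * b i)
    (hs : ∀ y, ∑ i ∈ (Finset.range 𝔤.m).filter (fun i => ∃ z ∈ 𝔤.oS i, supd y z ≤ l),
      a ^ (𝔤.oS i).card * fE κ (𝔤.oS i) * (𝔤.h 0 * b i) ≤ ε) :
    geoZ.NB l a (fun Y => fE κ Y * pi0 𝔤 b Y) (2 * ε) := by
  intro y 𝒮 h𝒮
  have hw : ∀ Y : Finset Site, 1 ≤ a ^ Y.card * fE κ Y := fun Y =>
    one_le_mul_of_one_le_of_one_le (one_le_pow₀ ha) (bd2_fE hκ Y)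
  have hg : ∀ i ∈ Finset.range 𝔤.m, 0 ≤ a ^ (𝔤.oS i).card * fE κ (𝔤.oS i) * (𝔤.h 0 * b i) := fun i hi =>
    mul_nonneg (zero_le_one.trans (hw _)) (hb i (Finset.mem_range.1 hi))
  have hsub : ∀ T : Finset ℕ, (∀ i ∈ T, i ∈ Finset.range 𝔤.m ∧ 𝔤.oS i ∈ 𝒮) →
      ∑ i ∈ T, a ^ (𝔤.oS i).card * fE κ (𝔤.oS i) * (𝔤.h 0 * b i) ≤ ε := fun T hT => by
    refine (Finset.sum_le_sum_of_subset_of_nonneg (fun i hi => Finset.mem_filter.2 ⟨(hT i hi).1, ?_⟩)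
      fun i hi _ => hg i (Finset.mem_filter.1 hi).1).trans (hs y)
    simpa only [D2.geoZ_d] using h𝒮 _ (hT i hi).2
  calc ∑ Z ∈ 𝒮, a ^ geoZ.cov l Z * (fE κ Z * pi0 𝔤 b Z)
      ≤ ∑ Z ∈ 𝒮, 2 * ∑ i ∈ (Finset.range 𝔤.m).filter fun k => 𝔤.oS k = Z,
          a ^ (𝔤.oS i).card * fE κ (𝔤.oS i) * (𝔤.h 0 * b i) := Finset.sum_le_sum fun Z hZ => by
        have ht : ∀ i ∈ (Finset.range 𝔤.m).filter fun k => 𝔤.oS k = Z, 0 ≤ 𝔤.h 0 * b i := fun i hi =>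
          hb i (Finset.mem_range.1 (Finset.mem_filter.1 hi).1)
        have h1 : ∑ i ∈ (Finset.range 𝔤.m).filter fun k => 𝔤.oS k = Z, 𝔤.h 0 * b i ≤ 1 := by
          refine (Finset.sum_le_sum fun i hi => le_mul_of_one_le_left (ht i hi) (hw (𝔤.oS i))).trans
            ((hsub _ fun i hi => ?_).trans hε)
          obtain ⟨h1, h2⟩ := Finset.mem_filter.1 hi
          exact ⟨h1, h2 ▸ hZ⟩
        have h2 : pi0 𝔤 b Z ≤ _ := bd2_prod _ _ ht h1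
        have h3 : a ^ geoZ.cov l Z ≤ a ^ Z.card := pow_le_pow_right₀ ha
          (geoZ.cov_le fun z hz => ⟨z, hz, by rw [geoZ.d_self]; exact Nat.zero_le _⟩)
        have h4 := Finset.sum_nonneg ht
        have h5 := bd2_fE hκ Z
        rw [Finset.sum_congr rfl (g := fun i => a ^ Z.card * fE κ Z * (𝔤.h 0 * b i)) fun i hi => by
          rw [(Finset.mem_filter.1 hi).2], ← Finset.mul_sum]
        calc a ^ geoZ.cov l Z * (fE κ Z * pi0 𝔤 b Z)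
            ≤ a ^ geoZ.cov l Z * (fE κ Z * (2 * ∑ i ∈ (Finset.range 𝔤.m).filter fun k => 𝔤.oS k = Z, 𝔤.h 0 * b i)) := by
              gcongr
          _ ≤ a ^ Z.card * (fE κ Z * (2 * ∑ i ∈ (Finset.range 𝔤.m).filter fun k => 𝔤.oS k = Z, 𝔤.h 0 * b i)) := by
              gcongr
          _ = _ := by ring
    _ ≤ 2 * ε := by
        rw [← Finset.mul_sum, Finset.sum_fiberwise_eq_sum_filter]
        exact mul_le_mul_of_nonneg_left (hsub _ fun i hi => Finset.mem_filter.1 hi) zero_le_two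

theorem bd2_enS {e : Edge} {z : Site} (hz : z ∈ enS e) : supd e.1 z ≤ 1 := by
  obtain ⟨⟨a, b⟩, j⟩ := e
  rcases Finset.mem_insert.1 hz with rfl | hz
  · simp [supd_self]
  · rw [Finset.mem_singleton.1 hz]
    fin_cases j <;> simp [supd, uv]

theorem bd2_edges (Z : Finset Site) : (edgesIn Z).card ≤ Z.card * 2 :=
  (Finset.card_filter_le _ _).trans (by simp)

theorem bd2_enO : ∃ b : ℝ, 0 ≤ b ∧ ∀ (c : ℝ × ℝ) (e : Edge) (n : Cfg), |c.1| ≤ 1 / 10 → |c.2| ≤ 1 / 10 → |enO c e n| ≤ b := by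
  obtain ⟨C, hC⟩ := gPl_bound
  refine ⟨2 * (1 + |C|), by positivity, fun c e n h1 h2 => ?_⟩
  have g1 : |gPl (he0 e) (he1 e)| ≤ |C| := (hC _ _).trans
    ((div_le_div_of_nonneg_right (le_abs_self C) (by positivity)).trans (div_le_self (abs_nonneg _) (by simp)))
  have g2 : |(1 + c.2) * tOf c| ≤ 1 := by
    rw [abs_le] at h1 h2
    have : (1 + c.2) * tOf c = (1 + c.2) * tc + c.1 := by
      have : 1 + c.2 ≠ 0 := by linarith [h2.1]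
      rw [tOf]; field_simp
    have t1 := tc_pos.1
    have t2 : tc ≤ 1 / 2 := by nlinarith [tc_sq]
    rw [this, abs_le]
    constructor <;> nlinarith [h1.1, h1.2, h2.1, h2.2]
  have g3 : |(1 + c.2) * tOf c * gPl (he0 e) (he1 e)| ≤ |C| := by
    rw [abs_mul]
    exact (mul_le_of_le_one_left (abs_nonneg _) g2).trans g1
  rw [enO, abs_mul, abs_neg, abs_two]
  refine mul_le_mul_of_nonneg_left ((abs_sub _ _).trans (add_le_add ?_ g3)) zero_le_two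
  split_ifs <;> simp

/-- the three cases. Energy case: `|enO c e n| ≤ b := 2 (1 + Cg)` (`gPl_bound`, `|(1 + c.2) * tOf c| ≤ 1`), `|enS e| ≤ 2`,
`|edgesIn (enS e)| ≤ 4`, and at most one `i` has `oS i` within `l0` of `y` (separation `4 l0 > 2 l0 + 2`) -/
theorem src_sum {R : ℕ} {k : Cons} (hk : ConsOK R k) : ∃ C : ℝ, 1 ≤ C ∧ ∀ (𝔤 : Geom) (c : ℝ × ℝ) (ε₁ : ℝ),
    InitOK k.p R c 𝔤 → |c.1| ≤ 1 / 10 → |c.2| ≤ 1 / 10 → 0 ≤ ε₁ → (𝔤.m = 0 ∨ 0 < 𝔤.h 0) →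
    (𝔤.m = 0 ∨ (𝔤.jN = 0 ∧ Src0 k 𝔤 ε₁) ∨ (0 < 𝔤.jN ∧ 𝔤.h 0 * k.Γ₀ ^ 2 ≤ ε₁ ∧
        ∀ i < 𝔤.m, ∀ i' < 𝔤.m, i ≠ i' → 4 * k.p.l0 ≤ supd (𝔤.y i).1 (𝔤.y i').1)) →
    ∃ b : ℕ → ℝ, (∀ i < 𝔤.m, ∀ n, |𝔤.O i n| ≤ b i) ∧
      ∀ y, ∑ i ∈ (Finset.range 𝔤.m).filter (fun i => ∃ z ∈ 𝔤.oS i, supd y z ≤ k.p.l0),
        (3 * k.a) ^ (𝔤.oS i).card * fE (2 * k.Γ₀ ^ 2) (𝔤.oS i) * (𝔤.h 0 * b i) ≤ C * ε₁ := by
  obtain ⟨B, hB0, hB⟩ := bd2_enO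
  have ha : 1 ≤ 3 * k.a := by linarith [hk.one.2.1, hk.one.2.2.1]
  have hΓ : 1 ≤ k.Γ₀ := by
    have h1 : (1 : ℝ) ≤ k.p.l 1 := by
      have := D2.l_eq hk.pok 1
      have := D2.lam_ge hk.pok 1
      exact_mod_cast (by omega : 1 ≤ k.p.l 1)
    have h2 := hk.one.1
    have h3 := h2.trans hk.gam.1
    rw [hk.gam.2]
    exact one_le_mul_of_one_le_of_one_le (one_le_mul_of_one_le_of_one_le (by linarith) h1) (by linarith)
  have hC : 0 ≤ (3 * k.a) ^ 2 * (1 + 2 * (2 * k.Γ₀ ^ 2)) ^ 4 * B := by positivity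
  refine ⟨1 + (3 * k.a) ^ 2 * (1 + 2 * (2 * k.Γ₀ ^ 2)) ^ 4 * B, by linarith, fun 𝔤 c ε₁ h c1 c2 hε hh hc => ?_⟩
  rcases hh with hm | hh
  · exact ⟨0, fun i hi => by omega, fun y => by rw [hm]; simp; positivity⟩
  rcases hc with hm | ⟨-, b, hb, hs⟩ | ⟨hj, hs, hsep⟩
  · exact ⟨0, fun i hi => by omega, fun y => by rw [hm]; simp; positivity⟩
  · refine ⟨b, hb, fun y => le_trans ?_ (hs.trans (le_mul_of_one_le_left hε (by linarith)))⟩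
    simp only [fE, show 1 + 2 * (2 * k.Γ₀ ^ 2) = 1 + 4 * k.Γ₀ ^ 2 by ring]
    refine Finset.sum_le_sum_of_subset_of_nonneg (Finset.filter_subset _ _) fun i hi _ => ?_
    have := (abs_nonneg _).trans (hb i (Finset.mem_range.1 hi) fun _ => false)
    positivity
  · refine ⟨fun _ => B, fun i hi n => by rw [(h.ener hj i hi).1]; exact hB c _ n c1 c2, fun y => ?_⟩
    have h0 : 𝔤.h 0 ≤ ε₁ := (le_mul_of_one_le_right hh.le (one_le_pow₀ hΓ)).trans hs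
    have hcard : ((Finset.range 𝔤.m).filter fun i => ∃ z ∈ 𝔤.oS i, supd y z ≤ k.p.l0).card ≤ 1 := by
      refine Finset.card_le_one.2 fun i hi i' hi' => by_contra fun hne => ?_
      obtain ⟨hi, z, hz, hyz⟩ := Finset.mem_filter.1 hi
      obtain ⟨hi', z', hz', hyz'⟩ := Finset.mem_filter.1 hi'
      rw [Finset.mem_range] at hi hi'
      rw [(h.ener hj i hi).2.1] at hz
      rw [(h.ener hj i' hi').2.1] at hz'
      have e1 := hsep i hi i' hi' hne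
      have e2 := bd2_enS hz
      have e3 := bd2_enS hz'
      have e4 := supd_triangle (𝔤.y i).1 z (𝔤.y i').1
      have e5 := supd_triangle z y (𝔤.y i').1
      have e6 := supd_triangle y z' (𝔤.y i').1
      have e7 := hk.l0.2
      rw [supd_comm z y] at e5
      rw [supd_comm z'] at e6
      omega
    refine (Finset.sum_le_card_nsmul _ _ ((3 * k.a) ^ 2 * (1 + 2 * (2 * k.Γ₀ ^ 2)) ^ 4 * B * ε₁) fun i hi => ?_).trans ?_
    · have hi := Finset.mem_range.1 (Finset.mem_filter.1 hi).1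
      have e1 : (𝔤.oS i).card ≤ 2 := by rw [(h.ener hj i hi).2.1]; exact Finset.card_le_two
      have e2 := bd2_edges (𝔤.oS i)
      have e3 : (1 : ℝ) ≤ 1 + 2 * (2 * k.Γ₀ ^ 2) := le_add_of_nonneg_right (by positivity)
      rw [fE, mul_comm (𝔤.h 0), ← mul_assoc]
      gcongr
      omega
    · rw [nsmul_eq_mul]
      have : (((Finset.range 𝔤.m).filter fun i => ∃ z ∈ 𝔤.oS i, supd y z ≤ k.p.l0).card : ℝ) ≤ 1 := by
        exact_mod_cast hcard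
      nlinarith [mul_nonneg hC hε]

end Crest.Agent.R165.D4
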