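import Crest.Agent.R165.D4.Alg

/-! # R165/D4 (owner helper23): `hat`, soft `grp`, lattice combinatorics of the initial activities -/

set_option autoImplicit false
noncomputable section
open Classical

namespace Crest.Agent.R165.D4

theorem mem_edgesIn {Z : Finset Site} {e : Edge} : e ∈ edgesIn Z ↔ e.1 ∈ Z ∧ e.1 + uv e.2 ∈ Z := by
  simp [edgesIn]

theorem edgesIn_mono {Y Z : Finset Site} (h : Y ⊆ Z) : edgesIn Y ⊆ edgesIn Z := fun _ he =>
  mem_edgesIn.2 ⟨h (mem_edgesIn.1 he).1, h (mem_edgesIn.1 he).2⟩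

/-- the total soft activity -/
def act (𝔤 : Geom) (μ : ℝ) (V : Finset Site → ℝ) (Y : Finset Site) : Cfg → Al :=
  𝔤.actO Y + 𝔤.actV μ V Y + 𝔤.actO Y * 𝔤.actV μ V Y

theorem s0_K (p : Par) (𝔤 : Geom) (c : ℝ × ℝ) (μ : ℝ) (V : Finset Site → ℝ) (Z : Finset Site) :
    (𝔤.s0 p c μ V).K Z = hat (𝔤.xE c) (edgesIn Z) (geoZ.grp p.l0 p.l0 (act 𝔤 μ V) (fun _ => 0) Z) -
      hat (𝔤.xE c) (edgesIn Z) (geoZ.grp p.l0 p.l0 𝔤.actO (fun _ => 0) Z) := rfl

theorem s0_M (p : Par) (𝔤 : Geom) (c : ℝ × ℝ) (μ : ℝ) (V : Finset Site → ℝ) (Z : Finset Site) :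
    (𝔤.s0 p c μ V).M Z = hat (𝔤.xE c) (edgesIn Z) (geoZ.grp p.l0 p.l0 𝔤.actO (fun _ => 0) Z) := rfl

/-- small diameter -/
def Tiny (R : ℕ) (Y : Finset Site) : Prop := Y.Nonempty ∧ ∀ x ∈ Y, ∀ y ∈ Y, supd x y ≤ R + 1

/-! ### leaf `Hat-a`: `hat` and `grp` -/
section a
variable {A : Type} [CommRing A]

theorem hat_zero (x : Edge → A) (E : Finset Edge) : hat x E 0 = 0 := by
  simp [hat]

theorem hat_add (x : Edge → A) (E : Finset Edge) (F G : Cfg → A) : hat x E (F + G) = hat x E F + hat x E G := by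
  simp only [hat, Pi.add_apply, mul_add, add_mul, Finset.sum_add_distrib]

theorem hat_sub (x : Edge → A) (E : Finset Edge) (F G : Cfg → A) : hat x E (F - G) = hat x E F - hat x E G := by
  simp only [hat, Pi.sub_apply, mul_sub, sub_mul, Finset.sum_sub_distrib]

theorem hat_sum {ι : Type} (x : Edge → A) (E : Finset Edge) (s : Finset ι) (F : ι → Cfg → A) :
    hat x E (∑ i ∈ s, F i) = ∑ i ∈ s, hat x E (F i) := by
  induction s using Finset.induction_on with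
  | empty => simp [hat_zero]
  | insert i s hi ih => rw [Finset.sum_insert hi, Finset.sum_insert hi, hat_add, ih]

theorem hat_mem [Algebra ℝ A] {T : Subalgebra ℝ A} {x : Edge → A} {E : Finset Edge} (hx : ∀ e ∈ E, x e ∈ T)
    {F : Cfg → A} (hF : ∀ n, F n ∈ T) : hat x E F ∈ T := by
  refine T.sum_mem fun U hU => T.mul_mem (T.sum_mem fun W _ => T.mul_mem ?_ (hF _))
    (T.prod_mem fun e he => hx e (Finset.mem_powerset.1 hU he))
  exact T.pow_mem (T.neg_mem T.one_mem) _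

/-- transport (`Finset.powerset_image`, `sum_image`, `card_image_of_injective`, `ind (U.image ψ) ∘ ψ = ind U`),
or induction on `E` with `BA.hat_insert` -/
theorem hat_rel {B : Type} [CommRing B] (Φ : A →+* B) {ψ : Edge → Edge} (hψ : Function.Injective ψ) {x : Edge → A}
    {x' : Edge → B} (E : Finset Edge) (hx : ∀ e ∈ E, x' (ψ e) = Φ (x e)) (F : Cfg → A) :
    hat x' (E.image ψ) (fun n => Φ (F (n ∘ ψ))) = Φ (hat x E F) := by
  induction E using Finset.induction_on generalizing F with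
  | empty =>
    rw [Finset.image_empty, BA.hat_empty, BA.hat_empty]
    congr 2
  | insert e E he ih =>
    have ih := ih fun e' he' => hx e' (Finset.mem_insert_of_mem he')
    have he' : ψ e ∉ E.image ψ := fun h => by
      obtain ⟨e', h1, h2⟩ := Finset.mem_image.1 h
      exact he (hψ h2 ▸ h1)
    rw [Finset.image_insert, BA.hat_insert _ he', BA.hat_insert _ he, ih F, hx e (Finset.mem_insert_self ..),
      map_add, map_mul, map_sub, ← ih fun n => F (Function.update n e true)]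
    simp only [Function.update_comp_eq_of_injective _ hψ]

/-- only the empty hard family contributes (`Finset.sum_eq_single ∅`, `Finset.prod_const`, `zero_pow`) -/
theorem grp_soft {X : Type} (G : Geo X) (r r' : ℕ) (P : Finset X → A) (Z : Finset X) :
    G.grp r r' P (fun _ => 0) Z =
      if G.Conn r' Z then ∑ 𝒮 ∈ Z.powerset.powerset with 𝒮.biUnion id = Z, ∏ Y ∈ 𝒮, P Y else 0 := by
  rw [Geo.grp]
  split_ifs with h
  · rw [Finset.sum_filter]
    refine Finset.sum_congr rfl fun 𝒮 _ => ?_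
    rw [Finset.sum_eq_single ∅]
    · simp
    · intro 𝒳 _ h𝒳
      obtain ⟨Y, hY⟩ := Finset.nonempty_iff_ne_empty.2 h𝒳
      rw [Finset.prod_eq_zero hY rfl, mul_zero, ite_self]
    · intro h0
      exact absurd (Geo.mem_fams.2 (by simp)) h0
  · rfl

theorem grp_apply {X : Type} (G : Geo X) (r r' : ℕ) (P : Finset X → Cfg → A) (Z : Finset X) (n : Cfg) :
    G.grp r r' P (fun _ => 0) Z n = G.grp r r' (fun Y => P Y n) (fun _ => 0) Z := by
  have h1 := grp_soft G r r' P Z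
  have h2 := grp_soft G r r' (fun Y => P Y n) Z
  rw [h1, h2]
  split_ifs
  · simp only [Finset.sum_apply, Finset.prod_apply]
  · rfl

theorem xi_zero {X : Type} (G : Geo X) (r : ℕ) (Λ : Finset X) : G.Xi r (fun _ => (0 : A)) Λ = 1 := by
  rw [Geo.Xi, Finset.sum_eq_single ∅]
  · simp
  · intro 𝒳 _ h𝒳
    obtain ⟨Y, hY⟩ := Finset.nonempty_iff_ne_empty.2 h𝒳
    exact Finset.prod_eq_zero hY rfl
  · intro h0
    exact absurd (Geo.mem_fams.2 (by simp)) h0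

/-- `grp_apply`, `grp_soft`, `edgesIn_mono` -/
theorem grp_dependsOn (l : ℕ) {P : Finset Site → Cfg → A} (hP : ∀ Y, DependsOn (P Y) ↑(edgesIn Y)) (Z : Finset Site) :
    DependsOn (geoZ.grp l l P (fun _ => 0) Z) ↑(edgesIn Z) := by
  intro n n' h
  rw [grp_apply, grp_apply, grp_soft, grp_soft]
  split_ifs
  · refine Finset.sum_congr rfl fun 𝒮 h𝒮 => Finset.prod_congr rfl fun Y hY => ?_
    simp only [Finset.mem_filter] at h𝒮
    have hYZ : Y ⊆ Z := mem_pp.1 h𝒮.1 Y hY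
    exact hP Y fun e he => h e (edgesIn_mono hYZ he)
  · rfl

/-- `hat` is multiplicative on pairwise disjoint polymers (induction on `𝒳`; `hat_congr`, `hat_mul`) -/
theorem hat_prod (x : Edge → A) {K : Finset Site → Cfg → A} (hK : ∀ Z, DependsOn (K Z) ↑(edgesIn Z))
    (𝒳 : Finset (Finset Site)) (hd : ∀ Y ∈ 𝒳, ∀ Z ∈ 𝒳, Y ≠ Z → Disjoint Y Z) {Λ : Finset Site} (hΛ : ∀ Z ∈ 𝒳, Z ⊆ Λ) :
    hat x (edgesIn Λ) (∏ Z ∈ 𝒳, K Z) = ∏ Z ∈ 𝒳, hat x (edgesIn Z) (K Z) := by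
  induction 𝒳 using Finset.induction_on generalizing Λ with
  | empty =>
    rw [Finset.prod_empty, Finset.prod_empty, hat_congr x (Finset.empty_subset _) (fun _ _ _ => rfl), BA.hat_empty]
    rfl
  | insert Y 𝒳 hY ih =>
    have hsub : ∀ Z ∈ 𝒳, Z ⊆ 𝒳.biUnion id := fun Z hZ => Finset.subset_biUnion_of_mem id hZ
    have ih := ih (fun Z hZ Z' hZ' => hd Z (Finset.mem_insert_of_mem hZ) Z' (Finset.mem_insert_of_mem hZ')) hsub
    have hdep : DependsOn (∏ Z ∈ 𝒳, K Z) ↑(edgesIn (𝒳.biUnion id)) := by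
      intro n n' h
      rw [Finset.prod_apply, Finset.prod_apply]
      exact Finset.prod_congr rfl fun Z hZ => hK Z fun e he => h e (edgesIn_mono (hsub Z hZ) he)
    have hdis : Disjoint (edgesIn Y) (edgesIn (𝒳.biUnion id)) := by
      rw [Finset.disjoint_left]
      intro e h1 h2
      obtain ⟨Z, hZ, h3⟩ := Finset.mem_biUnion.1 (mem_edgesIn.1 h2).1
      exact Finset.disjoint_left.1 (hd Y (Finset.mem_insert_self ..) Z (Finset.mem_insert_of_mem hZ)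
        fun h => hY (h ▸ hZ)) (mem_edgesIn.1 h1).1 h3
    have hU : edgesIn Y ∪ edgesIn (𝒳.biUnion id) ⊆ edgesIn Λ :=
      Finset.union_subset (edgesIn_mono (hΛ Y (Finset.mem_insert_self ..)))
        (edgesIn_mono (Finset.biUnion_subset.2 fun Z hZ => hΛ Z (Finset.mem_insert_of_mem hZ)))
    rw [Finset.prod_insert hY, Finset.prod_insert hY, hat_congr x hU, hat_mul x hdis (hK Y) hdep, ih]
    intro n n' h
    rw [Pi.mul_apply, Pi.mul_apply, hK Y fun e he => h e (by simp [he]), hdep fun e he => h e (by simp [he])]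

/-- `hat_sum`, `hat_prod`, `Geo.mem_fams`, `Geo.Sep.not_mem` -/
theorem hat_xi (x : Edge → A) (l : ℕ) {K : Finset Site → Cfg → A} (hK : ∀ Z, DependsOn (K Z) ↑(edgesIn Z))
    (Λ : Finset Site) : hat x (edgesIn Λ) (geoZ.Xi l K Λ) = geoZ.Xi l (fun Z => hat x (edgesIn Z) (K Z)) Λ := by
  rw [Geo.Xi, Geo.Xi, hat_sum]
  refine Finset.sum_congr rfl fun 𝒳 h𝒳 => ?_
  obtain ⟨h1, -, h3⟩ := Geo.mem_fams.1 h𝒳
  exact hat_prod x hK 𝒳 (fun Y hY Z hZ hYZ => Finset.disjoint_left.2 fun a ha ha' =>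
    (h3 Y hY Z hZ hYZ).not_mem ha ha') h1

end a

/-! ### leaf `Hat-b`: shapes -/

theorem mem_bbox {B : Finset Site} {z : Site} :
    z ∈ bbox B ↔ (∃ x ∈ B, x.1 ≤ z.1) ∧ (∃ x ∈ B, z.1 ≤ x.1) ∧ (∃ x ∈ B, x.2 ≤ z.2) ∧ ∃ x ∈ B, z.2 ≤ x.2 := by

  unfold bbox
  split_ifs with h
  · simp only [Finset.mem_product, Finset.mem_Icc, Finset.inf'_le_iff, Finset.le_sup'_iff, and_assoc]
  · simp only [Finset.notMem_empty, false_iff]
    rintro ⟨⟨x, hx, -⟩, -⟩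
    exact h ⟨x, hx⟩

theorem mem_bSites {B : Finset Site} {x : Site} :
    x ∈ bSites B ↔ x ∈ bbox B ∨ x + (1, 0) ∈ bbox B ∨ x + (0, 1) ∈ bbox B ∨ x + (1, 1) ∈ bbox B := by

  simp only [bSites, Finset.mem_biUnion, Finset.mem_insert, Finset.mem_singleton]
  constructor
  · rintro ⟨z, hz, rfl | rfl | rfl | rfl⟩
    · exact Or.inl hz
    · exact Or.inr (Or.inl (by rwa [sub_add_cancel]))
    · exact Or.inr (Or.inr (Or.inl (by rwa [sub_add_cancel])))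
    · exact Or.inr (Or.inr (Or.inr (by rwa [sub_add_cancel])))
  · rintro (h | h | h | h)
    · exact ⟨_, h, Or.inl rfl⟩
    · exact ⟨_, h, Or.inr (Or.inl (add_sub_cancel_right _ _).symm)⟩
    · exact ⟨_, h, Or.inr (Or.inr (Or.inl (add_sub_cancel_right _ _).symm))⟩
    · exact ⟨_, h, Or.inr (Or.inr (Or.inr (add_sub_cancel_right _ _).symm))⟩

/-- `BA.exists_bondEdge` -/
theorem mem_bEdges {B : Finset Site} {e : Edge} : e ∈ bEdges B ↔ edgeB0 e ∈ bbox B ∧ edgeB1 e ∈ bbox B := by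

  unfold bEdges
  rw [Finset.mem_filter]
  refine ⟨fun h => h.2, fun h => ⟨?_, h⟩⟩
  obtain ⟨j, hj⟩ := BA.exists_bondEdge e
  exact Finset.mem_image.2 ⟨(edgeB0 e, j), Finset.mem_product.2 ⟨h.1, Finset.mem_univ _⟩, hj⟩

theorem subset_bSites (B : Finset Site) : B ⊆ bSites B := by

  intro x hx
  exact mem_bSites.2 (Or.inl (mem_bbox.2 ⟨⟨x, hx, le_rfl⟩, ⟨x, hx, le_rfl⟩, ⟨x, hx, le_rfl⟩, ⟨x, hx, le_rfl⟩⟩))

theorem bEdges_subset (B : Finset Site) : bEdges B ⊆ edgesIn (bSites B) := by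

  rintro ⟨x, j⟩ he
  obtain ⟨-, h1⟩ := mem_bEdges.1 he
  have h1' : x + (1, 1) ∈ bbox B := h1
  refine mem_edgesIn.2 ⟨mem_bSites.2 (Or.inr (Or.inr (Or.inr h1'))), mem_bSites.2 ?_⟩
  fin_cases j
  · refine Or.inr (Or.inr (Or.inl ?_))
    convert h1' using 1
    ext <;> simp [uv]
  · refine Or.inr (Or.inl ?_)
    convert h1' using 1
    ext <;> simp [uv]

theorem tiny_bSites {R : ℕ} {B : Finset Site} (h : IsShape R B) : Tiny R (bSites B) := by

  refine ⟨h.1.mono (subset_bSites B), fun x hx y hy => ?_⟩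
  have key : ∀ x ∈ bSites B, (∃ u ∈ B, u.1 ≤ x.1 + 1) ∧ (∃ u ∈ B, x.1 ≤ u.1) ∧ (∃ u ∈ B, u.2 ≤ x.2 + 1) ∧
      ∃ u ∈ B, x.2 ≤ u.2 := by
    intro x hx
    rcases mem_bSites.1 hx with h | h | h | h <;>
    · obtain ⟨⟨a, ha, ha'⟩, ⟨b, hb, hb'⟩, ⟨c, hc, hc'⟩, ⟨d, hd, hd'⟩⟩ := mem_bbox.1 h
      try simp only [Prod.fst_add, Prod.snd_add] at ha' hb' hc' hd'
      exact ⟨⟨a, ha, by omega⟩, ⟨b, hb, by omega⟩, ⟨c, hc, by omega⟩, ⟨d, hd, by omega⟩⟩
  obtain ⟨⟨a, ha, ha'⟩, ⟨b, hb, hb'⟩, ⟨c, hc, hc'⟩, ⟨d, hd, hd'⟩⟩ := key x hx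
  obtain ⟨⟨a₁, ha₁, ha₁'⟩, ⟨b₁, hb₁, hb₁'⟩, ⟨c₁, hc₁, hc₁'⟩, ⟨d₁, hd₁, hd₁'⟩⟩ := key y hy
  have k1 : ∀ u ∈ B, ∀ v ∈ B, v.1 - u.1 ≤ R ∧ v.2 - u.2 ≤ R := fun u hu v hv => by
    have := h.2 u hu v hv
    unfold supd at this
    omega
  have e1 := (k1 a ha b₁ hb₁).1
  have e2 := (k1 a₁ ha₁ b hb).1
  have e3 := (k1 c hc d₁ hd₁).2
  have e4 := (k1 c₁ hc₁ d hd).2
  have f1 : (x.1 - y.1).natAbs ≤ R + 1 := by omega
  have f2 : (x.2 - y.2).natAbs ≤ R + 1 := by omega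
  exact max_le f1 f2

theorem Tiny.conn {R l : ℕ} {Y : Finset Site} (h : Tiny R Y) (hl : R + 1 ≤ l) : geoZ.Small l Y ∧ geoZ.Conn l Y := by

  refine ⟨⟨h.1, fun x hx y hy => ?_⟩, h.1, fun x hx y hy => Relation.ReflTransGen.single ⟨hx, hy, ?_⟩⟩
  · rw [geoZ_d]; have := h.2 x hx y hy; omega
  · rw [geoZ_d]; have := h.2 x hx y hy; omega

/-- `Y ⊆ box x (R + 1)`, `card_box` -/
theorem Tiny.card {R : ℕ} {Y : Finset Site} (h : Tiny R Y) :
    Y.card ≤ (2 * R + 3) ^ 2 ∧ (edgesIn Y).card ≤ 2 * (2 * R + 3) ^ 2 := by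

  obtain ⟨x, hx⟩ := h.1
  have h1 : Y.card ≤ (2 * R + 3) ^ 2 := by
    have h2 : Y ⊆ box x (R + 1) := fun y hy => mem_box.2 (h.2 _ (by assumption) _ (by assumption))
    have := Finset.card_le_card h2
    rwa [card_box] at this
  refine ⟨h1, (Finset.card_filter_le _ _).trans ?_⟩
  rw [Finset.card_product, Finset.card_univ, Fintype.card_fin]
  omega

theorem actV_eq_zero (𝔤 : Geom) (μ : ℝ) (V : Finset Site → ℝ) {Y : Finset Site} (h : ∀ B ∈ 𝔤.shp, bSites B ≠ Y) :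
    𝔤.actV μ V Y = 0 := by

  funext n
  unfold Geom.actV
  rw [Finset.filter_eq_empty_iff.2 fun B _ hB => h B hB.1 hB.2]
  simp [pertF]

theorem actO_eq_zero (𝔤 : Geom) {Y : Finset Site} (h : ∀ k < 𝔤.m, 𝔤.oS k ≠ Y) : 𝔤.actO Y = 0 := by

  funext n
  unfold Geom.actO
  rw [Finset.filter_eq_empty_iff.2 fun k hk => h k (Finset.mem_range.1 hk)]
  simp

/-- `sB_dependsOn`, `bEdges_subset` -/
theorem actV_dependsOn (𝔤 : Geom) (μ : ℝ) (V : Finset Site → ℝ) (Y : Finset Site) :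
    DependsOn (𝔤.actV μ V Y) ↑(edgesIn Y) := by

  intro n n' hn
  unfold Geom.actV pertF
  congr 2
  refine Finset.prod_congr rfl fun B hB => ?_
  have h1 : bSites B = Y := (Finset.mem_filter.1 hB).2.2
  rw [sB_dependsOn B fun e he => hn e (by rw [← h1]; exact bEdges_subset B he)]

theorem actO_dependsOn {p : Par} {R : ℕ} {c : ℝ × ℝ} {𝔤 : Geom} (h : InitOK p R c 𝔤) (Y : Finset Site) :
    DependsOn (𝔤.actO Y) ↑(edgesIn Y) := by

  intro n n' hn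
  unfold Geom.actO
  congr 1
  refine Finset.prod_congr rfl fun k hk => ?_
  obtain ⟨h1, h2⟩ := Finset.mem_filter.1 hk
  rw [(h.obs k (Finset.mem_range.1 h1)).2.2.2 fun e he => hn e (by rw [← h2]; exact he)]

theorem act_dependsOn {p : Par} {R : ℕ} {c : ℝ × ℝ} {𝔤 : Geom} (h : InitOK p R c 𝔤) (μ : ℝ) (V : Finset Site → ℝ)
    (Y : Finset Site) : DependsOn (act 𝔤 μ V Y) ↑(edgesIn Y) := by

  intro n n' hn
  simp only [act, Pi.add_apply, Pi.mul_apply]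
  rw [actO_dependsOn h Y hn, actV_dependsOn 𝔤 μ V Y hn]

/-- the activities vanish unless `Y` is connected and inside the volume -/
theorem act_eq_zero {p : Par} {R : ℕ} (hR : 10 * R + 20 ≤ p.l0) {c : ℝ × ℝ} {𝔤 : Geom} (h : InitOK p R c 𝔤) (μ : ℝ)
    (V : Finset Site → ℝ) {Y : Finset Site} (hY : ¬ geoZ.Conn p.l0 Y ∨ ¬ ↑Y ⊆ 𝔤.Λ) :
    𝔤.actO Y = 0 ∧ act 𝔤 μ V Y = 0 := by

  have h1 : 𝔤.actO Y = 0 := actO_eq_zero 𝔤 fun k hk hkY => by
    obtain ⟨a1, -, a3, -⟩ := h.obs k hk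
    rw [hkY] at a1 a3
    exact hY.elim (fun h' => h' a1) fun h' => h' a3
  have h2 : 𝔤.actV μ V Y = 0 := actV_eq_zero 𝔤 μ V fun B hB hBY => by
    obtain ⟨a1, a2⟩ := h.shape B hB
    have a3 := ((tiny_bSites a1).conn (l := p.l0) (by omega)).2
    rw [hBY] at a2 a3
    exact hY.elim (fun h' => h' a3) fun h' => h' a2
  refine ⟨h1, ?_⟩
  rw [act, h1, h2]
  simp

end Crest.Agent.R165.D4
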