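import Crest.Agent.R165.D4.SV

/-! # R165/D4 (owner helper23): support and sign properties of `loc2`, `nu0`, `obsC` -/

set_option autoImplicit false
noncomputable section
open Classical

namespace Crest.Agent.R165.D4

/-- half-edge generators within distance one of `x` -/
def nb1 (x : Site) : Set Ix := {i | ∃ a : HE, i = Sum.inl a ∧ supd a.1 x ≤ 1}

/-! ### leaf `L2-a` -/

theorem l2a_dl {x y : Site} (h : supd y x ≤ 1) (α : Fin 4) : dl (y, α) ∈ Finsupp.supported ℝ ℝ (nb1 x) :=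
  Finsupp.single_mem_supported ℝ _ ⟨(y, α), rfl, h⟩

theorem l2a_zRe {x y : Site} (h : supd y x ≤ 1) : zRe y ∈ Finsupp.supported ℝ ℝ (nb1 x) :=
  Submodule.sum_mem _ fun α _ => Submodule.smul_mem _ _ (l2a_dl h α)

theorem l2a_zIm {x y : Site} (h : supd y x ≤ 1) : zIm y ∈ Finsupp.supported ℝ ℝ (nb1 x) :=
  Submodule.sum_mem _ fun α _ => Submodule.smul_mem _ _ (l2a_dl h α)

theorem l2a_rk1 {M : Submodule ℝ (GV Ix)} (f : Ix → ℝ) {v : GV Ix} (h : v ∈ M) (u : GV Ix) : rk1 f v u ∈ M :=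
  M.smul_mem _ h

theorem l2a_P0 (x : Site) (u : GV Ix) : P0 x u ∈ Finsupp.supported ℝ ℝ (nb1 x) :=
  have h : supd x x ≤ 1 := by simp [supd]
  Submodule.add_mem _ (l2a_rk1 _ (l2a_zRe h) u) (l2a_rk1 _ (l2a_zIm h) u)

theorem l2a_P1 (x : Site) (u : GV Ix) : P1 x u ∈ Finsupp.supported ℝ ℝ (nb1 x) := by
  have h : supd x x ≤ 1 := by simp [supd]
  have h1 : supd (x + (1, 0)) x ≤ 1 := by simp [supd]
  have h2 : supd (x - (1, 0)) x ≤ 1 := by simp [supd]
  have h3 : supd (x + (0, 1)) x ≤ 1 := by simp [supd]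
  have h4 : supd (x - (0, 1)) x ≤ 1 := by simp [supd]
  simp only [P1, LinearMap.add_apply, LinearMap.sum_apply]
  refine Submodule.add_mem _ (Submodule.add_mem _ (Submodule.add_mem _ (Submodule.add_mem _ ?_ ?_) ?_) ?_)
    (Submodule.sum_mem _ fun α _ => l2a_rk1 _ (Submodule.sub_mem _ (Submodule.sub_mem _ (l2a_dl h α)
      (Submodule.smul_mem _ _ (l2a_zRe h))) (Submodule.smul_mem _ _ (l2a_zIm h))) u) <;>
    refine l2a_rk1 _ (Submodule.smul_mem _ _ (Submodule.sub_mem _ ?_ ?_)) u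
  exacts [l2a_zRe h1, l2a_zRe h2, l2a_zIm h1, l2a_zIm h2, l2a_zRe h3, l2a_zRe h4, l2a_zIm h3, l2a_zIm h4]

theorem l2a_jet_eq (x : Site) (F : Gr Ix) : jet2 x F = deg2 (gmap (P0 x + P1 x) F) - deg2 (gmap (P1 x) F) := by
  rw [← map_sub]; rfl

theorem l2a_loc_eq (x : Site) (F : Gr Ix) : loc2 x F = jet2 x F + nuF F • ((mX wPl x : Gr Ix) - jet2 x (mX wPl x)) +
    zF x F • ((kX wPl x : Gr Ix) - jet2 x (kX wPl x)) := rfl

theorem l2a_jet_mem (x : Site) (F : Gr Ix) : jet2 x F ∈ supA (nb1 x) := by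
  rw [l2a_jet_eq]
  exact Subalgebra.sub_mem _
    (deg2_mem_supA (gmap_mem (fun i _ => Submodule.add_mem _ (l2a_P0 x _) (l2a_P1 x _)) (mem_supA_univ F)))
    (deg2_mem_supA (gmap_mem (fun i _ => l2a_P1 x _) (mem_supA_univ F)))

/-- `mX`, `kX` lie in every subspace that contains the products of two generators near `x` -/
theorem l2a_mk (x : Site) (w : Edge → ℝ) (M : Submodule ℝ (Gr Ix)) (h : ∀ i ∈ nb1 x, ∀ j ∈ nb1 x, th i * th j ∈ M) :
    (mX w x : Gr Ix) ∈ M ∧ (kX w x : Gr Ix) ∈ M := by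
  let M' : Submodule ℝ Al := M.comap (Subalgebra.val _).toLinearMap
  have h1 : ∀ α, eM Sum.inl (edgeOf x α) ∈ M' := fun α =>
    h _ ⟨_, rfl, mem_box_supd.1 (BA.he_edgeOf_box x α).1⟩ _ ⟨_, rfl, mem_box_supd.1 (BA.he_edgeOf_box x α).2⟩
  have h0 : supd x x ≤ 1 := by simp [supd]
  refine ⟨show mX w x ∈ M' from M'.sum_mem fun α _ => M'.smul_mem _ (h1 α), show kX w x ∈ M' from
    M'.add_mem (M'.sum_mem fun α _ => M'.sum_mem fun β _ => ?_) (M'.sum_mem fun α _ => M'.smul_mem _ (h1 α))⟩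
  split_ifs
  exacts [h _ ⟨_, rfl, h0⟩ _ ⟨_, rfl, h0⟩, M'.zero_mem]

/-- `P0 x u`, `P1 x u` are supported in `nb1 x` (`Finsupp.supported` is a submodule); `gmap_mem` with `S = univ`,
`deg2_mem_supA`; `mX`, `kX` by `BA.he_edgeOf_box` -/
theorem loc2_mem (x : Site) (F : Gr Ix) : loc2 x F ∈ supA (nb1 x) := by
  obtain ⟨h1, h2⟩ := l2a_mk x wPl (supA (nb1 x)).toSubmodule fun i hi j hj =>
    Subalgebra.mul_mem _ (th_mem_supA hi) (th_mem_supA hj)
  rw [l2a_loc_eq]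
  exact Subalgebra.add_mem _ (Subalgebra.add_mem _ (l2a_jet_mem x F)
    (Subalgebra.smul_mem _ (Subalgebra.sub_mem _ h1 (l2a_jet_mem x _)) _))
    (Subalgebra.smul_mem _ (Subalgebra.sub_mem _ h2 (l2a_jet_mem x _)) _)

/-- `deg2_deg2`, `deg2_iota` -/
theorem deg2_loc2 (x : Site) (F : Gr Ix) : deg2 (loc2 x F) = loc2 x F := by
  obtain ⟨h1, h2⟩ := l2a_mk x wPl (LinearMap.eqLocus deg2 LinearMap.id) fun i _ j _ => deg2_iota _ _
  have h0 : ∀ F, deg2 (jet2 x F) = jet2 x F := fun F => deg2_deg2 _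
  rw [LinearMap.mem_eqLocus, LinearMap.id_apply] at h1 h2
  rw [l2a_loc_eq, map_add, map_add, map_smul, map_smul, map_sub, map_sub, h0, h0, h0, h1, h2]

theorem l2a_rk1_sV (s : ℝ) {B : ℕ × Bool → GV Ix} (hB : ∀ q, IsSrc (B q)) (f : HE → ℝ) (v : GV Ix) :
    rk1 (extF f) v ∘ₗ sV (fun _ => s) id B = s • rk1 (extF f) v := by
  refine Finsupp.lhom_ext' fun i => LinearMap.ext_ring ?_
  simp only [LinearMap.comp_apply, Finsupp.lsingle_apply, LinearMap.smul_apply]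
  rcases i with i | q
  · rw [sV_inl, map_smul]; rfl
  · rw [sV_inr]
    change pr (B q) (extF f) • v = s • pr (Finsupp.single (Sum.inr q) 1) (extF f) • v
    rw [(hB q).pr, pr_single]
    simp [extF]

theorem l2a_ev2 {s : ℝ} (hs : s * s = 1) {B : ℕ × Bool → GV Ix} (hB : ∀ q, IsSrc (B q)) (f f' : HE → ℝ) (F : Gr Ix) :
    ev2 (extF f) (extF f') (gmap (sV (fun _ => s) id B) F) = ev2 (extF f) (extF f') F := by
  rw [sV_ev2 _ _ hB]
  refine ev2_congr (fun i _ j _ => ?_) (mem_supA_univ F)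
  rcases i with i | i <;> rcases j with j | j <;> simp only [extF, Sum.elim_inl, Sum.elim_inr, id, Pi.zero_apply]
  · linear_combination (f i * f' j - f' i * f j) * hs
  all_goals ring

/-- `(P0 x) ∘ sV s id B = s • P0 x` (same for `P1`; `IsSrc.pr`), `gmap_comp`, `deg2_gmap_smul`; `sV_ev2` and `ev2_congr` for `nuF`, `zF` -/
theorem loc2_sgn (x : Site) {s : ℝ} (hs : s * s = 1) {B : ℕ × Bool → GV Ix} (hB : ∀ q, IsSrc (B q)) (F : Gr Ix) :
    loc2 x (gmap (sV (fun _ => s) id B) F) = loc2 x F := by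
  have h0 : P0 x ∘ₗ sV (fun _ => s) id B = s • P0 x := by
    simp only [P0, LinearMap.add_comp, l2a_rk1_sV s hB, smul_add]
  have h1 : P1 x ∘ₗ sV (fun _ => s) id B = s • P1 x := by
    simp only [P1, Fin.sum_univ_four, LinearMap.add_comp, l2a_rk1_sV s hB, smul_add]
  have h2 : jet2 x (gmap (sV (fun _ => s) id B) F) = jet2 x F := by
    rw [l2a_jet_eq, l2a_jet_eq, gmap_comp, gmap_comp, LinearMap.add_comp, h0, h1, ← smul_add, deg2_gmap_smul hs,
      deg2_gmap_smul hs]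
  have h3 : nu0 (gmap (sV (fun _ => s) id B) F) = nu0 F := l2a_ev2 hs hB _ _ F
  have h4 : z0 x (gmap (sV (fun _ => s) id B) F) = z0 x F := by
    simp only [z0, LinearMap.add_apply, l2a_ev2 hs hB]
  rw [l2a_loc_eq, l2a_loc_eq, h2]
  simp only [nuF, zF, LinearMap.smul_apply, LinearMap.sub_apply, h3, h4]

/-- `gmap_congr` to `s • id` on `nb1 x` (`loc2_mem`), `deg2_loc2`, `deg2_gmap`, `deg2_gmap_smul`, `gmap_id` -/
theorem sgn_loc2 (x : Site) {s : ℝ} (hs : s * s = 1) (ε : HE → ℝ) (π : HE → HE) (B B' : ℕ × Bool → GV Ix) (F : Gr Ix) :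
    gmap (sV (fun i => s * ε i) π B) (loc2 x F) = gmap (sV ε π B') (loc2 x F) := by
  rw [gmap_congr (T' := s • sV ε π B') (S := nb1 x) ?_ (loc2_mem x F), ← deg2_loc2, ← deg2_gmap, ← deg2_gmap, deg2_gmap_smul hs]
  rintro _ ⟨a, rfl, -⟩
  rw [LinearMap.smul_apply, sV_inl, sV_inl, mul_smul]

/-! ### leaf `L2-b` -/

/-- `ev2_iota`, `pr_single`; `cSol` values: see `B1` (`om`); result `-1` for both directions -/
theorem nu0_eM (e : Edge) : nu0 ((eM Sum.inl e : Al) : Gr Ix) = -1 := by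
  obtain ⟨x, j⟩ := e
  rw [eM, coe_th2, th, th, nu0, ev2_iota]
  simp only [pr_single, extF, Sum.elim_inl]
  fin_cases j
  · simp [he0, he1, cSol_0, cSol_2]
  · simp [he0, he1, cSol_1, cSol_3]
    linear_combination (-1 / 2) * b1_r


/-- `sV_ev2`, `ev2_congr` with `S = univ`; `cSol c` does not depend on the site -/
theorem nu0_sV {s : ℝ} (hs : s * s = 1) (φ : Site → Site) {B : ℕ × Bool → GV Ix} (hB : ∀ q, IsSrc (B q)) (F : Gr Ix) :
    nu0 (gmap (sV (fun _ => s) (fun i => (φ i.1, i.2)) B) F) = nu0 F := by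
  rw [nu0, sV_ev2 _ _ hB]
  refine ev2_congr (S := Set.univ) ?_ (mem_supA_univ F)
  rintro (i | q) - (j | q') -
  · simp only [extF, Sum.elim_inl]
    have h : ∀ (c : ℂ) (i : HE), cSol c (φ i.1, i.2) = cSol c i := fun _ _ => rfl
    rw [h, h, h, h]
    linear_combination (cSol 1 i * cSol Complex.I j - cSol Complex.I i * cSol 1 j) * hs
  all_goals simp [extF]


theorem l2b_rot (i : HE) :
    rotE i * cSol 1 (rotH i) = -(Real.sqrt 2 / 2) * cSol 1 i - Real.sqrt 2 / 2 * cSol Complex.I i ∧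
      rotE i * cSol Complex.I (rotH i) = Real.sqrt 2 / 2 * cSol 1 i - Real.sqrt 2 / 2 * cSol Complex.I i := by
  obtain ⟨x, α⟩ := i
  induction α using b1_fin4
  · simp [rotE, rotH, cSol_0, cSol_1]
  · constructor <;> simp [rotE, rotH, cSol_1, cSol_2]
    linear_combination (1 / 2) * b1_r
  · simp [rotE, rotH, cSol_2, cSol_3]
  · constructor <;> simp [rotE, rotH, cSol_3, cSol_0]
    linear_combination (1 / 2) * b1_r

/-- `sV_ev2`, `ev2_congr`: `rotE i * cSol c (rotH i) = cSol (c * conj om) i` (`om ^ 4 = -1`), and the two-form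
`cSol 1 i * cSol I j - cSol I i * cSol 1 j = Im (conj om ^ i.2 * om ^ j.2)` is invariant as `‖om‖ = 1` -/
theorem nu0_rot (F : Gr Ix) : nu0 (gmap rotV F) = nu0 F := by
  rw [nu0, rotV_eq, sV_ev2 _ _ isSrc_dzq]
  refine ev2_congr (S := Set.univ) ?_ (mem_supA_univ F)
  rintro (i | q) - (j | q') -
  · simp only [extF, Sum.elim_inl]
    rw [(l2b_rot i).1, (l2b_rot i).2, (l2b_rot j).1, (l2b_rot j).2]
    linear_combination (1 / 2) * (cSol 1 i * cSol Complex.I j - cSol Complex.I i * cSol 1 j) * b1_r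
  all_goals simp [extF]


/-- `ev2_gmap` with `T = cstV` -/
theorem nu0_cst (F : Gr Ix) : nu0 (gmap cstV F) = 0 := by
  have e : cstV = sV (fun _ => 0) id dzq := by
    simp only [cstV, sV, zero_smul]; rfl
  rw [nu0, e, sV_ev2 _ _ isSrc_dzq, ev2_congr (g := 0) (g' := 0) (S := Set.univ) ?_ (mem_supA_univ F), ← ev2_deg2]
  · refine deg2_induction (P := fun y => ev2 (0 : Ix → ℝ) 0 y = 0) (fun u v => ?_) (fun x y hx hy => ?_) F
    · rw [ev2_iota, sub_self]
    · rw [map_add, hx, hy, add_zero]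
  · rintro (i | q) - (j | q') - <;> simp [extF]


theorem l2b_ctr (q : ℕ × Bool) {F : Gr Ix} (hF : F ∈ supA (Set.range Sum.inl)) :
    ctr (Finsupp.lapply (Sum.inr q)) F = 0 := by
  rw [ctr_congr (d' := 0) ?_ hF, ctr_zero]
  rintro _ ⟨a, rfl⟩
  simp

/-- `ctr_congr` to `0`, `ctr_zero` -/
theorem dTau_free (k : ℕ) {F : Gr Ix} (hF : F ∈ supA (Set.range Sum.inl)) : dTau k F = 0 := by
  change ctr _ (ctr _ F) = 0
  rw [l2b_ctr _ hF, map_zero]


/-- `ctr_iota_mul` twice -/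
theorem dTau_tau_mul (k k' : ℕ) {F : Gr Ix} (hF : F ∈ supA (Set.range Sum.inl)) :
    dTau k (((tau k' : Al) : Gr Ix) * F) = if k = k' then F else 0 := by
  change ctr _ (ctr _ (th _ * th _ * F)) = _
  rw [mul_assoc, th, th, ctr_iota_mul, ctr_iota_mul, l2b_ctr _ hF, mul_zero, sub_zero, Finsupp.lapply_apply,
    Finsupp.lapply_apply, Finsupp.single_eq_of_ne (a := Sum.inr (k', true)) (by simp), zero_smul, mul_zero, sub_zero, map_smul,
    ctr_iota_mul, l2b_ctr _ hF, mul_zero, sub_zero, Finsupp.lapply_apply]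
  by_cases h : k = k'
  · subst h
    simp
  · rw [if_neg h, Finsupp.single_eq_of_ne (by simpa using h), zero_smul]


/-- `sgn S x x = 1`, `sgn S e.1 (e.1 + uv e.2) = eray S e` -/
theorem sgn_edge (S : Finset Site) (e : Edge) : sgn S e.1 e.1 * sgn S e.1 (e.1 + uv e.2) * eray S e = 1 := by
  obtain ⟨⟨a, b⟩, j⟩ := e
  have h0 : sgn S (a, b) (a, b) = 1 := by
    rw [sgn, Finset.filter_false_of_mem fun v _ => by simp, Finset.card_empty, pow_zero]
  dsimp only
  rw [h0, one_mul]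
  fin_cases j
  · have h1 : sgn S (a, b) ((a, b) + uv 0) = 1 := by
      rw [add_uv_0, sgn, Finset.filter_false_of_mem fun v _ => by simp, Finset.card_empty, pow_zero]
    simpa [eray] using h1
  · have h1 : sgn S (a, b) ((a, b) + uv 1) = eray S ((a, b), 1) := by
      rw [add_uv_1, sgn, eray, if_pos rfl]
      congr 2
      refine Finset.filter_congr fun v _ => ?_
      dsimp only
      omega
    have h2 := eray_sq S ((a, b), 1)
    rw [sq] at h2
    exact (congrArg (· * _) h1).trans h2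


/-- `dTau_tau_mul`, `gaugeV_eq`, `sV_th2`, `nu0_eM`, `sgn_edge` -/
theorem obsC_tau (𝔤 : Geom) {k : ℕ} (hw : 𝔤.w (𝔤.y k) = tc * eray 𝔤.S (𝔤.y k)) (k' : ℕ) :
    𝔤.obsC k ((tau k' * 𝔤.oK k' : Al) : Gr Ix) = if k = k' then 1 else 0 := by
  have hm : ((𝔤.oK k' : Al) : Gr Ix) ∈ supA (Set.range Sum.inl) := by
    rw [Geom.oK, Subalgebra.coe_smul, eM, coe_th2]
    exact Subalgebra.smul_mem _ (mul_mem (th_mem_supA (Set.mem_range_self _)) (th_mem_supA (Set.mem_range_self _))) _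
  simp only [Geom.obsC, LinearMap.smul_apply, LinearMap.comp_apply, AlgHom.toLinearMap_apply, Subalgebra.coe_mul]
  rw [dTau_tau_mul k k' hm]
  by_cases h : k = k'
  · subst h
    rw [if_pos rfl, if_pos rfl, ← coe_gmapE, Geom.oK, map_smul, gaugeV_eq, eM, sV_th2, Subalgebra.coe_smul, Subalgebra.coe_smul,
      map_smul, map_smul]
    have h1 := nu0_eM (𝔤.y k)
    have h2 := sgn_edge 𝔤.S (𝔤.y k)
    rw [eM] at h1
    simp only [id, smul_eq_mul]
    rw [h1, hw]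
    have h3 := tc_pos.1.ne'
    field_simp
    simpa [he0, he1, mul_comm, mul_left_comm, mul_assoc] using h2
  · rw [if_neg h, if_neg h, map_zero, map_zero, smul_zero]


/-- `sV_dTau` (`cstV = sV 0 id dzq`), `sV_cst`, `nu0_cst` -/
theorem obsC_cst (𝔤 : Geom) (k : ℕ) (F : Al) : 𝔤.obsC k ((cstA F : Al) : Gr Ix) = 0 := by
  have e : cstV = sV (fun _ => 0) id dzq := by
    simp only [cstV, sV, zero_smul]; rfl
  have h := nu0_cst (dTau k (F : Gr Ix))
  simp only [Geom.obsC, LinearMap.smul_apply, LinearMap.comp_apply, AlgHom.toLinearMap_apply]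
  rw [cstA_eq, coe_gmapE, e, sV_dTau _ _ (dzq_apply k), gaugeV_eq, sV_comp _ _ _ _ isSrc_dzq]
  rw [e] at h
  simp only [zero_mul, Function.comp_id]
  rw [h, smul_zero]


end Crest.Agent.R165.D4
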