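import Crest.Agent.R165.D4.Alg

/-! # R165/D4 (owner helper23): signed relabelings of the generators -/

set_option autoImplicit false
noncomputable section
open Classical

namespace Crest.Agent.R165.D4

/-- `cstA = gmapE cstV` by `rfl` -/
def cstV : GV Ix →ₗ[ℝ] GV Ix := vmap (Sum.elim (fun _ => 0) fun p => dz p.1 p.2)
/-- pure source vectors -/
def IsSrc (u : GV Ix) : Prop := cstV u = u
/-- signed relabeling: `trV`, `rotV`, `refV`, `gaugeV`, `shiftV` have this form -/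
def sV (ε : HE → ℝ) (π : HE → HE) (B : ℕ × Bool → GV Ix) : GV Ix →ₗ[ℝ] GV Ix :=
  vmap (Sum.elim (fun i => ε i • dl (π i)) B)
/-- half-edges in `S`, all sources -/
def hS (S : Set HE) : Set Ix := {i | ∀ a, i = Sum.inl a → a ∈ S}
def dzq (q : ℕ × Bool) : GV Ix := dz q.1 q.2
def rhoB (ρ : ℕ → Option ℕ) (q : ℕ × Bool) : GV Ix :=
  match ρ q.1 with
  | some k => dz k q.2
  | none => 0
def shH (a : Site) (i : HE) : HE := (i.1 + a, i.2)
def rotH (i : HE) : HE := (rotS i.1, i.2 + 1)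
def refH (i : HE) : HE := (refS i.1, -i.2)
def rotE (i : HE) : ℝ := if i.2 = 3 then -1 else 1
def refE (i : HE) : ℝ := if i.2 = 0 then 1 else -1

theorem cstA_eq : (cstA : Al →ₐ[ℝ] Al) = gmapE cstV := rfl
theorem trV_eq (a : Site) (σ : Site → ℝ) (ρ : ℕ → Option ℕ) : trV a σ ρ = sV (fun i => σ i.1) (shH a) (rhoB ρ) := rfl
theorem rotV_eq : rotV = sV rotE rotH dzq := rfl
theorem refV_eq : refV = sV refE refH dzq := rfl
theorem gaugeV_eq (σ : Site → ℝ) : gaugeV σ = sV (fun i => σ i.1) id dzq := rfl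
theorem shiftV_eq (a : Site) : shiftV a = sV (fun _ => 1) (shH a) dzq := by
  simp only [shiftV, sV, one_smul]; rfl

theorem sV_inl (ε : HE → ℝ) (π : HE → HE) (B : ℕ × Bool → GV Ix) (i : HE) :
    sV ε π B (Finsupp.single (Sum.inl i) 1) = ε i • dl (π i) := vmap_single _ _
theorem sV_inr (ε : HE → ℝ) (π : HE → HE) (B : ℕ × Bool → GV Ix) (q : ℕ × Bool) :
    sV ε π B (Finsupp.single (Sum.inr q) 1) = B q := vmap_single _ _

theorem mem_Lc {p : Par} {𝔤 : Geom} {j : ℕ} {Z : Finset Site} {F : Al} (h : F ∈ 𝔤.Lc p j Z) :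
    (F : Gr Ix) ∈ supA (hS {a | ∃ x ∈ Z, supd x a.1 ≤ p.rho j}) := by
  have := h.1
  rw [geoZ_d] at this
  exact this

/-! ### leaf `SV` -/

theorem sv_ext {N : Type} [AddCommGroup N] [Module ℝ N] {T T' : GV Ix →ₗ[ℝ] N}
    (h1 : ∀ i, T (Finsupp.single (Sum.inl i) 1) = T' (Finsupp.single (Sum.inl i) 1))
    (h2 : ∀ q, T (Finsupp.single (Sum.inr q) 1) = T' (Finsupp.single (Sum.inr q) 1)) : T = T' := by
  refine Finsupp.lhom_ext' fun i => LinearMap.ext_ring ?_
  rcases i with i | q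
  · exact h1 i
  · exact h2 q

theorem sv_cst_inl (i : HE) : cstV (Finsupp.single (Sum.inl i) 1) = 0 := vmap_single _ _
theorem sv_cst_inr (q : ℕ × Bool) : cstV (Finsupp.single (Sum.inr q) 1) = Finsupp.single (Sum.inr q) 1 :=
  vmap_single _ _

/-- two linear maps that agree on the source generators agree on pure source vectors -/
theorem IsSrc.ext {u : GV Ix} (h : IsSrc u) {N : Type} [AddCommGroup N] [Module ℝ N] {T T' : GV Ix →ₗ[ℝ] N}
    (h2 : ∀ q, T (Finsupp.single (Sum.inr q) 1) = T' (Finsupp.single (Sum.inr q) 1)) : T u = T' u := by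
  have : T ∘ₗ cstV = T' ∘ₗ cstV := sv_ext (fun i => by simp only [LinearMap.comp_apply, sv_cst_inl, map_zero])
    fun q => by simp only [LinearMap.comp_apply, sv_cst_inr, h2]
  have h3 := LinearMap.congr_fun this u
  rwa [LinearMap.comp_apply, LinearMap.comp_apply, show cstV u = u from h] at h3

theorem IsSrc.sV {u : GV Ix} (h : IsSrc u) (ε : HE → ℝ) (π : HE → HE) : sV ε π dzq u = u :=
  h.ext (T' := LinearMap.id) fun q => sV_inr _ _ _ q

theorem sv_dl (ε : HE → ℝ) (π : HE → HE) (B : ℕ × Bool → GV Ix) (i : HE) : sV ε π B (dl i) = ε i • dl (π i) :=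
  sV_inl ε π B i

theorem sv_bil_dl (g : HE → HE → ℝ) (i j : HE) : bil (extG g) (dl i) (dl j) = (g i j - g j i) / 2 :=
  bil_single _ _ _

theorem isSrc_dzq (q : ℕ × Bool) : IsSrc (dzq q) := by
  exact sv_cst_inr q

theorem isSrc_rhoB (ρ : ℕ → Option ℕ) (q : ℕ × Bool) : IsSrc (rhoB ρ q) := by
  unfold rhoB
  cases ρ q.1 with
  | none => exact map_zero _
  | some k => exact sv_cst_inr (k, q.2)

/-- `pr (cstV u) (extF f) = 0` for all `u` (linear in `u`, check on generators) -/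
theorem IsSrc.pr {u : GV Ix} (h : IsSrc u) (f : HE → ℝ) : pr u (extF f) = 0 := by
  exact h.ext (T := Finsupp.linearCombination ℝ (extF f)) (T' := 0) fun q => pr_single _ _

theorem IsSrc.bil {u : GV Ix} (h : IsSrc u) (g : HE → HE → ℝ) (v : GV Ix) : bil (extG g) u v = 0 := by
  have : R165.bil (extG g) u = 0 := h.ext (T := R165.bil (extG g)) (T' := 0) fun q =>
    sv_ext (fun i => by rw [bil_single]; simp [extG]) fun q' => by rw [bil_single]; simp [extG]
  rw [this, LinearMap.zero_apply]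

/-- `(cstV u) (inl a) = 0` -/
theorem IsSrc.supp {u : GV Ix} (h : IsSrc u) (S : Set HE) : ↑u.support ⊆ hS S := by
  rintro _ hi a rfl
  have : u (Sum.inl a) = 0 := h.ext (T := Finsupp.lapply (Sum.inl a)) (T' := 0) fun q => by simp
  exact absurd this (Finsupp.mem_support_iff.1 hi)

/-- composition (`Finsupp.lhom_ext'` / `LinearMap.ext` on generators; `sV ε' π' dzq u = u` for `IsSrc u`) -/
theorem sV_comp (ε ε' : HE → ℝ) (π π' : HE → HE) {B : ℕ × Bool → GV Ix} (hB : ∀ q, IsSrc (B q)) (x : Gr Ix) :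
    gmap (sV ε' π' dzq) (gmap (sV ε π B) x) = gmap (sV (fun i => ε i * ε' (π i)) (π' ∘ π) B) x := by
  rw [gmap_comp]
  congr 2
  refine sv_ext (fun i => ?_) fun q => ?_
  · rw [LinearMap.comp_apply, sV_inl, sV_inl, map_smul, sv_dl, smul_smul]; rfl
  · rw [LinearMap.comp_apply, sV_inr, sV_inr, (hB q).sV]

theorem sV_comp' (ε ε' : HE → ℝ) (π π' : HE → HE) (B : ℕ × Bool → GV Ix) (x : Gr Ix) :
    gmap (sV ε' π' B) (gmap (sV ε π dzq) x) = gmap (sV (fun i => ε i * ε' (π i)) (π' ∘ π) B) x := by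
  rw [gmap_comp]
  congr 2
  refine sv_ext (fun i => ?_) fun q => ?_
  · rw [LinearMap.comp_apply, sV_inl, sV_inl, map_smul, sv_dl, smul_smul]; rfl
  · rw [LinearMap.comp_apply, sV_inr, sV_inr]
    exact sV_inr _ _ _ q

theorem sV_one (x : Gr Ix) : gmap (sV (fun _ => 1) id dzq) x = x := by
  have : sV (fun _ => 1) id dzq = LinearMap.id :=
    sv_ext (fun i => by rw [sV_inl, one_smul]; rfl) fun q => sV_inr _ _ _ q
  rw [this, gmap_id]

/-- `gmap_congr` -/
theorem sV_congr {ε ε' : HE → ℝ} (π : HE → HE) (B : ℕ × Bool → GV Ix) {S : Set HE} (h : ∀ i ∈ S, ε i = ε' i)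
    {x : Gr Ix} (hx : x ∈ supA (hS S)) : gmap (sV ε π B) x = gmap (sV ε' π B) x := by
  refine gmap_congr ?_ hx
  rintro (i | q) hi
  · rw [sV_inl, sV_inl, h i (hi i rfl)]
  · rw [sV_inr, sV_inr]

/-- `gmap_mem` -/
theorem sV_mem (ε : HE → ℝ) {π : HE → HE} {B : ℕ × Bool → GV Ix} (hB : ∀ q, IsSrc (B q)) {S S' : Set HE}
    (h : ∀ i ∈ S, π i ∈ S') {x : Gr Ix} (hx : x ∈ supA (hS S)) : gmap (sV ε π B) x ∈ supA (hS S') := by
  refine gmap_mem ?_ hx
  rintro (i | q) hi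
  · rw [sV_inl]
    rintro _ hj a rfl
    have h1 := Finsupp.support_single_subset (Finsupp.support_smul (Finset.mem_coe.1 hj))
    rw [Finset.mem_singleton, Sum.inl.injEq] at h1
    exact h1 ▸ h i (hi i rfl)
  · rw [sV_inr]
    exact (hB q).supp _

/-- `gmap_comp` on both sides, `cstV ∘ sV = sV ∘ cstV` on generators -/
theorem sV_cst (ε : HE → ℝ) (π : HE → HE) {B : ℕ × Bool → GV Ix} (hB : ∀ q, IsSrc (B q)) (F : Al) :
    cstA (gmapE (sV ε π B) F) = gmapE (sV ε π B) (cstA F) := by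
  refine Subtype.ext ?_
  rw [cstA_eq, coe_gmapE, coe_gmapE, coe_gmapE, coe_gmapE, gmap_comp, gmap_comp]
  congr 2
  refine sv_ext (fun i => ?_) fun q => ?_
  · rw [LinearMap.comp_apply, LinearMap.comp_apply, sV_inl, sv_cst_inl, map_zero, map_smul, dl, sv_cst_inl, smul_zero]
  · rw [LinearMap.comp_apply, LinearMap.comp_apply, sV_inr, sv_cst_inr, sV_inr]
    exact hB q

/-- `gmap_mu`, `bil_single`, `IsSrc.bil`, `bil_swap` -/
theorem sV_mu {ε : HE → ℝ} {π : HE → HE} {B : ℕ × Bool → GV Ix} (hB : ∀ q, IsSrc (B q)) {g g' : HE → HE → ℝ}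
    {S : Set HE} (h : ∀ i ∈ S, ∀ j ∈ S, ε i * ε j * g' (π i) (π j) = g i j) {x : Gr Ix} (hx : x ∈ supA (hS S)) :
    mu (extG g') (gmap (sV ε π B) x) = gmap (sV ε π B) (mu (extG g) x) := by
  refine (gmap_mu _ ?_ hx).symm
  rintro (i | q) hi (j | q') hj
  · rw [sV_inl, sV_inl, bil_single, map_smul, map_smul, LinearMap.smul_apply, sv_bil_dl]
    simp only [extG, smul_eq_mul]
    rw [← h i (hi i rfl) j (hj j rfl), ← h j (hj j rfl) i (hi i rfl)]
    ring
  · rw [sV_inr, bil_swap, (hB q').bil, bil_single]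
    simp [extG]
  · rw [sV_inr, (hB q).bil, bil_single]
    simp [extG]
  · rw [sV_inr, (hB q).bil, bil_single]
    simp [extG]

/-- `ev2_gmap`, `IsSrc.pr` -/
theorem sV_ev2 (ε : HE → ℝ) (π : HE → HE) {B : ℕ × Bool → GV Ix} (hB : ∀ q, IsSrc (B q)) (f f' : HE → ℝ) (x : Gr Ix) :
    ev2 (extF f) (extF f') (gmap (sV ε π B) x) =
      ev2 (extF fun i => ε i * f (π i)) (extF fun i => ε i * f' (π i)) x := by
  have key : ∀ f : HE → ℝ, (fun i => pr (sV ε π B (Finsupp.single i 1)) (extF f)) =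
      extF fun i => ε i * f (π i) := fun f => by
    funext i
    rcases i with i | q
    · rw [sV_inl]
      simp [pr, dl, extF]
    · rw [sV_inr, (hB q).pr]
      rfl
  rw [ev2_gmap, key, key]

theorem sV_th2 (ε : HE → ℝ) (π : HE → HE) (B : ℕ × Bool → GV Ix) (i j : HE) :
    gmapE (sV ε π B) (th2 (Sum.inl i) (Sum.inl j)) = (ε i * ε j) • th2 (Sum.inl (π i)) (Sum.inl (π j)) := by
  refine Subtype.ext ?_
  rw [coe_gmapE, coe_th2, map_mul, gmap_th, gmap_th, sV_inl, sV_inl, map_smul, map_smul, smul_mul_smul_comm]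
  rfl

theorem sV_tau (ε : HE → ℝ) (π : HE → HE) (k : ℕ) : gmapE (sV ε π dzq) (tau k) = tau k := by
  refine Subtype.ext ?_
  rw [coe_gmapE, tau, coe_th2, map_mul, gmap_th, gmap_th, sV_inr, sV_inr]
  rfl

theorem sV_tau_rho (ε : HE → ℝ) (π : HE → HE) (ρ : ℕ → Option ℕ) (k : ℕ) :
    gmapE (sV ε π (rhoB ρ)) (tau k) = (ρ k).elim 0 tau := by
  refine Subtype.ext ?_
  rw [coe_gmapE, tau, coe_th2, map_mul, gmap_th, gmap_th, sV_inr, sV_inr]
  unfold rhoB
  dsimp only
  cases ρ k with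
  | none => simp
  | some k' => rfl

/-- `gmap_ctr` twice with `S = univ` -/
theorem sV_dTau (ε : HE → ℝ) (π : HE → HE) {B : ℕ × Bool → GV Ix} {k k' : ℕ}
    (h : ∀ q b, B q (Sum.inr (k', b)) = if q = (k, b) then 1 else 0) (x : Gr Ix) :
    dTau k' (gmap (sV ε π B) x) = gmap (sV ε π B) (dTau k x) := by
  have key : ∀ (b : Bool) (y : Gr Ix), gmap (sV ε π B) (ctr (Finsupp.lapply (Sum.inr (k, b))) y) =
      ctr (Finsupp.lapply (Sum.inr (k', b))) (gmap (sV ε π B) y) := fun b y => by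
    refine gmap_ctr _ ?_ (mem_supA_univ y)
    rintro (i | q) -
    · rw [sV_inl]
      simp [dl]
    · rw [sV_inr, Finsupp.lapply_apply, Finsupp.lapply_apply, h, Finsupp.single_apply]
      simp only [Sum.inr.injEq]
  exact ((key true _).trans (congrArg _ (key false x))).symm

theorem dzq_apply (k : ℕ) (q : ℕ × Bool) (b : Bool) : dzq q (Sum.inr (k, b)) = if q = (k, b) then 1 else 0 := by
  rw [dzq, dz, Finsupp.single_apply]
  simp only [Sum.inr.injEq]

theorem rhoB_apply {ρ : ℕ → Option ℕ} (hρ : ∀ k₁ k₂ k', ρ k₁ = some k' → ρ k₂ = some k' → k₁ = k₂) {k k' : ℕ}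
    (h : ρ k = some k') (q : ℕ × Bool) (b : Bool) : rhoB ρ q (Sum.inr (k', b)) = if q = (k, b) then 1 else 0 := by
  obtain ⟨k₁, b₁⟩ := q
  unfold rhoB
  dsimp only
  cases h1 : ρ k₁ with
  | none =>
    have : k₁ ≠ k := fun e => by rw [e, h] at h1; cases h1
    simp [this]
  | some k₂ =>
    dsimp only
    rw [dz, Finsupp.single_apply]
    refine if_congr ?_ rfl rfl
    simp only [Sum.inr.injEq, Prod.mk.injEq]
    refine and_congr_left fun _ => ⟨fun e => hρ _ _ k' (e ▸ h1) h, fun e => ?_⟩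
    rw [e, h] at h1
    exact (Option.some.inj h1).symm

/-- `ctr_mem_supA` -/
theorem dTau_mem {S : Set Ix} (k : ℕ) {x : Gr Ix} (hx : x ∈ supA S) : dTau k x ∈ supA S := by
  exact ctr_mem_supA _ (ctr_mem_supA _ hx)

theorem extG_smul (t : ℝ) (g : HE → HE → ℝ) : (extG (t • g) : Ix → Ix → ℝ) = t • extG g := by
  funext i j
  rcases i with i | i <;> rcases j with j | j <;> simp [extG]

/-- `mu_mem_supA`, `flipS_muE` -/
theorem muE_mem_Lc {p : Par} {𝔤 : Geom} {j : ℕ} {Z : Finset Site} {F : Al} (h : F ∈ 𝔤.Lc p j Z) (g : HE → HE → ℝ) :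
    muE (extG g) F ∈ 𝔤.Lc p j Z := by
  refine ⟨mu_mem_supA _ h.1, ?_⟩
  have h2 : flipS F = F := h.2
  have e : (flipV : GV Ix →ₗ[ℝ] GV Ix) = sV (fun _ => 1) id fun q => -dzq q := by
    simp only [flipV, sV, one_smul]; rfl
  have h3 : gmap flipV (F : Gr Ix) = F := congrArg Subtype.val h2
  refine Subtype.ext ?_
  change gmap flipV (mu (extG g) (F : Gr Ix)) = mu (extG g) (F : Gr Ix)
  rw [e] at h3 ⊢
  rw [← sV_mu (g' := g) (S := Set.univ) (fun q => (map_neg _ _).trans (congrArg _ (isSrc_dzq q)))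
    (fun i _ j _ => by simp) (by
      rw [show hS Set.univ = Set.univ from Set.eq_univ_of_forall fun _ _ _ => trivial]
      exact mem_supA_univ _), h3]

end Crest.Agent.R165.D4
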