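import Crest.Agent.R165.D4.Hat
import Crest.Agent.R165.D4.SV

/-! # R165/D4 (owner helper23): locality, bulk form and continuity of the initial state -/

set_option autoImplicit false
noncomputable section
open Classical

namespace Crest.Agent.R165.D4

/-- `LcS` is a `⊓`: `th_mem_supA`, and `flipS (th2 i j) = th2 i j` (`coe_gmapE`, `gmap_th`, `vmap_single`) -/
theorem th2_mem_Lc (p : Par) (𝔤 : Geom) (j : ℕ) {Z : Finset Site} {a b : HE} (ha : ∃ x ∈ Z, supd x a.1 ≤ 3)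
    (hb : ∃ x ∈ Z, supd x b.1 ≤ 3) : (th2 (Sum.inl a) (Sum.inl b) : Al) ∈ 𝔤.Lc p j Z := by
  have key : ∀ {a : HE}, (∃ x ∈ Z, supd x a.1 ≤ 3) →
      (Sum.inl a : Ix) ∈ {i : Ix | ∀ a, i = Sum.inl a → ∃ x ∈ Z, geoZ.d x (Prod.fst a) ≤ p.rho j} := by
    rintro a ⟨x, hx, hd⟩ a' h
    obtain rfl := Sum.inl.inj h
    refine ⟨x, hx, ?_⟩
    rw [geoZ_d]
    unfold Par.rho
    omega
  exact D1.mem_lcS.2 ⟨mul_mem (th_mem_supA (key ha)) (th_mem_supA (key hb)),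
    D1.flipS_of_mem (mul_mem (th_mem_supA ⟨a, rfl⟩) (th_mem_supA ⟨b, rfl⟩))⟩

theorem tau_mem_Lc (p : Par) (𝔤 : Geom) (j : ℕ) (Z : Finset Site) (k : ℕ) : (tau k : Al) ∈ 𝔤.Lc p j Z := by
  exact D1.mem_lcS.2 ⟨mul_mem (th_mem_supA fun _ h => nomatch h) (th_mem_supA fun _ h => nomatch h), D1.flipS_tau k⟩

/-- `BA.he_edgeOf_box` for `q`; `hat_mem`, `grp_apply`, `Geo.grp_mem` for `M`, `K`; `Geo.grp_of_not_conn`, `hat_zero` -/
theorem s0_lcl' (p : Par) (𝔤 : Geom) (c : ℝ × ℝ) (μ : ℝ) (V : Finset Site → ℝ) :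
    (𝔤.s0 p c μ V).Lcl geoZ (𝔤.Lc p 0) p.l0 := by
  have hx : ∀ Z, ∀ e ∈ edgesIn Z, 𝔤.xE c e ∈ 𝔤.Lc p 0 Z := fun Z e he =>
    Subalgebra.smul_mem _ (th2_mem_Lc p 𝔤 0 ⟨_, (mem_edgesIn.1 he).1, by rw [he0, supd_self]; omega⟩
      ⟨_, (mem_edgesIn.1 he).2, by rw [he1, supd_self]; omega⟩) _
  have hO : ∀ Z Y n, 𝔤.actO Y n ∈ 𝔤.Lc p 0 Z := fun Z Y n =>
    sub_mem (prod_mem fun k _ => add_mem (one_mem _) (Subalgebra.smul_mem _ (tau_mem_Lc p 𝔤 0 Z k) _)) (one_mem _)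
  have hV : ∀ Z Y n, 𝔤.actV μ V Y n ∈ 𝔤.Lc p 0 Z := fun Z Y n => Subalgebra.algebraMap_mem _ _
  have hM : ∀ Z, hat (𝔤.xE c) (edgesIn Z) (geoZ.grp p.l0 p.l0 𝔤.actO (fun _ => 0) Z) ∈ 𝔤.Lc p 0 Z := fun Z =>
    hat_mem (hx Z) fun n => by
      rw [grp_apply]
      exact geoZ.grp_mem _ _ (fun Y _ => hO Z Y n) fun _ _ => zero_mem _
  refine ⟨fun x => ?_, fun _ => zero_mem _, hM, fun Z => ?_, fun Z hZ => ?_, fun Z hZ => ?_⟩
  · have h0 : ∀ {y : Site}, y ∈ box x 1 → ∃ z ∈ ({x} : Finset Site), supd z y ≤ 3 := fun hy =>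
      ⟨x, Finset.mem_singleton_self x, by rw [supd_comm]; exact (mem_box.1 hy).trans (by norm_num)⟩
    refine add_mem (Subalgebra.smul_mem _ (sum_mem fun α _ => sum_mem fun β _ => ?_) _)
      (sum_mem fun α _ => Subalgebra.smul_mem _
        (th2_mem_Lc p 𝔤 0 (h0 (BA.he_edgeOf_box x α).1) (h0 (BA.he_edgeOf_box x α).2)) _)
    split_ifs
    · exact th2_mem_Lc p 𝔤 0 (h0 (self_mem_box x 1)) (h0 (self_mem_box x 1))
    · exact zero_mem _
  · rw [s0_K]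
    refine sub_mem (hat_mem (hx Z) fun n => ?_) (hM Z)
    rw [grp_apply]
    exact geoZ.grp_mem _ _ (fun Y _ => add_mem (add_mem (hO Z Y n) (hV Z Y n)) (mul_mem (hO Z Y n) (hV Z Y n)))
      fun _ _ => zero_mem _
  · rw [s0_M, geoZ.grp_of_not_conn _ _ _ hZ, hat_zero]
  · rw [s0_K, geoZ.grp_of_not_conn _ _ _ hZ, geoZ.grp_of_not_conn _ _ _ hZ, sub_self]

/-- induction: `next_lcl geoZ nilE (sp_alg …)`, `lcS_mono` -/
theorem st_lcl' {p : Par} (hp : p.OK) (𝔤 : Geom) (c : ℝ × ℝ) (μ : ℝ) (V : Finset Site → ℝ) (j : ℕ) :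
    (𝔤.st p c μ V j).Lcl geoZ (𝔤.Lc p j) (p.l j) := by
  induction j with
  | zero =>
    have h : p.l 0 = p.l0 := by simp [Par.l]
    rw [h]
    exact s0_lcl' p 𝔤 c μ V
  | succ j ih =>
    have hA := sp_alg p hp.1 hp.2.1 hp.2.2.1 𝔤 j
    have h := (next_lcl geoZ nilE hA ih).1
    have hl : p.l j ≤ p.l (j + 1) := hA.le
    have hm : ∀ Z, 𝔤.Lc p j Z ≤ 𝔤.Lc p (j + 1) Z := fun Z =>
      lcS_mono _ _ (by unfold Par.rho; omega) (Finset.Subset.refl Z)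
    exact ⟨fun x => hm _ (h.q x), fun x => hm _ (h.qm x), fun Z => hm _ (h.M Z), fun Z => hm _ (h.K Z), h.Mc, h.Kc⟩

/-- `Real.sq_sqrt`, `(1 + c.2) * tOf c = (1 + c.2) * tc + c.1`, `tc ≠ 0` -/
theorem s0_q_bulk' {c : ℝ × ℝ} (hc : -1 < c.2) {𝔤 : Geom} (p : Par) (μ : ℝ) (V : Finset Site → ℝ) {x : Site}
    (hx : x ∈ 𝔤.Λ) (h : ∀ α, x + dv α ∈ 𝔤.Λ ∧ |𝔤.w (edgeOf x α)| = tc) :
    (𝔤.s0 p c μ V).q x = c.1 • mX 𝔤.w x + c.2 • kX 𝔤.w x := by
  have h1 : 0 < 1 + c.2 := by linarith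
  have h2 : Real.sqrt (1 + c.2) * Real.sqrt (1 + c.2) = 1 + c.2 := Real.mul_self_sqrt h1.le
  have h3 : tc ≠ 0 := by
    have : (1 : ℝ) < Real.sqrt 2 := Real.lt_sqrt_of_sq_lt (by norm_num)
    unfold tc
    linarith
  change pLoc Sum.inl (fun y => if y ∈ 𝔤.Λ then Real.sqrt (1 + c.2) else 1) 𝔤.w (𝔤.wT (tOf c)) x = _
  rw [pLoc, mX, kX, smul_add, Finset.smul_sum, Finset.smul_sum, add_left_comm, ← Finset.sum_add_distrib, if_pos hx, sq, h2,
    add_sub_cancel_left]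
  congr 1
  refine Finset.sum_congr rfl fun α _ => ?_
  rw [if_pos (h α).1, h2, Geom.wT, if_pos (h α).2, smul_smul, smul_smul, ← add_smul, tOf]
  congr 1
  field_simp
  ring

theorem lcl_hat_pcts {P : Type} [TopologicalSpace P] (E : Finset Edge) {x : P → Edge → Al} {F : P → Cfg → Al}
    (hx : ∀ e, PCts fun t => x t e) (hF : ∀ n, PCts fun t => F t n) : PCts fun t => hat (x t) E (F t) :=
  PCts.sum _ fun _ _ => (PCts.sum _ fun _ _ => (PCts.const _).mul (hF _)).mul (PCts.prod _ fun e _ => hx e)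


/-- `PCts.sum/prod/mul/smul/const/sub/grp` (P/Cts.lean), `grp_apply`; `algebraMap r = r • 1`; `wT (tOf (c t)) e` is continuous -/
theorem s0_pcts' {P : Type} [TopologicalSpace P] (p : Par) (𝔤 : Geom) (V : Finset Site → ℝ) {c : P → ℝ × ℝ} {μ : P → ℝ}
    (hc : Continuous c) (hc' : ∀ t, -1 < (c t).2) (hμ : Continuous μ) : St.PCts fun t => 𝔤.s0 p (c t) (μ t) V := by
  have h1 : Continuous fun t => 1 + (c t).2 := continuous_const.add hc.snd
  have ht : Continuous fun t => tOf (c t) :=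
    continuous_const.add (hc.fst.div h1 fun t => by have := hc' t; linarith)
  have hw : ∀ e, Continuous fun t => 𝔤.wT (tOf (c t)) e := fun e => by
    unfold Geom.wT
    split_ifs
    · exact (ht.div_const _).mul continuous_const
    · exact continuous_const
  have hρ : ∀ y, Continuous fun t => if y ∈ 𝔤.Λ then Real.sqrt (1 + (c t).2) else 1 := fun y => by
    split_ifs
    · exact h1.sqrt
    · exact continuous_const
  have hx : ∀ e, PCts fun t => 𝔤.xE (c t) e := fun e => (PCts.const _).smul (h1.mul (hw e))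
  have hV : ∀ Y n, PCts fun t => 𝔤.actV (μ t) V Y n := fun Y n => by
    simp only [Geom.actV, Algebra.algebraMap_eq_smul_one]
    refine (PCts.const _).smul (Continuous.sub ?_ continuous_const)
    unfold pertF
    exact continuous_finsetProd _ fun B _ => ((hμ.mul continuous_const).mul continuous_const).rexp
  have hM : ∀ Z, PCts fun t => hat (𝔤.xE (c t)) (edgesIn Z) (geoZ.grp p.l0 p.l0 𝔤.actO (fun _ => 0) Z) := fun Z =>
    lcl_hat_pcts _ hx fun _ => PCts.const _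
  refine ⟨fun x => ?_, fun _ => PCts.const _, hM, fun Z => ?_⟩
  · exact ((PCts.const _).smul (((hρ x).pow 2).sub continuous_const)).add (PCts.sum _ fun α _ =>
      (PCts.const _).smul (continuous_const.mul ((((hρ x).mul (hρ _)).mul (hw _)).sub continuous_const)))
  · simp only [s0_K]
    refine (lcl_hat_pcts _ hx fun n => ?_).sub (hM Z)
    simp only [grp_apply]
    exact PCts.grp geoZ _ _ (Q := fun t Y => act 𝔤 (μ t) V Y n) (K := fun _ _ => 0)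
      (fun Y => ((PCts.const _).add (hV Y n)).add ((PCts.const _).mul (hV Y n))) (fun _ => PCts.const _) Z

end Crest.Agent.R165.D4
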