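import Crest.Agent.R165.D4.SV

/-! # R165/D4 (owner helper23): transport of one RG step -/

set_option autoImplicit false
noncomputable section
open Classical

namespace Crest.Agent.R165.D4

/-- the covariance kernel of the step `j` -/
def cv (p : Par) (𝔤 : Geom) (j : ℕ) : HE → HE → ℝ := 𝔤.gle p (j + 1) - 𝔤.gle p j

theorem loc_eq (p : Par) (𝔤 : Geom) (j : ℕ) (x : Site) (F : Al) : (𝔤.sp p j).loc x F =
    cstA F + (toEv (𝔤.loc2G p j x) (muE (extG ((-1 : ℝ) • cv p 𝔤 j)) F) +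
      toEv (𝔤.mvG p j x) (muE (extG ((-1 : ℝ) • cv p 𝔤 j)) F)) := by
  rw [extG_smul, neg_one_smul]
  change cstA F + evP ((𝔤.loc2G p j x + 𝔤.mvG p j x) (mu (-𝔤.Cov p j) (F : Gr Ix))) = _
  rw [LinearMap.add_apply, map_add]
  rfl

theorem mu_eq (p : Par) (𝔤 : Geom) (j : ℕ) : (𝔤.sp p j).mu = muE (extG ((1 : ℝ) • cv p 𝔤 j)) := by
  rw [one_smul]; rfl

/-- `next_rel geoZ geoZ nilE (sp_alg …)`; `loc x F = cstA F + toEv (loc2G x) (muE (-Cov) F) + toEv (mvG x) (muE (-Cov) F)`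
(`extG_smul` with `t = 1, -1`, `muE_mem_Lc`), `box_image`, `image_cl`; `en x = cst (w x)` -/
theorem step_rel {p : Par} (hp : p.OK) {𝔤 𝔤' : Geom} (j : ℕ) {φ : Site → Site} (Φ : Al →ₐ[ℝ] Al) {W W' : Set Site}
    (hφ : Function.Bijective φ) (hd : ∀ x y, supd (φ x) (φ y) = supd x y)
    (he : ∀ F, augE (Φ F) = augE F) (hc : ∀ F, cstA (Φ F) = Φ (cstA F))
    (hmu : ∀ (t : ℝ) (Z : Finset Site) (F : Al), ↑Z ⊆ W → F ∈ 𝔤.Lc p j Z →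
      muE (extG (t • cv p 𝔤' j)) (Φ F) = Φ (muE (extG (t • cv p 𝔤 j)) F))
    (hl2 : ∀ (Z : Finset Site) (x : Site) (F : Al), ↑Z ⊆ W → geoZ.Small (p.l j) Z → x ∈ Z → F ∈ 𝔤.Lc p j Z →
      toEv (𝔤'.loc2G p j (φ x)) (Φ F) = Φ (toEv (𝔤.loc2G p j x) F))
    (hmv : ∀ (Z : Finset Site) (x : Site) (F : Al), ↑Z ⊆ W → geoZ.Small (p.l j) Z → x ∈ Z → F ∈ 𝔤.Lc p j Z →
      toEv (𝔤'.mvG p j (φ x)) (Φ F) = Φ (toEv (𝔤.mvG p j x) F))
    (hW : ∀ x ∈ W', ↑(box x (2 * p.l j)) ⊆ W) {s s' : St Site Al} (hs : s.Lcl geoZ (𝔤.Lc p j) (p.l j))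
    (hr : s.Rel φ Φ W s') :
    ((𝔤.sp p j).next geoZ augE s).Rel φ Φ W' ((𝔤'.sp p j).next geoZ augE s') ∧
      ∀ x ∈ W', (𝔤'.sp p j).en geoZ s' (φ x) = Φ ((𝔤.sp p j).en geoZ s x) := by
  have hS := sp_alg p hp.1 hp.2.1 hp.2.2.1 𝔤 j
  have key := next_rel geoZ geoZ (e := augE) (e' := augE) nilE (S' := 𝔤'.sp p j) hS φ Φ W rfl rfl he hφ.1.injOn
    (fun x _ y _ => Or.inl (by rw [geoZ_d, hd]))
    (fun Z F hZ hF => by rw [mu_eq, mu_eq]; exact hmu 1 Z F hZ hF)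
    (fun Z x F hZ hs hx hF => by
      rw [loc_eq, loc_eq, hc, hmu (-1) Z F hZ hF, hl2 Z x _ hZ hs hx (muE_mem_Lc hF _),
        hmv Z x _ hZ hs hx (muE_mem_Lc hF _), map_add, map_add])
    (fun x hx F hF => ⟨hc F, hmv {x} x F (by simpa using hx) (geoZ.small_single _ x) (Finset.mem_singleton_self x) hF⟩)
    hs hr W' (fun x hx => by
      rw [geoZ_ball, image_cl]
      exact ⟨hW x hx, box_image hφ hd x _⟩)
  refine ⟨key.1, fun x hx => ?_⟩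
  rw [Sp.en, Sp.en, key.2 x hx]
  exact hc _

end Crest.Agent.R165.D4
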