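import Crest.Agent.R165.D4.Tr
import Crest.Agent.R165.D4.Step
import Crest.Agent.R165.D4.Lcl

/-! # R165/D4 (owner helper23): locality of the flow -/

set_option autoImplicit false
noncomputable section
open Classical

namespace Crest.Agent.R165.D4

theorem agree_mono {p : Par} {𝔤 𝔤' : Geom} {a : Site} {σ : Site → ℝ} {ρ : ℕ → Option ℕ} {W W' : Finset Site} {j j' : ℕ}
    (h : Agree p 𝔤 𝔤' a σ ρ W j) (hW : W' ⊆ W) (hj : j' ≤ j) : Agree p 𝔤 𝔤' a σ ρ W' j' where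
  sign := h.sign
  w e h0 h1 := h.w e (hW h0) (hW h1)
  vol x hx := h.vol x (hW hx)
  shp B hB := h.shp B (hB.trans hW)
  inj := h.inj
  obs k k' hk := by
    obtain ⟨a1, a2, a3, a4, a5, a6⟩ := h.obs k k' hk
    exact ⟨a1, a2, a3, a4, a5, fun i hi => a6 i (hi.trans_le hj)⟩
  obs' k' hk hy := h.obs' k' hk (hW hy)
  cov i hi u v hu hv := h.cov i (hi.trans hj) u v (hW hu) (hW hv)
  bulk i hi x hx := h.bulk i (hi.trans_le hj) x (hW hx)
  gauge i hi x hx hb x' hx' := h.gauge i (hi.trans_le hj) x (hW hx) hb x' (hW hx')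

theorem l_ge {p : Par} (hp : p.OK) (j : ℕ) : 800 ≤ p.l j ∧ 400 * p.l j ≤ p.l (j + 1) := by
  have h0 : 800 ≤ p.l0 := Nat.le_of_dvd hp.2.2.1 hp.2.1
  have h1 : 1 ≤ p.L ^ j := Nat.one_le_pow _ _ (by have := hp.1; omega)
  refine ⟨by rw [Par.l]; nlinarith, ?_⟩
  rw [Par.l, Par.l, pow_succ, mul_comm 400, ← mul_assoc]
  exact Nat.mul_le_mul_left _ hp.1

/-- support of a local element around a base point of a small polymer -/
theorem small_supp {p : Par} (hp : p.OK) {𝔤 : Geom} {j : ℕ} {Z : Finset Site} {x : Site} {F : Al}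
    (hs : geoZ.Small (p.l j) Z) (hx : x ∈ Z) (hF : F ∈ 𝔤.Lc p j Z) {n : ℕ} (hn : 6 ≤ n) :
    (F : Gr Ix) ∈ supA (hS {i | supd x i.1 ≤ n * p.l j}) := by
  refine supA_mono (fun i hi b hb => ?_) (mem_Lc hF)
  obtain ⟨z, hz, h1⟩ := hi b hb
  have h2 := hs.2 x hx z hz
  rw [geoZ_d] at h2
  have h3 := supd_triangle x z b.1
  have h4 := (l_ge hp j).1
  have h5 : 6 * p.l j ≤ n * p.l j := Nat.mul_le_mul_right _ hn
  rw [Par.rho] at h1
  change supd x b.1 ≤ n * p.l j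
  omega

theorem flow_local' {p : Par} (hp : p.OK) {R : ℕ} {V : Finset Site → ℝ} (hV : PotOK R V)
    {c : ℝ × ℝ} (μ : ℝ) {𝔤 𝔤' : Geom} (h' : InitOK p R c 𝔤') {a : Site} {σ : Site → ℝ}
    {ρ : ℕ → Option ℕ} (x₀ : Site) (r j : ℕ) (hA : Agree p 𝔤 𝔤' a σ ρ (box x₀ (r + p.l j / 20 + 5)) j) :
    (𝔤.st p c μ V j).Rel (· + a) (trA a σ ρ) ↑(box x₀ r) (𝔤'.st p c μ V j) ∧
      ∀ i < j, ∀ x ∈ box x₀ r, 𝔤'.en p c μ V i (x + a) = trA a σ ρ (𝔤.en p c μ V i x) := by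
  induction j generalizing r with
  | zero =>
    refine ⟨tr_s0 h' hA hV μ fun x hx => box_subset_box (Finset.mem_coe.1 hx) (by omega), fun i hi => absurd hi (by omega)⟩
  | succ j ih =>
    obtain ⟨l1, l2⟩ := l_ge hp j
    have l3 : 20 * p.l j ≤ p.l (j + 1) / 20 := by omega
    obtain ⟨r1, r2⟩ := ih (r + 2 * p.l j) (agree_mono hA (box_mono _ (by omega)) (Nat.le_succ j))
    have hb : ∀ {Z : Finset Site}, (↑Z : Set Site) ⊆ ↑(box x₀ (r + 2 * p.l j)) → ∀ x ∈ Z, ∀ n, n ≤ 18 * p.l j →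
        box x n ⊆ box x₀ (r + p.l (j + 1) / 20 + 5) := fun hZ x hx n hn =>
      box_subset_box (Finset.mem_coe.1 (hZ (Finset.mem_coe.2 hx))) (by omega)
    have key := step_rel hp (𝔤 := 𝔤) (𝔤' := 𝔤') j (φ := (· + a)) (trA a σ ρ) (W := ↑(box x₀ (r + 2 * p.l j)))
      (W' := ↑(box x₀ r)) (lsym_shift a).bφ (lsym_shift a).iso (augE_gmapE _)
      (fun F => sV_cst _ _ (isSrc_rhoB ρ) F)
      (fun t Z F hZ hF => tr_mu hA t (fun x hx => hb hZ x hx _ (by rw [Par.rho]; omega)) hF)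
      (fun Z x F hZ hs hx hF => tr_loc2G hA (by omega) (hb hZ x hx _ (by omega)) (small_supp hp hs hx hF (by omega)))
      (fun Z x F hZ hs hx hF => tr_mvG hA (by omega) (hb hZ x hx _ (by omega)) (small_supp hp hs hx hF (by omega)))
      (fun x hx => Finset.coe_subset.2 (box_subset_box (Finset.mem_coe.1 hx) le_rfl)) (st_lcl' hp 𝔤 c μ V j) r1
    refine ⟨key.1, fun i hi x hx => ?_⟩
    rcases Nat.lt_succ_iff_lt_or_eq.1 hi with h1 | rfl
    · exact r2 i h1 x (box_mono _ (by omega) hx)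
    · exact key.2 x (Finset.mem_coe.2 hx)

end Crest.Agent.R165.D4
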