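import Crest.Agent.R165.D4.SV

/-! # R165/D4 (owner helper23): the reversal -/

set_option autoImplicit false
noncomputable section
open Classical

namespace Crest.Agent.R165.D4

section general
variable {I J : Type}

/-- `CliffordAlgebra.left_induction`, `iota_swap` -/
theorem mul_iota (y : Gr I) (u : GV I) :
    y * ExteriorAlgebra.ι ℝ u = ExteriorAlgebra.ι ℝ u * CliffordAlgebra.involute y := by
  induction y using CliffordAlgebra.left_induction with
  | algebraMap r => rw [AlgHom.commutes, Algebra.commutes]
  | add _ _ hx hy => rw [add_mul, map_add, mul_add, hx, hy]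
  | ι_mul x m hx =>
    rw [mul_assoc, hx, ← mul_assoc, iota_swap m u, map_mul, CliffordAlgebra.involute_ι, neg_mul, neg_mul, mul_neg,
      mul_assoc]

theorem involute_ctr (d : Module.Dual ℝ (GV I)) (x : Gr I) :
    CliffordAlgebra.involute (ctr d x) = -ctr d (CliffordAlgebra.involute x) := by
  induction x using CliffordAlgebra.left_induction with
  | algebraMap r => rw [AlgHom.commutes, CliffordAlgebra.contractLeft_algebraMap, map_zero, neg_zero]
  | add _ _ hx hy => simp only [map_add, hx, hy, neg_add]
  | ι_mul x m hx =>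
    rw [ctr_iota_mul, map_sub, map_smul, map_mul, map_mul, hx, CliffordAlgebra.involute_ι, neg_mul_neg, neg_mul, map_neg,
      neg_neg, ctr_iota_mul]

theorem involute_mu (g : I → I → ℝ) (x : Gr I) : CliffordAlgebra.involute (mu g x) = mu g (CliffordAlgebra.involute x) := by
  induction x using CliffordAlgebra.left_induction with
  | algebraMap r => rw [mu_algebraMap, AlgHom.commutes, mu_algebraMap]
  | add _ _ hx hy => simp only [map_add, hx, hy]
  | ι_mul x m hx =>
    rw [mu_iota_mul, map_add, map_mul, map_mul, involute_ctr, hx, CliffordAlgebra.involute_ι, neg_mul, neg_mul, map_neg,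
      mu_iota_mul, neg_add]

/-- induction; `reverse (ι u * x) = reverse x * ι u = ι u * involute (reverse x)`, `reverse_involute`, `involute_involute` -/
theorem reverse_ctr (d : Module.Dual ℝ (GV I)) (x : Gr I) :
    CliffordAlgebra.reverse (ctr d x) = -ctr d (CliffordAlgebra.involute (CliffordAlgebra.reverse x)) := by
  induction x using CliffordAlgebra.left_induction with
  | algebraMap r =>
    rw [CliffordAlgebra.reverse.commutes, AlgHom.commutes, CliffordAlgebra.contractLeft_algebraMap, map_zero, neg_zero]
  | add _ _ hx hy => simp only [map_add, hx, hy, neg_add]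
  | ι_mul x m hx =>
    rw [ctr_iota_mul, map_sub, map_smul, CliffordAlgebra.reverse.map_mul, CliffordAlgebra.reverse.map_mul, hx,
      CliffordAlgebra.reverse_ι, mul_iota, mul_iota, map_neg, involute_ctr, map_mul, CliffordAlgebra.involute_ι,
      CliffordAlgebra.involute_involute, neg_neg, neg_mul, map_neg, neg_neg, ctr_iota_mul]

/-- `mu_iota_mul`, `reverse_ctr`, `involute_mu`, `bil (-g) = -bil g` (`bil_smul`) -/
theorem reverse_mu (g : I → I → ℝ) (x : Gr I) :
    CliffordAlgebra.reverse (mu g x) = mu (-g) (CliffordAlgebra.reverse x) := by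
  induction x using CliffordAlgebra.left_induction with
  | algebraMap r => rw [mu_algebraMap, CliffordAlgebra.reverse.commutes, mu_algebraMap]
  | add _ _ hx hy => simp only [map_add, hx, hy]
  | ι_mul x m hx =>
    have hb : bil (-g) = -bil g := bil_ext fun i j => by
      rw [LinearMap.neg_apply, LinearMap.neg_apply, bil_single, bil_single, Pi.neg_apply, Pi.neg_apply, Pi.neg_apply,
        Pi.neg_apply]
      ring
    rw [mu_iota_mul, map_add, CliffordAlgebra.reverse.map_mul, CliffordAlgebra.reverse.map_mul, reverse_ctr, hx,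
      CliffordAlgebra.reverse_ι, mul_iota, mul_iota, mu_iota_mul, involute_mu, hb, LinearMap.neg_apply, map_neg,
      LinearMap.neg_apply]

theorem reverse_gmap (T : GV I →ₗ[ℝ] GV J) (x : Gr I) :
    CliffordAlgebra.reverse (gmap T x) = gmap T (CliffordAlgebra.reverse x) := by
  induction x using CliffordAlgebra.left_induction with
  | algebraMap r => rw [AlgHom.commutes, CliffordAlgebra.reverse.commutes, CliffordAlgebra.reverse.commutes, AlgHom.commutes]
  | add _ _ hx hy => simp only [map_add, hx, hy]
  | ι_mul x m hx =>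
    rw [map_mul, CliffordAlgebra.reverse.map_mul, CliffordAlgebra.reverse.map_mul, hx, gmap_iota,
      CliffordAlgebra.reverse_ι, CliffordAlgebra.reverse_ι, map_mul, gmap_iota]

theorem aug_reverse (x : Gr I) : aug (CliffordAlgebra.reverse x) = aug x := by
  induction x using CliffordAlgebra.left_induction with
  | algebraMap r => rw [CliffordAlgebra.reverse.commutes]
  | add _ _ hx hy => simp only [map_add, hx, hy]
  | ι_mul x m hx =>
    rw [CliffordAlgebra.reverse.map_mul, CliffordAlgebra.reverse_ι, map_mul, map_mul, aug_iota, mul_zero, zero_mul]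

theorem revE_th2 (i j : I) : revE (th2 i j) = th2 j i := by
  refine Subtype.ext ?_
  rw [D1.coe_revE, D1.coe_th2, D1.coe_th2, CliffordAlgebra.reverse.map_mul, th, th, CliffordAlgebra.reverse_ι,
    CliffordAlgebra.reverse_ι]

theorem th2_swap (i j : I) : th2 j i = -th2 i j := by
  exact Subtype.ext (iota_swap _ _)

end general

theorem rev_coe_refA (F : Al) : (refA F : Gr Ix) = CliffordAlgebra.reverse (gmap refV (F : Gr Ix)) :=
  D1.coe_revE _

theorem refA_aug (F : Al) : augE (refA F) = augE F := by
  rw [D1.augE_apply, D1.augE_apply, rev_coe_refA, aug_reverse, D1.aug_gmap]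

/-- `reverse_gmap`, `sV_cst` -/
theorem refA_cst (F : Al) : cstA (refA F) = refA (cstA F) := by
  refine Subtype.ext ?_
  have h := congrArg Subtype.val (sV_cst refE refH isSrc_dzq F)
  rw [rev_coe_refA, refV_eq, ← D1.coe_gmapE, ← h, cstA_eq, D1.coe_gmapE, D1.coe_gmapE, rev_coe_refA, reverse_gmap cstV]
  rfl

/-- `sV_mu` with `g' = -g`, `S = univ`; `reverse_mu`, `extG_smul` -/
theorem refA_mu {g : HE → HE → ℝ} (h : ∀ i j, refE i * refE j * g (refH i) (refH j) = -g i j) (F : Al) :
    muE (extG g) (refA F) = refA (muE (extG g) F) := by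
  refine Subtype.ext ?_
  have h1 := sV_mu (ε := refE) (π := refH) isSrc_dzq (g := g) (g' := (-1 : ℝ) • g) (S := Set.univ)
    (fun i _ j _ => by simp only [Pi.smul_apply, smul_eq_mul]; linear_combination -h i j) (x := (F : Gr Ix))
    (supA_mono (S := Set.univ) (T := hS Set.univ) (fun i _ a _ => Set.mem_univ a) (mem_supA_univ _))
  rw [D1.coe_muE, rev_coe_refA, rev_coe_refA, D1.coe_muE, refV_eq, ← h1, reverse_mu, extG_smul, neg_one_smul, neg_neg]

theorem refA_th2 (i j : HE) :
    refA (th2 (Sum.inl i) (Sum.inl j)) = (refE i * refE j) • th2 (Sum.inl (refH j)) (Sum.inl (refH i)) := by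
  rw [refA, AlgHom.comp_apply, refV_eq, sV_th2, map_smul, revE_th2]

end Crest.Agent.R165.D4
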