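import Crest.Agent.R165.D4.Hat
import Crest.Agent.R165.D4.SV

/-! # R165/D4 (owner helper23): lattice symmetries and transport of the initial state -/

set_option autoImplicit false
noncomputable section
open Classical

namespace Crest.Agent.R165.D4

/-- a lattice symmetry: action on white sites, edges, black sites -/
structure LSym (φ : Site → Site) (ψ : Edge → Edge) (β : Site → Site) : Prop where
  bφ : Function.Bijective φ
  bψ : Function.Bijective ψ
  bβ : Function.Bijective β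
  iso : ∀ x y, supd (φ x) (φ y) = supd x y
  isoB : ∀ x y, supd (β x) (β y) = supd x y
  ends : ∀ (e : Edge) (P : Site → Prop), (P (ψ e).1 ∧ P ((ψ e).1 + uv (ψ e).2)) ↔ (P (φ e.1) ∧ P (φ (e.1 + uv e.2)))
  endsB : ∀ e : Edge, (edgeB0 (ψ e) = β (edgeB0 e) ∧ edgeB1 (ψ e) = β (edgeB1 e)) ∨
    (edgeB0 (ψ e) = β (edgeB1 e) ∧ edgeB1 (ψ e) = β (edgeB0 e))
  bbox : ∀ (B : Finset Site) (z : Site), β z ∈ bbox (B.image β) ↔ z ∈ bbox B
  bSites : ∀ B : Finset Site, bSites (B.image β) = (bSites B).image φ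

def rotEd (e : Edge) : Edge := if e.2 = 0 then (rotS e.1, 1) else (rotS e.1 - (1, 0), 0)
def refEd (e : Edge) : Edge := if e.2 = 0 then (refS e.1, 0) else (refS e.1 - (0, 1), 1)
def rotB (z : Site) : Site := (1 - z.2, z.1)
def refB (z : Site) : Site := (z.1, 1 - z.2)

/-! ### leaf `Sym-a`: consequences -/
section a
variable {φ : Site → Site} {ψ : Edge → Edge} {β : Site → Site}

theorem LSym.edgesIn (h : LSym φ ψ β) (Z : Finset Site) : edgesIn (Z.image φ) = (edgesIn Z).image ψ := by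
  ext e
  obtain ⟨e, rfl⟩ := h.bψ.2 e
  rw [h.bψ.1.mem_finset_image, mem_edgesIn, mem_edgesIn, h.ends e (fun x => x ∈ Z.image φ),
    h.bφ.1.mem_finset_image, h.bφ.1.mem_finset_image]

theorem LSym.isShape (h : LSym φ ψ β) (R : ℕ) (B : Finset Site) : IsShape R (B.image β) ↔ IsShape R B := by
  simp only [IsShape, Finset.image_nonempty, Finset.forall_mem_image, h.isoB]

theorem LSym.syma_nOf (h : LSym φ ψ β) (σ : Site → Bool) (e : Edge) : nOf σ (ψ e) = nOf (σ ∘ β) e := by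
  rcases h.endsB e with ⟨h0, h1⟩ | ⟨h0, h1⟩
  · simp only [nOf, h0, h1, Function.comp_apply]
  · simp only [nOf, h0, h1, Function.comp_apply, Bool.xor_comm]

theorem LSym.syma_bEdges (h : LSym φ ψ β) (B : Finset Site) (e : Edge) : ψ e ∈ bEdges (B.image β) ↔ e ∈ bEdges B := by
  rw [mem_bEdges, mem_bEdges]
  rcases h.endsB e with ⟨h0, h1⟩ | ⟨h0, h1⟩
  · rw [h0, h1, h.bbox, h.bbox]
  · rw [h0, h1, h.bbox, h.bbox, and_comm]

/-- `nOf σ (ψ e) = nOf (σ ∘ β) e`, `ψ e ∈ bEdges (B.image β) ↔ e ∈ bEdges B` (`mem_bEdges`). If `n = nOf σ` on the edges of the image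
use `sB_dependsOn`, `sB_nOf` on both sides; otherwise both sides are `0` (`β`, `ψ` are bijective) -/
theorem LSym.sB (h : LSym φ ψ β) {B : Finset Site} (hB : Even B.card) (n : Cfg) : sB (B.image β) n = sB B (n ∘ ψ) := by
  by_cases hn : ∃ σ : Site → Bool, ∀ e ∈ bEdges (B.image β), n e = nOf σ e
  · obtain ⟨σ, hσ⟩ := hn
    have h1 : R165.sB (B.image β) n = R165.sB (B.image β) (nOf σ) := sB_dependsOn _ fun e he => hσ e he
    have h2 : R165.sB B (n ∘ ψ) = R165.sB B (nOf (σ ∘ β)) := sB_dependsOn _ fun e he => by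
      rw [Function.comp_apply, hσ _ ((h.syma_bEdges B e).2 he), h.syma_nOf]
    rw [h1, h2, sB_nOf (by rwa [Finset.card_image_of_injective _ h.bβ.1]), sB_nOf hB,
      Finset.prod_image h.bβ.1.injOn]
    rfl
  · rw [R165.sB, dif_neg hn, R165.sB, dif_neg]
    rintro ⟨σ, hσ⟩
    refine hn ⟨σ ∘ Function.surjInv h.bβ.2, fun e he => ?_⟩
    obtain ⟨e, rfl⟩ := h.bψ.2 e
    rw [h.syma_nOf, Function.comp_assoc, (Function.leftInverse_surjInv h.bβ).comp_eq_id, Function.comp_id]
    exact hσ e ((h.syma_bEdges B e).1 he)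

/-- `Finset.prod_bij` along `B ↦ B.image β` (`subset_bSites`, `LSym.bSites`); if `V B = 0` both factors are `1` -/
theorem LSym.actV (h : LSym φ ψ β) (Φ : Al →ₐ[ℝ] Al) {V : Finset Site → ℝ} (hV : ∀ B, V B ≠ 0 → Even B.card)
    (hV' : ∀ B : Finset Site, V (B.image β) = V B) {𝔤 𝔤' : Geom} (μ : ℝ) {Y : Finset Site}
    (hs : ∀ B : Finset Site, R165.bSites B = Y → (B.image β ∈ 𝔤'.shp ↔ B ∈ 𝔤.shp)) (n : Cfg) :
    𝔤'.actV μ V (Y.image φ) n = Φ (𝔤.actV μ V Y (n ∘ ψ)) := by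
  rw [Geom.actV, Geom.actV, AlgHom.commutes]
  congr 2
  unfold pertF
  symm
  refine Finset.prod_bij (fun B _ => B.image β) (fun B hB => ?_)
    (fun B _ B' _ e => Finset.image_injective h.bβ.1 e) (fun B' hB' => ?_) fun B _ => ?_
  · obtain ⟨-, h2, h3⟩ := Finset.mem_filter.1 hB
    have h4 : R165.bSites (B.image β) = Y.image φ := by rw [h.bSites, h3]
    exact Finset.mem_filter.2 ⟨Finset.mem_powerset.2 (h4 ▸ subset_bSites _), (hs B h3).2 h2, h4⟩
  · obtain ⟨B, rfl⟩ : ∃ B : Finset Site, B.image β = B' := ⟨B'.image (Function.surjInv h.bβ.2), by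
      rw [Finset.image_image, (Function.rightInverse_surjInv h.bβ.2).comp_eq_id, Finset.image_id]⟩
    obtain ⟨-, h2, h3⟩ := Finset.mem_filter.1 hB'
    have h4 : R165.bSites B = Y := Finset.image_injective h.bφ.1 (by rw [← h.bSites, h3])
    exact ⟨B, Finset.mem_filter.2 ⟨Finset.mem_powerset.2 (h4 ▸ subset_bSites _), (hs B h4).1 h2, h4⟩, rfl⟩
  · rw [hV']
    by_cases h0 : V B = 0
    · simp [h0]
    · rw [h.sB (hV B h0)]

/-- `grp_rel geoZ geoZ φ Ψ` with the ring map `Ψ : (Cfg → Al) →+* (Cfg → Al)`, `Ψ F n = Φ (F (n ∘ ψ))` (`RingHom.pi`/`Pi.ringHom`,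
`Pi.evalRingHom`), then `hat_rel`, `LSym.edgesIn`; use `image_cl` (or `convert`) for the `DecidableEq` instances -/
theorem LSym.s0_rel (h : LSym φ ψ β) (Φ : Al →ₐ[ℝ] Al) (p : Par) {𝔤 𝔤' : Geom} (c : ℝ × ℝ) (μ : ℝ) (V : Finset Site → ℝ)
    (W : Set Site) (hq : ∀ x ∈ W, (𝔤'.s0 p c μ V).q (φ x) = Φ ((𝔤.s0 p c μ V).q x))
    (hx : ∀ e : Edge, e.1 ∈ W → e.1 + uv e.2 ∈ W → 𝔤'.xE c (ψ e) = Φ (𝔤.xE c e))
    (hO : ∀ Y : Finset Site, ↑Y ⊆ W → ∀ n, 𝔤'.actO (Y.image φ) n = Φ (𝔤.actO Y (n ∘ ψ)))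
    (hV : ∀ Y : Finset Site, ↑Y ⊆ W → ∀ n, 𝔤'.actV μ V (Y.image φ) n = Φ (𝔤.actV μ V Y (n ∘ ψ))) :
    (𝔤.s0 p c μ V).Rel φ Φ W (𝔤'.s0 p c μ V) := by
  have key : ∀ {P P' : Finset Site → Cfg → Al} (Z : Finset Site), ↑Z ⊆ W →
      (∀ Y : Finset Site, ↑Y ⊆ W → ∀ n, P' (Y.image φ) n = Φ (P Y (n ∘ ψ))) →
      hat (𝔤'.xE c) (R165.edgesIn (Z.image φ)) (geoZ.grp p.l0 p.l0 P' (fun _ => 0) (Z.image φ)) =
        Φ (hat (𝔤.xE c) (R165.edgesIn Z) (geoZ.grp p.l0 p.l0 P (fun _ => 0) Z)) := fun {P P'} Z hZ hP => by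
    let Ψ : (Cfg → Al) →+* (Cfg → Al) :=
      RingHom.pi fun n => (Φ : Al →+* Al).comp (Pi.evalRingHom (fun _ => Al) (n ∘ ψ))
    have h1 := grp_rel geoZ geoZ φ Ψ (Z := Z) (le_refl p.l0) (le_refl p.l0) h.bφ.1.injOn
      (fun x _ y _ => Or.inl (by rw [geoZ_d, h.iso])) (P := P) (K := fun _ => 0) (P' := P') (K' := fun _ => 0)
      (fun Y hY => by
        rw [image_cl]
        exact funext fun n => hP Y ((Finset.coe_subset.2 hY).trans hZ) n)
      fun _ _ => (map_zero Ψ).symm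
    rw [image_cl] at h1
    rw [h1, h.edgesIn]
    exact hat_rel (Φ : Al →+* Al) h.bψ.1 _
      (fun e he => hx e (hZ (mem_edgesIn.1 he).1) (hZ (mem_edgesIn.1 he).2)) _
  refine ⟨hq, fun _ _ => (map_zero Φ).symm, fun Z hZ => ?_, fun Z hZ => ?_⟩
  · rw [image_cl]
    exact key Z hZ hO
  · rw [image_cl, s0_K, s0_K, map_sub, key Z hZ hO, key (P := act 𝔤 μ V) Z hZ fun Y hY n => by
      simp only [act, Pi.add_apply, Pi.mul_apply, map_add, map_mul, hO Y hY, hV Y hY]]

end a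

/-! ### leaf `Sym-b`: the three symmetries (`mem_bbox`, `mem_bSites`, coordinates + `omega`) -/

private theorem symb_bSites {φ β : Site → Site} (hφ : Function.Bijective φ)
    (hb : ∀ (B : Finset Site) (z : Site), β z ∈ bbox (B.image β) ↔ z ∈ bbox B)
    (hc : ∀ (x : Site) (P : Site → Prop),
      (P (φ x) ∨ P (φ x + (1, 0)) ∨ P (φ x + (0, 1)) ∨ P (φ x + (1, 1))) ↔
        (P (β x) ∨ P (β (x + (1, 0))) ∨ P (β (x + (0, 1))) ∨ P (β (x + (1, 1))))) (B : Finset Site) :
    bSites (B.image β) = (bSites B).image φ := by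
  ext y
  obtain ⟨x, rfl⟩ := hφ.2 y
  rw [hφ.1.mem_finset_image, mem_bSites, mem_bSites, hc x (fun z => z ∈ bbox (B.image β)), hb, hb, hb, hb]

private theorem symb_bbox_shift (a : Site) (B : Finset Site) (z : Site) :
    z + a ∈ bbox (B.image (· + a)) ↔ z ∈ bbox B := by
  simp only [mem_bbox, Finset.mem_image, exists_exists_and_eq_and, Prod.fst_add, Prod.snd_add,
    add_le_add_iff_right]

private theorem symb_bbox_rot (B : Finset Site) (z : Site) : rotB z ∈ bbox (B.image rotB) ↔ z ∈ bbox B := by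
  simp only [mem_bbox, Finset.mem_image, exists_exists_and_eq_and, rotB, sub_le_sub_iff_left]
  tauto

private theorem symb_bbox_ref (B : Finset Site) (z : Site) : refB z ∈ bbox (B.image refB) ↔ z ∈ bbox B := by
  simp only [mem_bbox, Finset.mem_image, exists_exists_and_eq_and, refB, sub_le_sub_iff_left]
  tauto

private theorem symb_bij {α : Type*} (f g : α → α) (h1 : ∀ x, g (f x) = x) (h2 : ∀ x, f (g x) = x) :
    Function.Bijective f :=
  Function.bijective_iff_has_inverse.2 ⟨g, h1, h2⟩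

theorem lsym_shift (a : Site) : LSym (· + a) (trE a) (· + a) := by
  have hφ : Function.Bijective (fun x : Site => x + a) := symb_bij _ (· - a) (by simp) (by simp)
  refine ⟨hφ, symb_bij _ (trE (-a)) (by simp [trE]) (by simp [trE]), hφ, ?_, ?_, ?_, ?_, symb_bbox_shift a,
    symb_bSites hφ (symb_bbox_shift a) ?_⟩
  · intro x y
    simp [supd]
  · intro x y
    simp [supd]
  · intro e P
    simp only [trE, add_right_comm]
  · rintro ⟨x, j⟩
    left
    fin_cases j <;> simp [trE, edgeB0, edgeB1, add_right_comm]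
  · intro x P
    simp only [add_right_comm]

theorem lsym_rot : LSym rotS rotEd rotB := by
  have hφ : Function.Bijective rotS := symb_bij _ (fun x => (x.2, -x.1)) (by simp [rotS]) (by simp [rotS])
  refine ⟨hφ, symb_bij _ (fun e => if e.2 = 1 then ((e.1.2, -e.1.1), 0) else ((e.1.2, -e.1.1 - 1), 1)) ?_ ?_,
    symb_bij _ (fun x => (x.2, 1 - x.1)) (by simp [rotB]) (by simp [rotB]), ?_, ?_, ?_, ?_, symb_bbox_rot,
    symb_bSites hφ symb_bbox_rot ?_⟩
  · rintro ⟨x, j⟩
    fin_cases j <;> simp [rotEd, rotS]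
  · rintro ⟨x, j⟩
    fin_cases j <;> simp [rotEd, rotS]
  · intro x y
    simp only [supd, rotS]
    omega
  · intro x y
    simp only [supd, rotB]
    omega
  · rintro ⟨⟨x, y⟩, j⟩ P
    fin_cases j
    · simp [rotEd, rotS, uv]
    · have e1 : -1 + -y = -y - 1 := by ring
      simp [rotEd, rotS, uv, e1, and_comm]
  · rintro ⟨⟨x, y⟩, j⟩
    fin_cases j
    · right
      simp [rotEd, rotS, rotB, edgeB0, edgeB1]
      omega
    · left
      simp [rotEd, rotS, rotB, edgeB0, edgeB1]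
  · rintro ⟨x, y⟩ P
    have e1 : 1 - y = -y + 1 := by ring
    simp [rotS, rotB, e1]
    tauto

theorem lsym_ref : LSym refS refEd refB := by
  have hφ : Function.Bijective refS := symb_bij _ refS (by simp [refS]) (by simp [refS])
  refine ⟨hφ, symb_bij _ refEd ?_ ?_,
    symb_bij _ refB (by simp [refB]) (by simp [refB]), ?_, ?_, ?_, ?_, symb_bbox_ref,
    symb_bSites hφ symb_bbox_ref ?_⟩
  · rintro ⟨x, j⟩
    fin_cases j <;> simp [refEd, refS]
  · rintro ⟨x, j⟩
    fin_cases j <;> simp [refEd, refS]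
  · intro x y
    simp only [supd, refS]
    omega
  · intro x y
    simp only [supd, refB]
    omega
  · rintro ⟨⟨x, y⟩, j⟩ P
    fin_cases j
    · simp [refEd, refS, uv]
    · have e1 : -1 + -y = -y - 1 := by ring
      simp [refEd, refS, uv, e1, and_comm]
  · rintro ⟨⟨x, y⟩, j⟩
    fin_cases j
    · right
      simp [refEd, refS, refB, edgeB0, edgeB1]
      omega
    · left
      simp [refEd, refS, refB, edgeB0, edgeB1]
  · rintro ⟨x, y⟩ P
    have e1 : 1 - y = -y + 1 := by ring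
    simp [refS, refB, e1]
    tauto

/-- `rotB = (· + (1, 0)) ∘ rotate`, `refB = (· + (0, 1)) ∘ reflect` (`Finset.image_image`) -/
theorem V_rot {R : ℕ} {V : Finset Site → ℝ} (hV : PotOK R V) (B : Finset Site) :
    V (B.image rotB) = V B ∧ V (B.image refB) = V B := by
  constructor
  · have : B.image rotB = (B.image Crest.ProbabilityR.IsingModel.rotate).image fun x => x + (1, 0) := by
      rw [Finset.image_image]
      congr 1
      funext z
      simp [rotB, Crest.ProbabilityR.IsingModel.rotate]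
      ring
    rw [this]
    exact (hV.trans _ _).trans (hV.rot B)
  · have : B.image refB = (B.image Crest.ProbabilityR.IsingModel.reflect).image fun x => x + (0, 1) := by
      rw [Finset.image_image]
      congr 1
      funext z
      simp [refB, Crest.ProbabilityR.IsingModel.reflect]
      ring
    rw [this]
    exact (hV.trans _ _).trans (hV.refl B)

theorem rotEd_edgeOf (x : Site) (α : Fin 4) : rotEd (edgeOf x α) = edgeOf (rotS x) (α + 1) := by
  obtain ⟨x, y⟩ := x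
  fin_cases α <;> simp [rotEd, edgeOf, rotS]

theorem refEd_edgeOf (x : Site) (α : Fin 4) : refEd (edgeOf x α) = edgeOf (refS x) (-α) := by
  obtain ⟨x, y⟩ := x
  fin_cases α <;> simp [refEd, edgeOf, refS]

theorem shE_edgeOf (a x : Site) (α : Fin 4) : trE a (edgeOf x α) = edgeOf (x + a) α := by
  fin_cases α <;> simp [trE, edgeOf, add_sub_right_comm]

end Crest.Agent.R165.D4
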