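import Crest.Agent.R165.D4.Step
import Crest.Agent.R165.D4.Rev
import Crest.Agent.R165.D4.Sym

/-! # R165/D4 (owner helper23): symmetries of the steps of the plane geometries -/

set_option autoImplicit false
noncomputable section
open Classical

namespace Crest.Agent.R165.D4

section plane
variable (p : Par) (R : ℕ) (Γ h : ℕ → ℝ) (m : ℕ) (y : ℕ → Edge) (O : ℕ → Cfg → ℝ) (oS : ℕ → Finset Site) (j : ℕ)

theorem pl2_sgn (x y : Site) : sgn ∅ x y = 1 := by simp [sgn]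

theorem pl2_eta (x : Site) : eta p j ∅ x = 0 := by simp [eta, conv]

/-- `Fz = ∅` (`|tc| = tc`), `eta p j ∅ x = 0` (`eta_props` or directly from `conv`), `sgn ∅ = 1`, empty sum -/
theorem plane_gle (i i' : HE) : (gPlane R Γ h ⊤ m y O oS).gle p j i i' = chi p j (i.1 - i'.1) * gPl i i' := by
  have hF : (gPlane R Γ h ⊤ m y O oS).Fz = ∅ := by
    ext b
    simp [Geom.Fz, gPlane, wPl, abs_of_pos tc_pos.1]
  rw [Geom.gle, Geom.gloc, hF, pl2_eta, zero_mul, zero_mul, add_zero, if_pos (show (j : ℕ∞) < (gPlane R Γ h ⊤ m y O oS).jN from ENat.natCast_lt_top j)]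
  change _ * (sgn ∅ _ _ * _ + ∑ v ∈ (∅ : Finset Site), _) = _
  rw [pl2_sgn, one_mul, Finset.sum_empty, add_zero]

/-- `Bulk` holds everywhere, `gaugeV_eq`, `sV_one` -/
theorem plane_loc2G (x : Site) : (gPlane R Γ h ⊤ m y O oS).loc2G p j x = loc2 x := by
  have hb : (gPlane R Γ h ⊤ m y O oS).Bulk p j x :=
    ⟨fun b hb => hb.elim False.elim fun h => absurd h (Finset.notMem_empty b), abs_of_pos tc_pos.1⟩
  rw [Geom.loc2G, if_pos hb]
  have e : ∀ F, gmap (gaugeV (sgn (gPlane R Γ h ⊤ m y O oS).S x)) F = F := fun F => by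
    change gmap (gaugeV (sgn ∅ x)) F = F
    rw [gaugeV_eq]
    simp only [pl2_sgn]
    exact sV_one F
  refine LinearMap.ext fun F => ?_
  change gmap _ (loc2 x (gmap _ F)) = _
  rw [e, e]

end plane

theorem pl2_rotF (s : Fn) (i : HE) : rotF s (rotH i) = rotE i * s i := by
  obtain ⟨⟨a, b⟩, α⟩ := i
  fin_cases α <;> simp [rotH, rotE, rotS, rotF_0, rotF_1, rotF_2, rotF_3]

theorem pl2_refF (s : Fn) (i : HE) : refF s (refH i) = refE i * s i := by
  obtain ⟨⟨a, b⟩, α⟩ := i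
  fin_cases α
  · simp [refH, refE, refS, refF_0]
  · change refF s ((a, -b), 3) = _
    simp [refE, refF_3]
  · change refF s ((a, -b), 2) = _
    simp [refE, refF_2]
  · change refF s ((a, -b), 1) = _
    simp [refE, refF_1]

theorem pl2_rotE (i : HE) : rotE i * rotE i = 1 := by unfold rotE; split_ifs <;> norm_num

theorem pl2_refE (i : HE) : refE i * refE i = 1 := by unfold refE; split_ifs <;> norm_num

/-- `gPl_rot` at `(rotH i, rotH j)` (`rotF_0 … rotF_3` in `B1/A`) -/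
theorem gPl_rotH (i j : HE) : rotE i * rotE j * gPl (rotH i) (rotH j) = gPl i j := by
  have h := gPl_rot (rotH i) (rotH j)
  rw [pl2_rotF, pl2_rotF] at h
  rw [← h]
  linear_combination (rotE j * rotE j * gPl i j) * pl2_rotE i + gPl i j * pl2_rotE j

/-- `gPl_ref` (`refF_0 … refF_3`) -/
theorem gPl_refH (i j : HE) : refE i * refE j * gPl (refH i) (refH j) = -gPl i j := by
  have h := gPl_ref (refH i) (refH j)
  rw [pl2_refF, pl2_refF] at h
  rw [← neg_neg (gPl (refH i) _), ← h]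
  linear_combination -(refE j * refE j * gPl i j) * pl2_refE i - gPl i j * pl2_refE j

theorem pl2_cv (p : Par) (R : ℕ) (Γ h : ℕ → ℝ) (m : ℕ) (y : ℕ → Edge) (O : ℕ → Cfg → ℝ) (oS : ℕ → Finset Site) (j : ℕ)
    (t : ℝ) (a b : HE) : (t • cv p (gPlane R Γ h ⊤ m y O oS) j) a b =
      t * (chi p (j + 1) (a.1 - b.1) - chi p j (a.1 - b.1)) * gPl a b := by
  simp only [cv, Pi.smul_apply, Pi.sub_apply, plane_gle, smul_eq_mul]
  ring

theorem pl2_univ (x : Gr Ix) : x ∈ supA (hS Set.univ) :=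
  supA_mono (S := Set.univ) (T := hS Set.univ) (fun _ _ _ _ => Set.mem_univ _) (mem_supA_univ x)

/-- `plane_gle`, `chi_props` (`rotS x - rotS y = rotS (x - y)`), `gPl_rotH`, `sV_mu` with `S = univ` (`hS univ = univ`) -/
theorem plane_mu_rot {p : Par} (hp : p.OK) (R : ℕ) (Γ h : ℕ → ℝ) (m : ℕ) (y y' : ℕ → Edge) (O O' : ℕ → Cfg → ℝ)
    (oS oS' : ℕ → Finset Site) (j : ℕ) (t : ℝ) (F : Al) :
    muE (extG (t • cv p (gPlane R Γ h ⊤ m y' O' oS') j)) (rotA F) =
      rotA (muE (extG (t • cv p (gPlane R Γ h ⊤ m y O oS) j)) F) := by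
  refine Subtype.ext ?_
  rw [coe_muE, rotA, coe_gmapE, coe_gmapE, coe_muE, rotV_eq]
  refine sV_mu isSrc_dzq (S := Set.univ) (fun a _ b _ => ?_) (pl2_univ _)
  have e : (rotH a).1 - (rotH b).1 = rotS (a.1 - b.1) := by
    simp only [rotH, rotS, Prod.mk_sub_mk, Prod.fst_sub, Prod.snd_sub]
    congr 1; ring
  rw [pl2_cv, pl2_cv, e, (chi_props hp _ _).2.2.2.2.1, (chi_props hp _ _).2.2.2.2.1, ← gPl_rotH a b]
  ring

theorem pl2_mv (p : Par) (R : ℕ) (Γ : ℕ → ℝ) (j : ℕ) (x : Site) (F : Al) : toEv ((gPl0 R Γ).mvG p j x) F = 0 := by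
  refine toEv_of_eq ?_
  change (∑ k ∈ Finset.range 0, _ : Gr Ix →ₗ[ℝ] Gr Ix) _ = _
  rw [Finset.sum_range_zero]
  rfl

/-- `step_rel` three times with `W = W' = univ`: `plane_mu_rot`, `refA_mu`, `sV_mu` + `gPl_shift`; `plane_loc2G` with
`loc2_rot`, `loc2_ref`, `loc2_shift` + `toEv_comm`; `mvG = 0` as `m = 0`; `lsym_rot.bφ`, `.iso` etc. -/
theorem next_symm' {p : Par} (hp : p.OK) (R : ℕ) (Γ : ℕ → ℝ) (j : ℕ) {s : St Site Al}
    (hs : s.Lcl geoZ ((gPl0 R Γ).Lc p j) (p.l j)) :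
    (s.Rel rotS rotA Set.univ s → (((gPl0 R Γ).sp p j).next geoZ augE s).Rel rotS rotA Set.univ
      (((gPl0 R Γ).sp p j).next geoZ augE s)) ∧
    (s.Rel refS refA Set.univ s → (((gPl0 R Γ).sp p j).next geoZ augE s).Rel refS refA Set.univ
      (((gPl0 R Γ).sp p j).next geoZ augE s)) ∧
    ∀ a, s.Rel (· + a) (gmapE (shiftV a)) Set.univ s → (((gPl0 R Γ).sp p j).next geoZ augE s).Rel (· + a)
      (gmapE (shiftV a)) Set.univ (((gPl0 R Γ).sp p j).next geoZ augE s) := by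
  refine ⟨fun hr => (step_rel hp (𝔤 := gPl0 R Γ) (𝔤' := gPl0 R Γ) j rotA (W := Set.univ) (W' := Set.univ) lsym_rot.bφ lsym_rot.iso (augE_gmapE _)
      (fun F => sV_cst _ _ isSrc_dzq F) (fun t _ F _ _ => plane_mu_rot hp R Γ _ _ _ _ _ _ _ _ j t F)
      (fun _ x F _ _ _ _ => ?_) (fun _ x F _ _ _ _ => by rw [pl2_mv, pl2_mv, map_zero])
      (fun _ _ => Set.subset_univ _) hs hr).1,
    fun hr => (step_rel hp (𝔤 := gPl0 R Γ) (𝔤' := gPl0 R Γ) j refA (W := Set.univ) (W' := Set.univ) lsym_ref.bφ lsym_ref.iso refA_aug refA_cst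
      (fun t _ F _ _ => refA_mu (fun a b => ?_) F)
      (fun _ x F _ _ _ _ => ?_) (fun _ x F _ _ _ _ => by rw [pl2_mv, pl2_mv, map_zero])
      (fun _ _ => Set.subset_univ _) hs hr).1,
    fun a hr => (step_rel hp (𝔤 := gPl0 R Γ) (𝔤' := gPl0 R Γ) j (φ := (· + a)) (gmapE (shiftV a)) (W := Set.univ) (W' := Set.univ) (lsym_shift a).bφ
      (lsym_shift a).iso (augE_gmapE _) (fun F => by rw [shiftV_eq]; exact sV_cst _ _ isSrc_dzq F)
      (fun t _ F _ _ => ?_) (fun _ x F _ _ _ _ => ?_) (fun _ x F _ _ _ _ => by rw [pl2_mv, pl2_mv, map_zero])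
      (fun _ _ => Set.subset_univ _) hs hr).1⟩
  · rw [gPl0, plane_loc2G, plane_loc2G]
    exact loc2_rot x F
  · have e : (refH a).1 - (refH b).1 = refS (a.1 - b.1) := by
      simp only [refH, refS, Prod.mk_sub_mk, Prod.fst_sub, Prod.snd_sub]
      congr 1; ring
    rw [gPl0, pl2_cv, pl2_cv, e, (chi_props hp _ _).2.2.2.2.2, (chi_props hp _ _).2.2.2.2.2]
    linear_combination (t * (chi p (j + 1) (a.1 - b.1) - chi p j (a.1 - b.1))) * gPl_refH a b
  · rw [gPl0, plane_loc2G, plane_loc2G]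
    exact loc2_ref x F
  · refine Subtype.ext ?_
    rw [coe_muE, coe_gmapE, coe_gmapE, coe_muE, shiftV_eq]
    refine sV_mu isSrc_dzq (S := Set.univ) (fun u _ v _ => ?_) (pl2_univ _)
    rw [gPl0, pl2_cv, pl2_cv, one_mul, one_mul]
    simp only [shH, add_sub_add_right_eq_sub, gPl_shift]
  · rw [gPl0, plane_loc2G, plane_loc2G]
    exact toEv_comm _ (loc2_shift a x F)

end Crest.Agent.R165.D4
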