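import Crest.Agent.R165.D4.L2

/-! # R165/D4 (owner helper23): explicit form of the extracted local potential -/

set_option autoImplicit false
noncomputable section
open Classical

namespace Crest.Agent.R165.D4

theorem loc2G_even (p : Par) (𝔤 : Geom) (j : ℕ) (x : Site) (F : Gr Ix) :
    𝔤.loc2G p j x F ∈ CliffordAlgebra.even (0 : QuadraticForm ℝ (GV Ix)) ∧
      𝔤.loc2G p j x F ∈ supA (Set.range Sum.inl) ∧ aug (𝔤.loc2G p j x F) = 0 := by
  unfold Geom.loc2G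
  split_ifs with hb
  · simp only [LinearMap.comp_apply, AlgHom.toLinearMap_apply]
    set G := gmap (gaugeV (sgn 𝔤.S x)) F
    refine ⟨?_, ?_, ?_⟩
    · have h1 : loc2 x G ∈ CliffordAlgebra.even (0 : QuadraticForm ℝ (GV Ix)) := by
        rw [← deg2_loc2]; exact deg2_even _
      exact gmap_mem_even _ ⟨_, h1⟩
    · refine gmap_mem (S := nb1 x) ?_ (loc2_mem x G)
      rintro _ ⟨a, rfl, -⟩ i hi
      rw [gaugeV, vmap_single, Sum.elim_inl, dl, Finsupp.smul_single] at hi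
      exact ⟨a, (Finset.mem_singleton.1 (Finsupp.support_single_subset hi)).symm⟩
    · rw [BA.aug_gmap, ← deg2_loc2, aug_deg2]
  · exact ⟨Subalgebra.zero_mem _, Subalgebra.zero_mem _, map_zero _⟩

theorem toEv_mvG (p : Par) (𝔤 : Geom) (j : ℕ) (x : Site) (F : Al) :
    toEv (𝔤.mvG p j x) F = ∑ k ∈ Finset.range 𝔤.m,
      if (j : ℕ∞) < 𝔤.jN ∧ supd x (𝔤.y k).1 ≤ 3 * p.l j then 𝔤.obsC k (F : Gr Ix) • (tau k * 𝔤.oK k) else 0 := by
  refine toEv_of_eq ?_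
  rw [Geom.mvG, LinearMap.sum_apply, AddSubmonoidClass.coe_finsetSum]
  refine Finset.sum_congr rfl fun k _ => ?_
  split_ifs
  · rfl
  · rfl

private theorem succ_cst_oK (𝔤 : Geom) (k : ℕ) : cstA (𝔤.oK k) = 0 := by
  rw [Geom.oK, map_smul]
  have : cstA (eM Sum.inl (𝔤.y k) : Al) = 0 := by
    apply Subtype.ext
    rw [cstA, coe_gmapE, eM, coe_th2, map_mul, gmap_th, vmap_single, Sum.elim_inl, map_zero, zero_mul]
    rfl
  rw [this, smul_zero]

/-- `gmap_congr` to `0` on `range inl`, `gmap_zero`; `cstA (oK k) = 0` -/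
theorem cst_kills (p : Par) (𝔤 : Geom) (j : ℕ) (x : Site) (F : Al) :
    cstA (toEv (𝔤.loc2G p j x) F) = 0 ∧ cstA (toEv (𝔤.mvG p j x) F) = 0 := by
  obtain ⟨h1, h2, h3⟩ := loc2G_even p 𝔤 j x F
  constructor
  · apply Subtype.ext
    rw [cstA, coe_gmapE, coe_toEv h1, gmap_congr (T' := 0) (S := Set.range Sum.inl) ?_ h2, gmap_zero, h3, map_zero]
    · rfl
    · rintro _ ⟨a, rfl⟩
      rw [vmap_single, Sum.elim_inl, LinearMap.zero_apply]
  · rw [toEv_mvG, map_sum]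
    refine Finset.sum_eq_zero fun k _ => ?_
    split_ifs
    · rw [map_smul, map_mul, succ_cst_oK, mul_zero, smul_zero]
    · exact map_zero _

/-- `toEv_mvG`, `obsC_cst`, `dTau_free`, `obsC_tau` (`InitOK.ener`, `0 < jN` since `j < jN`) -/
theorem mv_proj {p : Par} {R : ℕ} {𝔤 : Geom} {c : ℝ × ℝ} (h : InitOK p R c 𝔤) (j : ℕ) (x : Site) (F : Al) :
    toEv (𝔤.mvG p j x) (cstA F) = 0 ∧ toEv (𝔤.mvG p j x) (toEv (𝔤.loc2G p j x) F) = 0 ∧
      toEv (𝔤.mvG p j x) (toEv (𝔤.mvG p j x) F) = toEv (𝔤.mvG p j x) F := by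
  obtain ⟨h1, h2, -⟩ := loc2G_even p 𝔤 j x F
  refine ⟨?_, ?_, ?_⟩
  · rw [toEv_mvG]
    refine Finset.sum_eq_zero fun k _ => ?_
    rw [obsC_cst, zero_smul, ite_self]
  · rw [toEv_mvG]
    refine Finset.sum_eq_zero fun k _ => ?_
    rw [coe_toEv h1, Geom.obsC, LinearMap.smul_apply, LinearMap.comp_apply, LinearMap.comp_apply, dTau_free k h2,
      map_zero, map_zero, smul_zero, zero_smul, ite_self]
  · rw [toEv_mvG p 𝔤 j x (toEv _ F)]
    conv_rhs => rw [toEv_mvG]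
    refine Finset.sum_congr rfl fun k hk => ?_
    split_ifs with hc
    · congr 1
      have hw := (h.ener (lt_of_le_of_lt zero_le hc.1) k (Finset.mem_range.1 hk)).2.2
      rw [toEv_mvG, AddSubmonoidClass.coe_finsetSum, map_sum, Finset.sum_eq_single k]
      · rw [if_pos hc, Subalgebra.coe_smul, map_smul, obsC_tau 𝔤 hw, if_pos rfl, smul_eq_mul, mul_one]
      · intro k' _ hk'
        split_ifs
        · rw [Subalgebra.coe_smul, map_smul, obsC_tau 𝔤 hw, if_neg hk'.symm, smul_zero]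
        · exact map_zero _
      · exact fun h' => (h' hk).elim
    · rfl

/-- `sp_loc_mu`, `cstA_idem`, `cst_kills`, `mv_proj`, `geoZ_ball` -/
theorem st_q_succ' {p : Par} {R : ℕ} {𝔤 : Geom} {c : ℝ × ℝ} (h : InitOK p R c 𝔤) (μ : ℝ) (V : Finset Site → ℝ) (j : ℕ)
    (x : Site) :
    (𝔤.st p c μ V (j + 1)).q x = ∑ Y ∈ (box x (2 * p.l j)).powerset, (if geoZ.Small (p.l j) Y ∧ x ∈ Y then
      ((Y.card : ℝ)⁻¹) • toEv (𝔤.loc2G p j x) ((𝔤.st p c μ V j).K Y + sgl (𝔤.st p c μ V j).q Y) else 0) ∧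
    (𝔤.st p c μ V (j + 1)).qm x = ∑ Y ∈ (box x (2 * p.l j)).powerset, (if geoZ.Small (p.l j) Y ∧ x ∈ Y then
      ((Y.card : ℝ)⁻¹) • toEv (𝔤.mvG p j x) ((𝔤.st p c μ V j).K Y + sgl (𝔤.st p c μ V j).q Y) else 0) := by
  have hw : (𝔤.sp p j).w geoZ (𝔤.st p c μ V j) x = ∑ Y ∈ (box x (2 * p.l j)).powerset,
      (if geoZ.Small (p.l j) Y ∧ x ∈ Y then ((Y.card : ℝ)⁻¹) •
        (cstA ((𝔤.sp p j).mu ((𝔤.st p c μ V j).K Y + sgl (𝔤.st p c μ V j).q Y)) +
          toEv (𝔤.loc2G p j x) ((𝔤.st p c μ V j).K Y + sgl (𝔤.st p c μ V j).q Y) +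
          toEv (𝔤.mvG p j x) ((𝔤.st p c μ V j).K Y + sgl (𝔤.st p c μ V j).q Y)) else 0) := by
    rw [Sp.w, geoZ_ball]
    refine Finset.sum_congr rfl fun Y _ => ?_
    rw [Sp.Wx, sp_loc_mu]
    congr
  have hm : toEv (𝔤.mvG p j x) ((𝔤.sp p j).w geoZ (𝔤.st p c μ V j) x) = ∑ Y ∈ (box x (2 * p.l j)).powerset,
      (if geoZ.Small (p.l j) Y ∧ x ∈ Y then
        ((Y.card : ℝ)⁻¹) • toEv (𝔤.mvG p j x) ((𝔤.st p c μ V j).K Y + sgl (𝔤.st p c μ V j).q Y) else 0) := by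
    rw [hw, map_sum]
    refine Finset.sum_congr rfl fun Y _ => ?_
    split_ifs
    · rw [map_smul, map_add, map_add, (mv_proj h j x _).1, (mv_proj h j x _).2.1, (mv_proj h j x _).2.2, zero_add, zero_add]
    · exact map_zero _
  refine ⟨?_, hm⟩
  change (𝔤.sp p j).w geoZ (𝔤.st p c μ V j) x - cstA ((𝔤.sp p j).w geoZ (𝔤.st p c μ V j) x) -
    toEv (𝔤.mvG p j x) ((𝔤.sp p j).w geoZ (𝔤.st p c μ V j) x) = _
  rw [hm, hw, map_sum, ← Finset.sum_sub_distrib, ← Finset.sum_sub_distrib]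
  refine Finset.sum_congr rfl fun Y _ => ?_
  split_ifs
  · rw [map_smul, map_add cstA (_ + _), map_add cstA (cstA _), cstA_idem, (cst_kills p 𝔤 j x _).1, (cst_kills p 𝔤 j x _).2, ← smul_sub, ← smul_sub]
    congr 1
    abel
  · simp

end Crest.Agent.R165.D4
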