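import Crest.Agent.R165.D4.Pl1
import Crest.Agent.R165.D4.Pl2
import Crest.Agent.R165.D4.Succ
import Crest.Agent.R165.D4.Lcl

/-! # R165/D4 (owner helper23): rotation of the energy observable -/

set_option autoImplicit false
noncomputable section
open Classical

namespace Crest.Agent.R165.D4

/-- `sV_dTau` with `dzq_apply`; `sgn ∅ = 1`, `gaugeV_eq`, `sV_one`, `nu0_rot` -/
theorem en_obsC (R : ℕ) (Γ h : ℕ → ℝ) (c : ℝ × ℝ) (F : Al) :
    (gEn R Γ h c ((0, 0), 1)).obsC 0 ((rotA F : Al) : Gr Ix) = (gEn R Γ h c ((0, 0), 0)).obsC 0 (F : Gr Ix) := by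
  have e : ∀ (y : Site) (G : Gr Ix), gmap (gaugeV (sgn ∅ y)) G = G := fun y G => by
    have : (fun i : HE => sgn ∅ y i.1) = fun _ => 1 := by funext i; simp [sgn]
    rw [gaugeV_eq, this, sV_one]
  change (-1 / tc : ℝ) • nu0 (gmap (gaugeV (sgn ∅ (0, 0))) (dTau 0 ((gmapE rotV F : Al) : Gr Ix))) =
    (-1 / tc : ℝ) • nu0 (gmap (gaugeV (sgn ∅ (0, 0))) (dTau 0 (F : Gr Ix)))
  rw [e, e, coe_gmapE, rotV_eq, sV_dTau _ _ (dzq_apply 0), ← rotV_eq, nu0_rot]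

/-- `toEv_mvG`, `Finset.sum_range_one`, `en_obsC`, `sV_tau`, `rotA_eM`, `lsym_rot.iso` (`rotS 0 = 0`) -/
theorem en_mvG (p : Par) (R : ℕ) (Γ h : ℕ → ℝ) (c : ℝ × ℝ) (j : ℕ) (x : Site) (F : Al) :
    toEv ((gEn R Γ h c ((0, 0), 1)).mvG p j (rotS x)) (rotA F) = rotA (toEv ((gEn R Γ h c ((0, 0), 0)).mvG p j x) F) := by
  have e1 : supd (rotS x) (0, 0) = supd x (0, 0) := lsym_rot.iso x (0, 0)
  have e2 : rotA (tau 0) = tau 0 := by rw [rotA, rotV_eq, sV_tau]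
  rw [toEv_mvG, toEv_mvG]
  change ∑ k ∈ Finset.range 1, (if (j : ℕ∞) < ⊤ ∧ supd (rotS x) (0, 0) ≤ 3 * p.l j then _ else 0) =
    rotA (∑ k ∈ Finset.range 1, if (j : ℕ∞) < ⊤ ∧ supd x (0, 0) ≤ 3 * p.l j then _ else 0)
  rw [Finset.sum_range_one, Finset.sum_range_one, e1]
  split_ifs
  · rw [en_obsC, map_smul, map_mul, e2]
    congr 2
    change tc • eM Sum.inl _ = rotA (tc • eM Sum.inl _)
    rw [map_smul, rotA_eM]
    rfl
  · rw [map_zero]

/-- `enS ((0,0),1) = (enS ((0,0),0)).image rotS`, `gPl_rotH` at `he0`, `he1` -/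
theorem en_actO (R : ℕ) (Γ h : ℕ → ℝ) (c : ℝ × ℝ) (Y : Finset Site) (n : Cfg) :
    (gEn R Γ h c ((0, 0), 1)).actO (Y.image rotS) n = rotA ((gEn R Γ h c ((0, 0), 0)).actO Y (n ∘ rotEd)) := by
  have e1 : enS ((0, 0), 1) = (enS ((0, 0), 0)).image rotS := by decide
  have e2 : rotA (tau 0) = tau 0 := by rw [rotA, rotV_eq, sV_tau]
  have e3 : enO c ((0, 0), 1) n = enO c ((0, 0), 0) (n ∘ rotEd) := by
    have := gPl_rotH (he0 ((0, 0), 0)) (he1 ((0, 0), 0))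
    have a1 : rotE (he0 ((0, 0), 0)) = 1 := by simp [rotE, he0]
    have a2 : rotE (he1 ((0, 0), 0)) = 1 := by simp [rotE, he1]
    rw [a1, a2, one_mul, one_mul] at this
    unfold enO
    rw [← this]
    rfl
  change (∏ k ∈ (Finset.range 1).filter fun _ => enS ((0, 0), 1) = Y.image rotS, (1 + enO c ((0, 0), 1) n • tau k)) - 1 =
    rotA ((∏ k ∈ (Finset.range 1).filter fun _ => enS ((0, 0), 0) = Y, (1 + enO c ((0, 0), 0) (n ∘ rotEd) • tau k)) - 1)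
  simp only [e1, (Finset.image_injective lsym_rot.bφ.1).eq_iff, Finset.prod_filter, Finset.prod_range_one, e3]
  split_ifs
  · simp [e2]
  · simp

/-- induction: `plane_s0`, `step_rel` (`plane_mu_rot`, `plane_loc2G`, `loc2_rot`, `en_mvG`, `st_lcl'`) -/
theorem en_rel {p : Par} (hp : p.OK) {R : ℕ} {V : Finset Site → ℝ} (hV : PotOK R V) (Γ h : ℕ → ℝ) (c : ℝ × ℝ) (μ : ℝ)
    (j : ℕ) : ((gEn R Γ h c ((0, 0), 0)).st p c μ V j).Rel rotS rotA Set.univ ((gEn R Γ h c ((0, 0), 1)).st p c μ V j) := by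
  induction j with
  | zero =>
    exact plane_s0 lsym_rot rotA (Equiv.addRight 1) rotEd_edgeOf rotA_eM rotA_a0M hV.even (fun B => (V_rot hV B).1)
      p R Γ h 1 (en_actO R Γ h c) c μ
  | succ j ih =>
    refine (step_rel hp j rotA lsym_rot.bφ lsym_rot.iso (augE_gmapE _) (fun F => ?_)
      (fun t Z F _ _ => plane_mu_rot hp R Γ h 1 _ _ _ _ _ _ j t F) (fun Z x F _ _ _ _ => ?_)
      (fun Z x F _ _ _ _ => en_mvG p R Γ h c j x F) (fun _ _ => Set.subset_univ _) (st_lcl' hp _ c μ V j) ih).1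
    · rw [rotA, rotV_eq]
      exact sV_cst _ _ isSrc_dzq F
    · rw [plane_loc2G, plane_loc2G]
      exact loc2_rot x F

/-- `box_image`, `Finset.sum_image`, `en_rel`, `en_obsC` -/
theorem gEn_rot' {p : Par} (hp : p.OK) {R : ℕ} {V : Finset Site → ℝ} (hV : PotOK R V) (Γ h : ℕ → ℝ) (c : ℝ × ℝ) (μ : ℝ)
    (j : ℕ) : (gEn R Γ h c ((0, 0), 1)).cE p c μ V j 0 = (gEn R Γ h c ((0, 0), 0)).cE p c μ V j 0 := by
  unfold Geom.cE
  congr 1
  refine Finset.sum_congr rfl fun i _ => ?_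
  change ∑ x ∈ box (rotS (0, 0)) _, _ = ∑ x ∈ box (0, 0) _, _
  rw [box_image lsym_rot.bφ lsym_rot.iso, Finset.sum_image fun a _ b _ e => lsym_rot.bφ.1 e]
  refine Finset.sum_congr rfl fun x _ => ?_
  rw [(en_rel hp hV Γ h c μ i).qm x trivial, en_obsC]

end Crest.Agent.R165.D4
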