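import Crest.Agent.R165.D4.Z
import Crest.Agent.R165.D4.Bd
import Crest.Agent.R165.D4.Loc
import Crest.Agent.R165.D4.Pl3

/-! # R165 block D4: initial state, symmetries, locality of the flow
(statements FROZEN, auxiliaries in namespace `R165.D4`). route.md §D4. -/

set_option autoImplicit false
set_option linter.unusedVariables false
noncomputable section
open Classical

namespace Crest.Agent.R165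

theorem s0_lcl {p : Par} (hp : p.OK) {R : ℕ} (hR : 10 * R + 20 ≤ p.l0) {c : ℝ × ℝ} {𝔤 : Geom} (h : InitOK p R c 𝔤)
    (μ : ℝ) (V : Finset Site → ℝ) : (𝔤.s0 p c μ V).Lcl geoZ (𝔤.Lc p 0) p.l0 :=
  D4.s0_lcl' p 𝔤 c μ V

theorem st_lcl {p : Par} (hp : p.OK) {R : ℕ} (hR : 10 * R + 20 ≤ p.l0) {c : ℝ × ℝ} {𝔤 : Geom} (h : InitOK p R c 𝔤)
    (μ : ℝ) (V : Finset Site → ℝ) (j : ℕ) : (𝔤.st p c μ V j).Lcl geoZ (𝔤.Lc p j) (p.l j) :=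
  D4.st_lcl' hp 𝔤 c μ V j

/-- size of the initial state -/
theorem s0_bound {R : ℕ} {k : Cons} (hk : ConsOK R k) {V : Finset Site → ℝ} (hV : PotOK R V) :
    ∃ C₀ ε₀ : ℝ, 1 ≤ C₀ ∧ 0 < ε₀ ∧ ∀ (𝔤 : Geom) (c : ℝ × ℝ) (μ ε₁ : ℝ), InitOK k.p R c 𝔤 → 𝔤.Gam 0 = k.Γ₀ →
      |c.1| ≤ ε₀ → |c.2| ≤ ε₀ → |μ| ≤ ε₀ → 0 ≤ ε₁ → ε₁ ≤ ε₀ → (𝔤.m = 0 ∨ 0 < 𝔤.h 0) →
      (𝔤.m = 0 ∨ (𝔤.jN = 0 ∧ Src0 k 𝔤 ε₁) ∨ (0 < 𝔤.jN ∧ 𝔤.h 0 * k.Γ₀ ^ 2 ≤ ε₁ ∧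
        ∀ i < 𝔤.m, ∀ i' < 𝔤.m, i ≠ i' → 4 * k.p.l0 ≤ supd (𝔤.y i).1 (𝔤.y i').1)) →
      geoZ.PN (𝔤.Bd k.p 0) k.p.l0 k.a (𝔤.s0 k.p c μ V).K (C₀ * |μ|) ∧
      geoZ.PN (𝔤.Bd k.p 0) k.p.l0 k.a (𝔤.s0 k.p c μ V).M (C₀ * ε₁) ∧
      geoZ.SN (𝔤.Bd k.p 0) k.p.l0 (𝔤.s0 k.p c μ V).q (C₀ * (|c.1| + |c.2|)) :=
  D4.s0_bound' hk hV

theorem s0_q_bulk {c : ℝ × ℝ} (hc : -1 < c.2) {𝔤 : Geom} (p : Par) (μ : ℝ) (V : Finset Site → ℝ) {x : Site}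
    (hx : x ∈ 𝔤.Λ) (h : ∀ α, x + dv α ∈ 𝔤.Λ ∧ |𝔤.w (edgeOf x α)| = tc) :
    (𝔤.s0 p c μ V).q x = c.1 • mX 𝔤.w x + c.2 • kX 𝔤.w x :=
  D4.s0_q_bulk' hc p μ V hx h

/-- in finite volume the initial state is the Boltzmann factor of `rep_general` -/
theorem s0_Z {p : Par} (hp : p.OK) {R : ℕ} (hR : 10 * R + 20 ≤ p.l0) {c : ℝ × ℝ} (hc : -1 < c.2) {𝔤 : Geom}
    (h : InitOK p R c 𝔤) (μ : ℝ) (V : Finset Site → ℝ) {g : HE → HE → ℝ} {Λ₀ Λf : Finset Site}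
    {𝒮 : Finset (Finset Site)} {E₁ : Finset Edge} (hf : FinOK 𝔤 g Λ₀ Λf 𝒮 E₁) :
    (𝔤.s0 p c μ V).In Λf ∧ 𝔤.Ztau c μ V 𝒮 E₁ = (Real.sqrt (1 + c.2) ^ (-(4 * Λ₀.card : ℤ)) * Zc E₁ 𝔤.w) •
      cstA (muE (extG g) ((𝔤.s0 p c μ V).Z geoZ augE p.l0 Λf)) :=
  ⟨D4.s0_in hR h μ V hf.vol hf.big, D4.s0_Z' hR hc h μ V hf⟩

/-- **locality of the flow** -/
theorem flow_local {p : Par} (hp : p.OK) {R : ℕ} (hR : 10 * R + 20 ≤ p.l0) {V : Finset Site → ℝ} (hV : PotOK R V)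
    {c : ℝ × ℝ} (μ : ℝ) {𝔤 𝔤' : Geom} (h : InitOK p R c 𝔤) (h' : InitOK p R c 𝔤') {a : Site} {σ : Site → ℝ}
    {ρ : ℕ → Option ℕ} (x₀ : Site) (r j : ℕ) (hA : Agree p 𝔤 𝔤' a σ ρ (box x₀ (r + p.l j / 20 + 5)) j) :
    (𝔤.st p c μ V j).Rel (· + a) (trA a σ ρ) ↑(box x₀ r) (𝔤'.st p c μ V j) ∧
      ∀ i < j, ∀ x ∈ box x₀ r, 𝔤'.en p c μ V i (x + a) = trA a σ ρ (𝔤.en p c μ V i x) :=
  D4.flow_local' hp hV μ h' x₀ r j hA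

/-- explicit form of what is extracted -/
theorem st_q_succ {p : Par} (hp : p.OK) {R : ℕ} {𝔤 : Geom} {c : ℝ × ℝ} (h : InitOK p R c 𝔤) (μ : ℝ) (V : Finset Site → ℝ) (j : ℕ) (x : Site) :
    (𝔤.st p c μ V (j + 1)).q x = ∑ Y ∈ (box x (2 * p.l j)).powerset, (if geoZ.Small (p.l j) Y ∧ x ∈ Y then
      ((Y.card : ℝ)⁻¹) • toEv (𝔤.loc2G p j x) ((𝔤.st p c μ V j).K Y + sgl (𝔤.st p c μ V j).q Y) else 0) ∧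
    (𝔤.st p c μ V (j + 1)).qm x = ∑ Y ∈ (box x (2 * p.l j)).powerset, (if geoZ.Small (p.l j) Y ∧ x ∈ Y then
      ((Y.card : ℝ)⁻¹) • toEv (𝔤.mvG p j x) ((𝔤.st p c μ V j).K Y + sgl (𝔤.st p c μ V j).q Y) else 0) :=
  D4.st_q_succ' h μ V j x

/-- symmetries of the plane data: initial state and steps -/
theorem s0_symm {p : Par} (hp : p.OK) {R : ℕ} {V : Finset Site → ℝ} (hV : PotOK R V) (Γ : ℕ → ℝ) (c : ℝ × ℝ) (μ : ℝ) :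
    ((gPl0 R Γ).s0 p c μ V).Rel rotS rotA Set.univ ((gPl0 R Γ).s0 p c μ V) ∧
    ((gPl0 R Γ).s0 p c μ V).Rel refS refA Set.univ ((gPl0 R Γ).s0 p c μ V) ∧
    ∀ a, ((gPl0 R Γ).s0 p c μ V).Rel (· + a) (gmapE (shiftV a)) Set.univ ((gPl0 R Γ).s0 p c μ V) :=
  D4.s0_symm' p hV Γ c μ

theorem next_symm {p : Par} (hp : p.OK) (R : ℕ) (Γ : ℕ → ℝ) (j : ℕ) {s : St Site Al}
    (hs : s.Lcl geoZ ((gPl0 R Γ).Lc p j) (p.l j)) :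
    (s.Rel rotS rotA Set.univ s → (((gPl0 R Γ).sp p j).next geoZ augE s).Rel rotS rotA Set.univ
      (((gPl0 R Γ).sp p j).next geoZ augE s)) ∧
    (s.Rel refS refA Set.univ s → (((gPl0 R Γ).sp p j).next geoZ augE s).Rel refS refA Set.univ
      (((gPl0 R Γ).sp p j).next geoZ augE s)) ∧
    ∀ a, s.Rel (· + a) (gmapE (shiftV a)) Set.univ s → (((gPl0 R Γ).sp p j).next geoZ augE s).Rel (· + a)
      (gmapE (shiftV a)) Set.univ (((gPl0 R Γ).sp p j).next geoZ augE s) :=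
  D4.next_symm' hp R Γ j hs

/-- the horizontal and the vertical energy observables have the same flow (rotation) -/
theorem gEn_rot {p : Par} (hp : p.OK) {R : ℕ} (hR : 10 * R + 20 ≤ p.l0) {V : Finset Site → ℝ} (hV : PotOK R V)
    (Γ h : ℕ → ℝ) (c : ℝ × ℝ) (μ : ℝ) (j : ℕ) :
    (gEn R Γ h c ((0, 0), 1)).cE p c μ V j 0 = (gEn R Γ h c ((0, 0), 0)).cE p c μ V j 0 :=
  D4.gEn_rot' hp hV Γ h c μ j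

theorem s0_pcts {P : Type} [TopologicalSpace P] (p : Par) (𝔤 : Geom) (V : Finset Site → ℝ) {c : P → ℝ × ℝ} {μ : P → ℝ}
    (hc : Continuous c) (hc' : ∀ t, -1 < (c t).2) (hμ : Continuous μ) : St.PCts fun t => 𝔤.s0 p (c t) (μ t) V :=
  D4.s0_pcts' p 𝔤 V hc hc' hμ

end Crest.Agent.R165
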