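import Crest.Agent.R165.D4.Sym
import Crest.Agent.R165.D4.Rev

/-! # R165/D4 (owner helper23): symmetries of the initial state of the plane geometries -/

set_option autoImplicit false
noncomputable section
open Classical

namespace Crest.Agent.R165.D4

/-- `rotV_eq`, `sV_th2`, `th2_swap`; two cases `e.2 = 0, 1` -/
theorem rotA_eM (e : Edge) : rotA (eM Sum.inl e) = eM Sum.inl (rotEd e) := by
  obtain ⟨⟨x, y⟩, j⟩ := e
  rw [rotA, rotV_eq, eM, sV_th2]
  fin_cases j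
  · simp [eM, rotEd, he0, he1, rotE, rotH, rotS, uv]
  · rw [th2_swap]
    simp [eM, rotEd, he0, he1, rotE, rotH, rotS, uv]
    congr 3
    ext <;> simp [add_comm, sub_eq_add_neg]

theorem refA_eM (e : Edge) : refA (eM Sum.inl e) = eM Sum.inl (refEd e) := by
  obtain ⟨⟨x, y⟩, j⟩ := e
  rw [eM, refA_th2]
  fin_cases j
  · rw [th2_swap]
    simp [eM, refEd, he0, he1, refE, refH, refS, uv]
    rfl
  · simp [eM, refEd, he0, he1, refE, refH, refS, uv]
    congr 3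
    ext <;> simp [add_comm, sub_eq_add_neg]

theorem shift_eM (a : Site) (e : Edge) : gmapE (shiftV a) (eM Sum.inl e) = eM Sum.inl (trE a e) := by
  rw [shiftV_eq, eM, sV_th2]
  simp [eM, trE, shH, he0, he1, add_right_comm]

/-- `Fin.sum_univ_four`, `th2_swap` -/
theorem rotA_a0M (x : Site) : rotA (a0M Sum.inl x) = a0M Sum.inl (rotS x) := by
  simp only [a0M, map_sum, apply_ite rotA, map_zero]
  simp only [rotA, rotV_eq, sV_th2, Fin.sum_univ_four]
  simp [rotE, rotH]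
  rw [th2_swap (Sum.inl (rotS x, 0) : Ix) (Sum.inl (rotS x, 1)), th2_swap (Sum.inl (rotS x, 0) : Ix) (Sum.inl (rotS x, 2)),
    th2_swap (Sum.inl (rotS x, 0) : Ix) (Sum.inl (rotS x, 3))]
  abel

theorem refA_a0M (x : Site) : refA (a0M Sum.inl x) = a0M Sum.inl (refS x) := by
  simp only [a0M, map_sum, apply_ite refA, map_zero]
  simp only [refA_th2, Fin.sum_univ_four]
  have h1 : -(1 : Fin 4) = 3 := rfl
  have h2 : -(2 : Fin 4) = 2 := rfl
  have h3 : -(3 : Fin 4) = 1 := rfl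
  simp [refE, refH, h1, h2, h3]
  rw [th2_swap (Sum.inl (refS x, 0) : Ix) (Sum.inl (refS x, 1)), th2_swap (Sum.inl (refS x, 0) : Ix) (Sum.inl (refS x, 2)),
    th2_swap (Sum.inl (refS x, 0) : Ix) (Sum.inl (refS x, 3))]
  abel

theorem shift_a0M (a x : Site) : gmapE (shiftV a) (a0M Sum.inl x) = a0M Sum.inl (x + a) := by
  simp only [a0M, map_sum, apply_ite (gmapE (shiftV a)), map_zero]
  simp only [shiftV_eq, sV_th2, mul_one, one_smul, shH]

/-- `LSym.s0_rel`, `LSym.actV`, `LSym.isShape`; all coefficients of `q` and `xE` are constants since `w = wPl`, `Λ = univ`;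
reindex the sum over `α` by `π` (`Equiv.sum_comp`) -/
theorem plane_s0 {φ : Site → Site} {ψ : Edge → Edge} {β : Site → Site} (hL : LSym φ ψ β) (Φ : Al →ₐ[ℝ] Al)
    (π : Fin 4 ≃ Fin 4) (hπ : ∀ x α, ψ (edgeOf x α) = edgeOf (φ x) (π α))
    (he : ∀ e, Φ (eM Sum.inl e) = eM Sum.inl (ψ e)) (ha : ∀ x, Φ (a0M Sum.inl x) = a0M Sum.inl (φ x))
    {V : Finset Site → ℝ} (hV : ∀ B, V B ≠ 0 → Even B.card) (hV' : ∀ B : Finset Site, V (B.image β) = V B)
    (p : Par) (R : ℕ) (Γ h : ℕ → ℝ) (m : ℕ) {y y' : ℕ → Edge} {O O' : ℕ → Cfg → ℝ} {oS oS' : ℕ → Finset Site}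
    (hO : ∀ (Y : Finset Site) n, (gPlane R Γ h ⊤ m y' O' oS').actO (Y.image φ) n =
      Φ ((gPlane R Γ h ⊤ m y O oS).actO Y (n ∘ ψ))) (c : ℝ × ℝ) (μ : ℝ) :
    ((gPlane R Γ h ⊤ m y O oS).s0 p c μ V).Rel φ Φ Set.univ ((gPlane R Γ h ⊤ m y' O' oS').s0 p c μ V) := by
  refine hL.s0_rel Φ p c μ V Set.univ (fun x _ => ?_) (fun e _ _ => ?_) (fun Y _ n => hO Y n) fun Y _ n => ?_
  · simp only [Geom.s0, pLoc, gPlane, Geom.wT, wPl, Set.mem_univ, if_true, map_add, map_smul, map_sum, he, ha, hπ]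
    congr 1
    exact (Equiv.sum_comp π _).symm
  · simp only [Geom.xE, gPlane, Geom.wT, wPl, map_smul, he]
  · refine hL.actV Φ hV hV' μ (fun B _ => ?_) n
    exact hL.isShape R B

/-- `plane_s0` three times (`π = Equiv.addRight 1, Equiv.neg _, Equiv.refl _`); `actO = 0` as `m = 0` -/
theorem s0_symm' (p : Par) {R : ℕ} {V : Finset Site → ℝ} (hV : PotOK R V) (Γ : ℕ → ℝ) (c : ℝ × ℝ) (μ : ℝ) :
    ((gPl0 R Γ).s0 p c μ V).Rel rotS rotA Set.univ ((gPl0 R Γ).s0 p c μ V) ∧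
    ((gPl0 R Γ).s0 p c μ V).Rel refS refA Set.univ ((gPl0 R Γ).s0 p c μ V) ∧
    ∀ a, ((gPl0 R Γ).s0 p c μ V).Rel (· + a) (gmapE (shiftV a)) Set.univ ((gPl0 R Γ).s0 p c μ V) := by
  refine ⟨?_, ?_, fun a => ?_⟩
  · exact plane_s0 lsym_rot rotA (Equiv.addRight 1) rotEd_edgeOf rotA_eM rotA_a0M hV.even (fun B => (V_rot hV B).1)
      p R Γ _ 0 (fun Y n => by simp [Geom.actO, gPlane]) c μ
  · exact plane_s0 lsym_ref refA (Equiv.neg _) refEd_edgeOf refA_eM refA_a0M hV.even (fun B => (V_rot hV B).2)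
      p R Γ _ 0 (fun Y n => by simp [Geom.actO, gPlane]) c μ
  · exact plane_s0 (lsym_shift a) (gmapE (shiftV a)) (Equiv.refl _) (shE_edgeOf a) (shift_eM a) (shift_a0M a) hV.even
      (fun B => by convert hV.trans B a) p R Γ _ 0 (fun Y n => by simp [Geom.actO, gPlane]) c μ

end Crest.Agent.R165.D4
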