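import Crest.Agent.R165.D4.Succ
import Crest.Agent.R165.D4.Sym

/-! # R165/D4 (owner helper23): the transport `trA` intertwines the data of two agreeing geometries -/

set_option autoImplicit false
noncomputable section
open Classical

namespace Crest.Agent.R165.D4

variable {p : Par} {𝔤 𝔤' : Geom} {a : Site} {σ : Site → ℝ} {ρ : ℕ → Option ℕ} {W : Finset Site}

/-! ### leaf `Tr-a`: covariance and `loc2G` -/

private theorem tra_box {x y : Site} {R : ℕ} (h : supd x y ≤ R) : y ∈ box x R := by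
  simp only [box, supd, Finset.mem_product, Finset.mem_Icc] at h ⊢
  omega

/-- `trV_eq`, `sV_mu`, `mem_Lc`, `Agree.cov` at `j` and `j + 1`, `IsSign.mul_self` -/
theorem tr_mu {j : ℕ} (hA : Agree p 𝔤 𝔤' a σ ρ W (j + 1)) (t : ℝ) {Z : Finset Site}
    (hZ : ∀ x ∈ Z, box x (p.rho j) ⊆ W) {F : Al} (hF : F ∈ 𝔤.Lc p j Z) :
    muE (extG (t • (𝔤'.gle p (j + 1) - 𝔤'.gle p j))) (trA a σ ρ F) =
      trA a σ ρ (muE (extG (t • (𝔤.gle p (j + 1) - 𝔤.gle p j))) F) := by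
  refine Subtype.ext ?_
  show mu _ (gmap (trV a σ ρ) (F : Gr Ix)) = gmap (trV a σ ρ) (mu _ (F : Gr Ix))
  rw [trV_eq]
  refine sV_mu (isSrc_rhoB ρ) ?_ (mem_Lc hF)
  rintro u ⟨x, hx, hu⟩ v ⟨y, hy, hv⟩
  have hu' := hZ x hx (tra_box hu)
  have hv' := hZ y hy (tra_box hv)
  simp only [Pi.smul_apply, Pi.sub_apply, smul_eq_mul, shH]
  rw [hA.cov (j + 1) le_rfl u v hu' hv', hA.cov j (Nat.le_succ j) u v hu' hv']
  linear_combination (t * (𝔤.gle p (j + 1) u v - 𝔤.gle p j u v) * (σ v.1 * σ v.1)) * hA.sign.mul_self u.1 +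
    (t * (𝔤.gle p (j + 1) u v - 𝔤.gle p j u v)) * hA.sign.mul_self v.1

/-- `toEv_comm`; `Agree.bulk`; in the bulk write (`sV_comp`, `sV_comp'`, `sV_congr`, `Agree.gauge`)
`gauge' ∘ tr = shift ∘ sV (σ x) id (rhoB ρ) ∘ gauge` on the support of `F`, then `loc2_shift`, `loc2_sgn`,
and on the output (`loc2_mem`: support in `nb1 x`, `gmap_congr`) `sgn_loc2` -/
theorem tr_loc2G {j : ℕ} (hA : Agree p 𝔤 𝔤' a σ ρ W (j + 1)) {x : Site} (hl : 1 ≤ p.l j) (hx : box x (10 * p.l j) ⊆ W)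
    {F : Al} (hF : (F : Gr Ix) ∈ supA (hS {i | supd x i.1 ≤ 10 * p.l j})) :
    toEv (𝔤'.loc2G p j (x + a)) (trA a σ ρ F) = trA a σ ρ (toEv (𝔤.loc2G p j x) F) := by
  have hxW : x ∈ W := hx (tra_box (by simp [supd]))
  have hb := hA.bulk j (Nat.lt_succ_self j) x hxW
  refine toEv_comm (trV a σ ρ) ?_
  unfold Geom.loc2G
  by_cases h : 𝔤.Bulk p j x
  · rw [if_pos h, if_pos (hb.2 h)]
    have hs := hA.sign.mul_self x
    have hg : ∀ i ∈ {i : HE | supd x i.1 ≤ 10 * p.l j},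
        sgn 𝔤'.S (x + a) (i.1 + a) = σ x * σ i.1 * sgn 𝔤.S x i.1 := fun i hi =>
      hA.gauge j (Nat.lt_succ_self j) x hxW (Or.inl h) i.1 (hx (tra_box hi)) hi
    have h1 : gmap (gaugeV (sgn 𝔤'.S (x + a))) (gmap (trV a σ ρ) (F : Gr Ix)) =
        gmap (shiftV a) (gmap (sV (fun _ => σ x) id (rhoB ρ)) (gmap (gaugeV (sgn 𝔤.S x)) (F : Gr Ix))) := by
      rw [gaugeV_eq, gaugeV_eq, trV_eq, shiftV_eq, sV_comp _ _ _ _ (isSrc_rhoB ρ), sV_comp',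
        sV_comp _ _ _ _ (isSrc_rhoB ρ)]
      refine sV_congr (shH a) (rhoB ρ) (fun i hi => ?_) hF
      simp only [shH]
      rw [hg i hi]
      linear_combination (σ x * sgn 𝔤.S x i.1) * hA.sign.mul_self i.1
    have hm : ∀ G : Gr Ix, loc2 x G ∈ supA (hS {i | supd x i.1 ≤ 10 * p.l j}) := fun G => by
      refine supA_mono ?_ (loc2_mem x G)
      rintro _ ⟨b, rfl, hb⟩ c hc
      obtain rfl := Sum.inl.inj hc
      simp only [supd, Set.mem_ofPred_eq] at hb ⊢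
      omega
    show gmap (gaugeV (sgn 𝔤'.S (x + a))) (loc2 (x + a) (gmap (gaugeV (sgn 𝔤'.S (x + a))) (gmap (trV a σ ρ) (F : Gr Ix)))) =
      gmap (trV a σ ρ) (gmap (gaugeV (sgn 𝔤.S x)) (loc2 x (gmap (gaugeV (sgn 𝔤.S x)) (F : Gr Ix))))
    rw [h1, loc2_shift, loc2_sgn x hs (isSrc_rhoB ρ)]
    generalize gmap (gaugeV (sgn 𝔤.S x)) (F : Gr Ix) = G
    rw [gaugeV_eq, gaugeV_eq, trV_eq, shiftV_eq, sV_comp _ _ _ _ isSrc_dzq, sV_comp']
    refine Eq.trans ?_ (sgn_loc2 x hs (fun i => sgn 𝔤.S x (i.1) * σ i.1) (shH a) dzq (rhoB ρ) G)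
    refine sV_congr (shH a) dzq (fun i hi => ?_) (hm G)
    simp only [shH]
    rw [hg i hi]
    ring
  · rw [if_neg h, if_neg (fun h' => h (hb.1 h'))]
    simp

/-! ### leaf `Tr-b`: `mvG` -/

theorem tr_eM (a : Site) (σ : Site → ℝ) (ρ : ℕ → Option ℕ) (e : Edge) :
    trA a σ ρ (eM Sum.inl e) = (σ e.1 * σ (e.1 + uv e.2)) • eM Sum.inl (trE a e) := by
  rw [trA, trV_eq, eM, sV_th2, eM]
  have h0 : shH a (he0 e) = he0 (trE a e) := rfl
  have h1 : shH a (he1 e) = he1 (trE a e) := by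
    simp only [shH, he1, trE, add_right_comm]
  rw [h0, h1]
  rfl

/-- `sV_dTau` with `rhoB_apply`, `dTau_mem`, `sV_comp`, `sV_congr` (`Agree.gauge` at the base point `(y k).1`), `sV_comp'`, `nu0_sV` -/
theorem tr_obsC {j : ℕ} (hA : Agree p 𝔤 𝔤' a σ ρ W (j + 1)) {k k' : ℕ} (hk : ρ k = some k') (hj : (j : ℕ∞) < 𝔤.jN)
    (hW : box (𝔤.y k).1 (10 * p.l j) ⊆ W) {F : Al} (hF : (F : Gr Ix) ∈ supA (hS {i | supd (𝔤.y k).1 i.1 ≤ 10 * p.l j})) :
    𝔤'.obsC k' ((trA a σ ρ F : Al) : Gr Ix) = 𝔤.obsC k (F : Gr Ix) := by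
  have hy : 𝔤'.y k' = trE a (𝔤.y k) := (hA.obs k k' hk).2.2.1
  have hG := dTau_mem k hF
  simp only [Geom.obsC, LinearMap.smul_apply, LinearMap.comp_apply, AlgHom.toLinearMap_apply]
  congr 1
  rw [trA, coe_gmapE, trV_eq, sV_dTau _ _ (rhoB_apply hA.inj hk), gaugeV_eq, gaugeV_eq,
    sV_comp _ _ _ _ (isSrc_rhoB ρ),
    ← nu0_sV (hA.sign.mul_self (𝔤.y k).1) (· + a) (isSrc_rhoB ρ) (gmap (sV _ id dzq) _), sV_comp']
  congr 1
  refine sV_congr _ _ (fun i hi => ?_) hG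
  have h1 : i.1 ∈ W := hW (mem_box.2 (by rw [supd_comm]; exact hi))
  have h2 := hA.gauge j (Nat.lt_succ_self j) _ (hW (self_mem_box _ _)) (Or.inr ⟨k, k', hk, rfl, hj⟩) i.1 h1 hi
  have h3 := hA.sign.mul_self i.1
  rw [hy]
  change σ i.1 * sgn 𝔤'.S ((𝔤.y k).1 + a) (i.1 + a) = _
  rw [h2]
  linear_combination (σ (𝔤.y k).1 * sgn 𝔤.S (𝔤.y k).1 i.1) * h3

theorem trb_oK {j : ℕ} (hA : Agree p 𝔤 𝔤' a σ ρ W j) {k k' : ℕ} (hk : ρ k = some k') (h0 : (𝔤.y k).1 ∈ W)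
    (h1 : (𝔤.y k).1 + uv (𝔤.y k).2 ∈ W) : trA a σ ρ (𝔤.oK k) = 𝔤'.oK k' := by
  rw [Geom.oK, Geom.oK, map_smul, tr_eM, (hA.obs k k' hk).2.2.1, hA.w _ h0 h1, smul_smul, mul_comm]

theorem trb_tau (a : Site) (σ : Site → ℝ) (ρ : ℕ → Option ℕ) (k : ℕ) : trA a σ ρ (tau k) = (ρ k).elim 0 tau := by
  rw [trA, trV_eq, sV_tau_rho]

/-- `toEv_mvG` on both sides; `trA (tau k * oK k) = (ρ k).elim 0 fun k' => tau k' * oK' k'` (`sV_tau_rho`, `tr_eM`, `Agree.w`);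
the terms with `ρ k = none` vanish, the others are matched by `k ↦ k'` (`Agree.inj/obs/obs'`, `Finset.sum_bij_ne_zero` or `sum_bij`
on filtered sums) -/
theorem tr_mvG {j : ℕ} (hA : Agree p 𝔤 𝔤' a σ ρ W (j + 1)) {x : Site} (hl : 1 ≤ p.l j) (hx : box x (13 * p.l j) ⊆ W)
    {F : Al} (hF : (F : Gr Ix) ∈ supA (hS {i | supd x i.1 ≤ 7 * p.l j})) :
    toEv (𝔤'.mvG p j (x + a)) (trA a σ ρ F) = trA a σ ρ (toEv (𝔤.mvG p j x) F) := by
  rw [toEv_mvG, toEv_mvG, map_sum]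
  -- the matched terms
  have key : ∀ k k', ρ k = some k' →
      (if (j : ℕ∞) < 𝔤'.jN ∧ supd (x + a) (𝔤'.y k').1 ≤ 3 * p.l j then
        𝔤'.obsC k' ((trA a σ ρ F : Al) : Gr Ix) • (tau k' * 𝔤'.oK k') else 0) =
      trA a σ ρ (if (j : ℕ∞) < 𝔤.jN ∧ supd x (𝔤.y k).1 ≤ 3 * p.l j then
        𝔤.obsC k (F : Gr Ix) • (tau k * 𝔤.oK k) else 0) := by
    intro k k' hk
    obtain ⟨-, -, hy, -, -, hN⟩ := hA.obs k k' hk
    have e1 : supd (x + a) (𝔤'.y k').1 = supd x (𝔤.y k).1 := by rw [hy]; exact supd_add _ _ _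
    rw [e1]
    simp only [hN j (Nat.lt_succ_self j)]
    split_ifs with h
    · have hb : ∀ z, supd z (𝔤.y k).1 ≤ 10 * p.l j → z ∈ W := fun z hz => hx (mem_box.2 (by
        have := supd_triangle z (𝔤.y k).1 x
        rw [supd_comm (𝔤.y k).1 x] at this
        have := h.2
        omega))
      have hu : supd ((𝔤.y k).1 + uv (𝔤.y k).2) (𝔤.y k).1 ≤ 1 := by
        generalize (𝔤.y k).2 = d
        fin_cases d <;> simp [uv, supd]
      rw [map_smul, map_mul, trb_tau, hk, trb_oK hA hk (hb _ (by rw [supd_self]; omega)) (hb _ (by omega)),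
        tr_obsC hA hk h.1 (fun z hz => hb z (mem_box.1 hz)) (supA_mono (fun i hi b hb' => ?_) hF)]
      · rfl
      · have h1 : supd x b.1 ≤ 7 * p.l j := hi b hb'
        have := supd_triangle (𝔤.y k).1 x b.1
        rw [supd_comm (𝔤.y k).1 x] at this
        have := h.2
        change supd (𝔤.y k).1 b.1 ≤ 10 * p.l j
        omega
    · rw [map_zero]
  have hn : ∀ k, ρ k = none → trA a σ ρ (if (j : ℕ∞) < 𝔤.jN ∧ supd x (𝔤.y k).1 ≤ 3 * p.l j then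
      𝔤.obsC k (F : Gr Ix) • (tau k * 𝔤.oK k) else 0) = 0 := by
    intro k hk
    split_ifs
    · rw [map_smul, map_mul, trb_tau, hk]; simp
    · rw [map_zero]
  symm
  refine Finset.sum_bij_ne_zero (fun k _ _ => (ρ k).getD 0) (fun k _ h => ?_) (fun k₁ _ h₁ k₂ _ h₂ e => ?_)
    (fun k' hk' h => ?_) (fun k _ h => ?_)
  · obtain ⟨k', hk⟩ := Option.ne_none_iff_exists'.1 fun hk => h (hn k hk)
    rw [hk]; exact Finset.mem_range.2 (hA.obs k k' hk).2.1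
  · obtain ⟨k₁', hk₁⟩ := Option.ne_none_iff_exists'.1 fun hk => h₁ (hn k₁ hk)
    obtain ⟨k₂', hk₂⟩ := Option.ne_none_iff_exists'.1 fun hk => h₂ (hn k₂ hk)
    simp only [hk₁, hk₂, Option.getD_some] at e
    exact hA.inj _ _ _ hk₁ (e ▸ hk₂)
  · have hc : supd (x + a) (𝔤'.y k').1 ≤ 3 * p.l j := by
      by_contra hc
      exact h (if_neg fun h' => hc h'.2)
    obtain ⟨k, hk⟩ := hA.obs' k' (Finset.mem_range.1 hk') (hx (mem_box.2 (by
      rw [← supd_add _ _ a, sub_add_cancel, supd_comm]; omega)))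
    exact ⟨k, Finset.mem_range.2 (hA.obs k k' hk).1, by rw [← key k k' hk]; exact h, by simp [hk]⟩
  · obtain ⟨k', hk⟩ := Option.ne_none_iff_exists'.1 fun hk => h (hn k hk)
    simp only [hk, Option.getD_some]
    exact (key k k' hk).symm

/-! ### leaf `Tr-c`: the initial state -/

theorem trc_w {j : ℕ} (hA : Agree p 𝔤 𝔤' a σ ρ W j) (t : ℝ) {e : Edge} (h0 : e.1 ∈ W) (h1 : e.1 + uv e.2 ∈ W) :
    𝔤'.w (trE a e) = σ e.1 * σ (e.1 + uv e.2) * 𝔤.w e ∧ 𝔤'.wT t (trE a e) = σ e.1 * σ (e.1 + uv e.2) * 𝔤.wT t e := by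
  have h : 𝔤'.w (trE a e) = σ e.1 * σ (e.1 + uv e.2) * 𝔤.w e := hA.w e h0 h1
  have h2 : |𝔤'.w (trE a e)| = |𝔤.w e| := by
    rw [h]
    rcases hA.sign e.1 with h3 | h3 <;> rcases hA.sign (e.1 + uv e.2) with h4 | h4 <;> simp [h3, h4]
  refine ⟨h, ?_⟩
  unfold Geom.wT
  rw [h2, h]
  split_ifs <;> ring

theorem trc_mem (x : Site) (α : Fin 4) :
    (edgeOf x α).1 ∈ box x 1 ∧ (edgeOf x α).1 + uv (edgeOf x α).2 ∈ box x 1 ∧ x + dv α ∈ box x 1 := by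
  fin_cases α <;> simp [box, edgeOf, uv, dv] <;> omega

/-- `sV_th2`, `IsSign.mul_self`, `tr_eM`, `shE_edgeOf`, `Agree.w`, `Agree.vol`; `|w'| = |w|` -/
theorem tr_q {j : ℕ} (hA : Agree p 𝔤 𝔤' a σ ρ W j) (c : ℝ × ℝ) (μ : ℝ) (V : Finset Site → ℝ) {x : Site}
    (hx : box x 1 ⊆ W) : (𝔤'.s0 p c μ V).q (x + a) = trA a σ ρ ((𝔤.s0 p c μ V).q x) := by
  have hx0 : x ∈ W := hx (self_mem_box x 1)
  have h0 : trA a σ ρ (a0M Sum.inl x) = a0M Sum.inl (x + a) := by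
    simp only [a0M, map_sum]
    refine Finset.sum_congr rfl fun α _ => Finset.sum_congr rfl fun β _ => ?_
    split_ifs
    · have := sV_th2 (fun i => σ i.1) (shH a) (rhoB ρ) (x, α) (x, β)
      rw [hA.sign.mul_self, one_smul] at this
      exact this
    · exact map_zero _
  simp only [Geom.s0, pLoc, map_add, map_smul, map_sum, h0, hA.vol x hx0]
  congr 1
  refine Finset.sum_congr rfl fun α _ => ?_
  obtain ⟨h1, h2, h3⟩ := trc_mem x α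
  obtain ⟨h4, h5⟩ := trc_w hA (tOf c) (hx h1) (hx h2)
  rw [tr_eM, ← shE_edgeOf, h4, h5, smul_smul, add_right_comm x a]
  simp only [hA.vol _ (hx h3)]
  congr 1
  ring

theorem tr_xE {j : ℕ} (hA : Agree p 𝔤 𝔤' a σ ρ W j) (c : ℝ × ℝ) {e : Edge} (h0 : e.1 ∈ W) (h1 : e.1 + uv e.2 ∈ W) :
    𝔤'.xE c (trE a e) = trA a σ ρ (𝔤.xE c e) := by
  rw [Geom.xE, Geom.xE, map_smul, tr_eM, (trc_w hA (tOf c) h0 h1).2, smul_smul]
  congr 1
  ring

/-- `sV_tau_rho`; factors with `ρ k = none` are `1`; `Finset.prod_bij_ne_one` or `prod_bij` on the filtered product;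
`(y' k').1 ∈ oS' k'` (`InitOK.obs`) gives `Agree.obs'` -/
theorem tr_actO {j R : ℕ} {c : ℝ × ℝ} (h' : InitOK p R c 𝔤') (hA : Agree p 𝔤 𝔤' a σ ρ W j) {Y : Finset Site} (hY : Y ⊆ W)
    (n : Cfg) : 𝔤'.actO (Y.image (· + a)) n = trA a σ ρ (𝔤.actO Y (n ∘ trE a)) := by
  have ht : ∀ k, trA a σ ρ (tau k) = (ρ k).elim 0 tau := sV_tau_rho (fun i => σ i.1) (shH a) ρ
  simp only [Geom.actO, map_sub, map_one, map_prod, map_add, map_smul, ht]
  congr 1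
  rw [← Finset.prod_filter_of_ne (s := (Finset.range 𝔤.m).filter fun k => 𝔤.oS k = Y) (p := fun k => (ρ k).isSome)
    fun k _ hk => by
      cases e : ρ k with
      | none => simp [e] at hk
      | some k' => rfl]
  symm
  refine Finset.prod_bij (fun k _ => (ρ k).getD 0) (fun k hk => ?_) (fun k₁ h₁ k₂ h₂ e => ?_) (fun k' hk' => ?_) fun k hk => ?_
  · simp only [Finset.mem_filter, Finset.mem_range] at hk ⊢
    obtain ⟨k', e⟩ := Option.isSome_iff_exists.1 hk.2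
    obtain ⟨-, h2, -, h4, -⟩ := hA.obs k k' e
    rw [e, Option.getD_some, h4, hk.1.2]
    exact ⟨h2, rfl⟩
  · obtain ⟨k', e₁⟩ := Option.isSome_iff_exists.1 (Finset.mem_filter.1 h₁).2
    obtain ⟨k'', e₂⟩ := Option.isSome_iff_exists.1 (Finset.mem_filter.1 h₂).2
    simp only [e₁, e₂, Option.getD_some] at e
    exact hA.inj k₁ k₂ k' e₁ (e ▸ e₂)
  · simp only [Finset.mem_filter, Finset.mem_range] at hk'
    have h1 := (h'.obs k' hk'.1).2.1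
    rw [hk'.2] at h1
    obtain ⟨z, hz, e⟩ := Finset.mem_image.1 h1
    obtain ⟨k, hk⟩ := hA.obs' k' hk'.1 (by rw [← e, add_sub_cancel_right]; exact hY hz)
    obtain ⟨h2, -, -, h4, -⟩ := hA.obs k k' hk
    refine ⟨k, ?_, by simp [hk]⟩
    simp only [Finset.mem_filter, Finset.mem_range, hk, Option.isSome_some, and_true]
    exact ⟨h2, Finset.image_injective (add_left_injective a) (h4.symm.trans hk'.2)⟩
  · obtain ⟨k', e⟩ := Option.isSome_iff_exists.1 (Finset.mem_filter.1 hk).2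
    obtain ⟨-, -, -, -, h5, -⟩ := hA.obs k k' e
    simp only [e, Option.getD_some, Option.elim_some, h5]

/-- `(lsym_shift a).s0_rel`, `LSym.actV` -/
theorem tr_s0 {j R : ℕ} {c : ℝ × ℝ} (h' : InitOK p R c 𝔤') (hA : Agree p 𝔤 𝔤' a σ ρ W j) {V : Finset Site → ℝ}
    (hV : PotOK R V) (μ : ℝ) {W₀ : Set Site} (hW : ∀ x ∈ W₀, box x 1 ⊆ W) :
    (𝔤.s0 p c μ V).Rel (· + a) (trA a σ ρ) W₀ (𝔤'.s0 p c μ V) := by
  have hW0 : ∀ x ∈ W₀, x ∈ W := fun x hx => hW x hx (self_mem_box x 1)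
  refine (lsym_shift a).s0_rel (trA a σ ρ) p c μ V W₀ (fun x hx => tr_q hA c μ V (hW x hx))
    (fun e h0 h1 => tr_xE hA c (hW0 _ h0) (hW0 _ h1)) (fun Y hY n => tr_actO h' hA (fun x hx => hW0 x (hY hx)) n)
    fun Y hY n => ?_
  exact (lsym_shift a).actV (trA a σ ρ) hV.even (fun B => hV.trans B a) μ
    (fun B (hB : bSites B = Y) => hA.shp B fun x hx => hW0 x (hY (Finset.mem_coe.2 (hB ▸ hx)))) n

end Crest.Agent.R165.D4
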