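import Crest.Agent.R165.D4.Hat
import Crest.Agent.R165.D4.SV

/-! # R165/D4 (owner helper23): the initial state in finite volume -/

set_option autoImplicit false
noncomputable section
open Classical

namespace Crest.Agent.R165.D4

theorem za_end (x : Site) (α : Fin 4) : (edgeOf x α).1 = x ∨ (edgeOf x α).1 + uv (edgeOf x α).2 = x := by
  fin_cases α <;> simp [edgeOf, uv]

theorem za_grp {A : Type} [CommRing A] {l : ℕ} {P : Finset Site → A} {Λ Z : Finset Site}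
    (hP : ∀ Y, ¬ Y ⊆ Λ → P Y = 0) (hZ : ¬ Z ⊆ Λ) : geoZ.grp l l P (fun _ => 0) Z = 0 :=
  geoZ.grp_of_not_subset _ _ hP (fun _ _ => rfl) hZ

theorem za_pLoc {I : Type} (ι : HE → I) {ρ : Site → ℝ} {w w' : Edge → ℝ} {x : Site} (h0 : ρ x = 1)
    (h1 : ∀ α, ρ (x + dv α) = 1) (h2 : ∀ α, w' (edgeOf x α) = w (edgeOf x α)) : pLoc ι ρ w w' x = 0 := by
  simp only [pLoc, h0, h1, h2, one_pow, one_mul, sub_self, mul_zero, zero_smul, Finset.sum_const_zero, add_zero]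

/-- `q`: `x ∉ Λ₀` and no neighbour of `x` is in `Λ₀` (`dv_add_two`), so `ρ = 1`; `wT = w` on the edges at `x` (`InitOK.crit`;
`x` is an end of `edgeOf x α`). `M`, `K`: `Geo.grp_of_not_subset`, `act_eq_zero`, `hat_zero` -/
theorem s0_in {p : Par} {R : ℕ} (hR : 10 * R + 20 ≤ p.l0) {c : ℝ × ℝ} {𝔤 : Geom} (h : InitOK p R c 𝔤) (μ : ℝ)
    (V : Finset Site → ℝ) {Λ₀ Λf : Finset Site} (hv : 𝔤.Λ = ↑Λ₀) (hb : ∀ x ∈ Λ₀, x ∈ Λf ∧ ∀ α, x + dv α ∈ Λf) :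
    (𝔤.s0 p c μ V).In Λf := by
  have hz : ∀ Y, ¬ Y ⊆ Λf → 𝔤.actO Y = 0 ∧ act 𝔤 μ V Y = 0 := fun Y hY =>
    act_eq_zero hR h μ V (Or.inr fun h' => hY fun x hx => (hb x (by rw [hv] at h'; exact h' hx)).1)
  refine ⟨fun x hx => ?_, fun _ _ => rfl, fun Z hZ => ?_, fun Z hZ => ?_⟩
  · have h0 : x ∉ 𝔤.Λ := fun h' => hx (hb x (by rwa [hv] at h')).1
    have h1 : ∀ α, x + dv α ∉ 𝔤.Λ := fun α h' => by
      have := (hb _ (by rwa [hv] at h')).2 (α + 2)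
      rw [dv_add_two, add_neg_cancel_right] at this
      exact hx this
    have h2 : ∀ α, 𝔤.wT (tOf c) (edgeOf x α) = 𝔤.w (edgeOf x α) := fun α => if_neg fun h' => by
      rcases za_end x α with e | e
      · exact h0 (e ▸ (h.crit _ h').1)
      · exact h0 (e ▸ (h.crit _ h').2)
    exact za_pLoc Sum.inl (ρ := fun y => if y ∈ 𝔤.Λ then Real.sqrt (1 + c.2) else 1) (w := 𝔤.w) (w' := 𝔤.wT (tOf c))
      (if_neg h0) (fun α => if_neg (h1 α)) h2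
  · rw [s0_M, za_grp (fun Y hY => (hz Y hY).1) hZ, hat_zero]
  · rw [s0_K, za_grp (fun Y hY => (hz Y hY).1) hZ, za_grp (fun Y hY => (hz Y hY).2) hZ, hat_zero, sub_zero]

/-- `1 + act = (1 + actO)(1 + actV)`; `Finset.prod_fiberwise_of_maps_to` for `k ↦ oS k` and `B ↦ bSites B` (`subset_bSites`) -/
theorem prod_act {p : Par} {R : ℕ} {c : ℝ × ℝ} {𝔤 : Geom} (h : InitOK p R c 𝔤) (μ : ℝ) (V : Finset Site → ℝ)
    {Λ : Finset Site} (hΛ : 𝔤.Λ ⊆ ↑Λ) {𝒮 : Finset (Finset Site)} (hs : 𝔤.shp = ↑𝒮) :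
    ∏ Y ∈ Λ.powerset, (1 + act 𝔤 μ V Y) =
      fun n => pertF 𝒮 μ V n • ∏ i ∈ Finset.range 𝔤.m, (1 + 𝔤.O i n • (tau i : Al)) := by
  funext n
  have e : ∀ Y, (1 + act 𝔤 μ V Y) n = algebraMap ℝ Al (pertF (𝒮.filter fun B => bSites B = Y) μ V n) *
      ∏ k ∈ (Finset.range 𝔤.m).filter fun k => 𝔤.oS k = Y, (1 + 𝔤.O k n • (tau k : Al)) := fun Y => by
    have e1 : (Y.powerset.filter fun B => B ∈ 𝔤.shp ∧ bSites B = Y) = 𝒮.filter fun B => bSites B = Y := by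
      ext B
      simp only [Finset.mem_filter, Finset.mem_powerset, hs, Finset.mem_coe]
      exact ⟨fun h' => h'.2, fun h' => ⟨h'.2 ▸ subset_bSites B, h'⟩⟩
    simp only [act, Pi.add_apply, Pi.mul_apply, Pi.one_apply, Geom.actO, Geom.actV, e1, map_sub, map_one]
    ring
  rw [Finset.prod_apply]
  simp only [e]
  rw [Finset.prod_mul_distrib, ← map_prod, Algebra.smul_def,
    Finset.prod_fiberwise_of_maps_to (g := 𝔤.oS) fun k hk =>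
      Finset.mem_powerset.2 (Finset.coe_subset.1 ((h.obs k (Finset.mem_range.1 hk)).2.2.1.trans hΛ))]
  congr 2
  exact Finset.prod_fiberwise_of_maps_to (g := bSites) (fun B hB =>
    Finset.mem_powerset.2 (Finset.coe_subset.1 ((h.shape B (by rw [hs]; exact hB)).2.trans hΛ))) _

/-- `cstV` is the projection of `rep_general` (`Finsupp.lhom_ext'`; `restrictDom`) -/
theorem cstA_proj (a : Al) : ((cstA a : Al) : Gr Ix) = gmap (Finsupp.lmapDomain ℝ ℝ id ∘ₗ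
    (Finsupp.supported ℝ ℝ (Set.range (Sum.inl : HE → Ix))ᶜ).subtype ∘ₗ
      Finsupp.restrictDom ℝ ℝ (Set.range (Sum.inl : HE → Ix))ᶜ) (a : Gr Ix) := by
  have e : cstV = Finsupp.lmapDomain ℝ ℝ id ∘ₗ
      (Finsupp.supported ℝ ℝ (Set.range (Sum.inl : HE → Ix))ᶜ).subtype ∘ₗ
        Finsupp.restrictDom ℝ ℝ (Set.range (Sum.inl : HE → Ix))ᶜ := by
    refine Finsupp.lhom_ext' fun i => LinearMap.ext_ring ?_
    simp only [LinearMap.comp_apply, Finsupp.lsingle_apply, cstV, vmap_single, Finsupp.lmapDomain_apply,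
      Finsupp.mapDomain_id, Submodule.subtype_apply, Finsupp.restrictDom_apply]
    rcases i with a | q
    · rw [Finsupp.filter_single_of_neg]
      · rfl
      · simp
    · rw [Finsupp.filter_single_of_pos]
      · rfl
      · simp
  rw [cstA_eq, coe_gmapE, e]

/-- `M + K = hat (grp act)`; `hat_xi`, `grp_dependsOn`, `xi_grp` in the ring `Cfg → Al` (`xi_zero`, `act_eq_zero`);
`∏_{Y ⊆ Λf} = ∏_{Y ⊆ Λ₀}` by `prod_act` twice, it depends only on `edgesIn Λ₀` (`act_dependsOn`), `hat_congr` -/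
theorem xi_s0 {p : Par} {R : ℕ} (hR : 10 * R + 20 ≤ p.l0) {c : ℝ × ℝ} {𝔤 : Geom} (h : InitOK p R c 𝔤) (μ : ℝ)
    (V : Finset Site → ℝ) {Λ₀ Λf : Finset Site} (hv : 𝔤.Λ = ↑Λ₀) (hb : Λ₀ ⊆ Λf) {𝒮 : Finset (Finset Site)}
    (hs : 𝔤.shp = ↑𝒮) :
    DependsOn (fun n => pertF 𝒮 μ V n • ∏ i ∈ Finset.range 𝔤.m, (1 + 𝔤.O i n • (tau i : Al))) ↑(edgesIn Λ₀) ∧
    geoZ.Xi p.l0 (fun Y => (𝔤.s0 p c μ V).M Y + (𝔤.s0 p c μ V).K Y) Λf =
      hat (𝔤.xE c) (edgesIn Λ₀) fun n => pertF 𝒮 μ V n • ∏ i ∈ Finset.range 𝔤.m, (1 + 𝔤.O i n • (tau i : Al)) := by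
  have h0 := prod_act h μ V (Λ := Λ₀) hv.le hs
  have h1 := prod_act h μ V (Λ := Λf) (hv.le.trans (Finset.coe_subset.2 hb)) hs
  have hd : DependsOn (fun n => pertF 𝒮 μ V n • ∏ i ∈ Finset.range 𝔤.m, (1 + 𝔤.O i n • (tau i : Al))) ↑(edgesIn Λ₀) := by
    rw [← h0]
    intro n n' hn
    rw [Finset.prod_apply, Finset.prod_apply]
    refine Finset.prod_congr rfl fun Y hY => ?_
    rw [Pi.add_apply, Pi.add_apply,
      act_dependsOn h μ V Y fun e he => hn e (edgesIn_mono (Finset.mem_powerset.1 hY) he)]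
    rfl
  refine ⟨hd, ?_⟩
  have e : (fun Y => (𝔤.s0 p c μ V).M Y + (𝔤.s0 p c μ V).K Y) =
      fun Y => hat (𝔤.xE c) (edgesIn Y) (geoZ.grp p.l0 p.l0 (act 𝔤 μ V) (fun _ => 0) Y) := by
    funext Y
    rw [s0_K, s0_M, add_sub_cancel]
  have hx := xi_grp geoZ (le_refl p.l0) (act 𝔤 μ V) (fun _ => 0)
    (fun Z hZ => (act_eq_zero hR h μ V (Or.inl hZ)).2) (fun _ _ => rfl) Λf
  rw [xi_zero, mul_one, h1] at hx
  rw [e, ← hat_xi _ _ (grp_dependsOn p.l0 (act_dependsOn h μ V)), ← hx, hat_congr _ (edgesIn_mono hb) hd]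

theorem zb_extK (g : HE → HE → ℝ) : extK (Sum.inl : HE → Ix) g = extG g := by
  funext i j
  unfold extK
  split_ifs with h
  · have h1 := h.1.choose_spec
    have h2 := h.2.choose_spec
    generalize h.1.choose = a at h1
    generalize h.2.choose = b at h2
    subst h1 h2
    rfl
  · rcases i with a | q <;> rcases j with b | q'
    · exact absurd ⟨⟨a, rfl⟩, b, rfl⟩ h
    all_goals rfl

/-- `rep_general Sum.inl` with `w' = wT (tOf c)`, `r = √(1 + c.2)`, `E₀ = edgesIn Λ₀`, `Φ = cstA`; `extK_inl`, `xi_s0` -/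
theorem s0_Z' {p : Par} {R : ℕ} (hR : 10 * R + 20 ≤ p.l0) {c : ℝ × ℝ} (hc : -1 < c.2) {𝔤 : Geom}
    (h : InitOK p R c 𝔤) (μ : ℝ) (V : Finset Site → ℝ) {g : HE → HE → ℝ} {Λ₀ Λf : Finset Site}
    {𝒮 : Finset (Finset Site)} {E₁ : Finset Edge} (hf : FinOK 𝔤 g Λ₀ Λf 𝒮 E₁) :
    𝔤.Ztau c μ V 𝒮 E₁ = (Real.sqrt (1 + c.2) ^ (-(4 * Λ₀.card : ℤ)) * Zc E₁ 𝔤.w) •
      cstA (muE (extG g) ((𝔤.s0 p c μ V).Z geoZ augE p.l0 Λf)) := by
  have hc' : 0 < 1 + c.2 := by linarith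
  obtain ⟨hd, hxi⟩ := xi_s0 hR h μ V hf.vol (fun x hx => (hf.big x hx).1) hf.shp
  have hw : ∀ e : Edge, ¬ (e.1 ∈ Λ₀ ∧ e.1 + uv e.2 ∈ Λ₀) → 𝔤.wT (tOf c) e = 𝔤.w e := by
    intro e he
    unfold Geom.wT
    rw [if_neg]
    intro h1
    have h2 := h.crit e h1
    rw [hf.vol] at h2
    exact he h2
  have hE : ∀ x ∈ Λf, ∀ α, edgeOf x α ∉ E₁ → 𝔤.w (edgeOf x α) = 0 ∧ 𝔤.wT (tOf c) (edgeOf x α) = 0 := by
    intro x hx α hα
    have h0 := hf.e₂ x hx α hα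
    refine ⟨h0, ?_⟩
    unfold Geom.wT
    rw [h0]
    simp
  have hs : ∀ n, ((pertF 𝒮 μ V n • ∏ i ∈ Finset.range 𝔤.m, (1 + 𝔤.O i n • (tau i : Al)) : Al) : Gr Ix) ∈
      supA (Set.range (Sum.inl : HE → Ix))ᶜ := by
    intro n
    refine Subalgebra.smul_mem _ (x := ((∏ i ∈ Finset.range 𝔤.m, (1 + 𝔤.O i n • (tau i : Al)) : Al) : Gr Ix)) ?_ _
    refine Finset.prod_induction _ (fun a : Al => (a : Gr Ix) ∈ supA (Set.range (Sum.inl : HE → Ix))ᶜ)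
      (fun a b ha hb => mul_mem ha hb) (one_mem _) fun i _ => ?_
    refine add_mem (one_mem _) (Subalgebra.smul_mem _ (x := ((tau i : Al) : Gr Ix)) ?_ _)
    exact mul_mem (th_mem_supA (by simp)) (th_mem_supA (by simp))
  have key := rep_general (Sum.inl : HE → Ix) Sum.inl_injective (w' := 𝔤.wT (tOf c)) hf.ker.1 Λ₀ Λf hf.big
    (Real.sqrt_pos.2 hc') hw E₁ hf.e₁ hE hf.ker.2 (edgesIn Λ₀) (fun e he => mem_edgesIn.1 he) _ hd hs cstA cstA_proj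
  rw [zb_extK, Real.sq_sqrt hc'.le] at key
  have eρ : (fun y => if y ∈ 𝔤.Λ then Real.sqrt (1 + c.2) else 1) =
      fun y => if y ∈ Λ₀ then Real.sqrt (1 + c.2) else 1 := by
    funext y
    simp only [hf.vol, Finset.mem_coe]
  have eq : ∑ x ∈ Λf, ((𝔤.s0 p c μ V).q x + (𝔤.s0 p c μ V).qm x) =
      ∑ x ∈ Λf, pLoc (Sum.inl : HE → Ix) (fun y => if y ∈ Λ₀ then Real.sqrt (1 + c.2) else 1) 𝔤.w (𝔤.wT (tOf c)) x := by
    refine Finset.sum_congr rfl fun x _ => ?_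
    rw [← eρ]
    exact add_zero _
  unfold St.Z Geom.Ztau
  rw [hxi, eq]
  simp only [mul_smul _ (pertF 𝒮 μ V _)]
  exact key

end Crest.Agent.R165.D4
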